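import Vale.Agent.P125S.R5

/-! R8 (path_pair, three_point): proofs -/

namespace P125S
open Finset
variable {S : Type} [Fintype S]

theorem r8_EX_last [DecidableEq S] (C : Chain S) (m : ℕ) (ψ : S → ℝ) :
    ∀ x : S, EX C m x (fun ω => ψ (ω (Fin.last m))) = ∑ y, ((Matrix.of C.P) ^ m) x y * ψ y := by
  induction m with
  | zero =>
    intro x
    rw [EX_zero]
    simp [Matrix.one_apply]
  | succ m ih =>
    intro x
    rw [EX_succ]
    have h1 : ∀ y : S, EX C m y (fun ω => ψ ((Fin.cons x ω : Fin (m + 2) → S) (Fin.last (m + 1))))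
        = ∑ z, ((Matrix.of C.P) ^ m) y z * ψ z := by
      intro y
      rw [← ih y]
      congr 1
    have h2 : ∑ y, C.P x y * EX C m y
        (fun ω => ψ ((Fin.cons x ω : Fin (m + 2) → S) (Fin.last (m + 1))))
        = ∑ y, C.P x y * ∑ z, ((Matrix.of C.P) ^ m) y z * ψ z :=
      Finset.sum_congr rfl fun y _ => by rw [h1 y]
    refine h2.trans ?_
    simp only [Finset.mul_sum]
    rw [Finset.sum_comm]
    refine Finset.sum_congr rfl fun z _ => ?_
    rw [pow_succ', Matrix.mul_apply, Finset.sum_mul]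
    refine Finset.sum_congr rfl fun y _ => ?_
    rw [Matrix.of_apply]
    ring

theorem r8_path_pair [DecidableEq S] (C : Chain S) (m : ℕ) (Φ : S → S → ℝ) :
    EE C m (fun ω => Φ (ω 0) (ω (Fin.last m))) =
      ∑ x, ∑ y, C.w x * ((Matrix.of C.P) ^ m) x y * Φ x y := by
  rw [EE_eq]
  refine Finset.sum_congr rfl fun x _ => ?_
  have h1 : EX C m x (fun ω => Φ (ω 0) (ω (Fin.last m)))
      = EX C m x (fun ω => Φ x (ω (Fin.last m))) := by
    unfold EX
    refine Finset.sum_congr rfl fun ω _ => ?_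
    dsimp only
    rw [Fin.cons_zero]
  rw [h1, r8_EX_last, Finset.mul_sum]
  refine Finset.sum_congr rfl fun y _ => ?_
  ring

theorem r8_pow_nonneg [DecidableEq S] (C : Chain S) (m : ℕ) :
    ∀ x y, 0 ≤ ((Matrix.of C.P) ^ m) x y := by
  induction m with
  | zero =>
    intro x y
    rw [pow_zero, Matrix.one_apply]
    split_ifs
    · exact zero_le_one
    · exact le_rfl
  | succ m ih =>
    intro x y
    rw [pow_succ', Matrix.mul_apply]
    exact Finset.sum_nonneg fun z _ => mul_nonneg (C.P_nonneg x z) (ih z y)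

theorem r8_pow_sum [DecidableEq S] (C : Chain S) (m : ℕ) :
    ∀ x, ∑ y, ((Matrix.of C.P) ^ m) x y = 1 := by
  induction m with
  | zero =>
    intro x
    simp [Matrix.one_apply]
  | succ m ih =>
    intro x
    have h : ∀ y, ((Matrix.of C.P) ^ (m + 1)) x y
        = ∑ z, C.P x z * ((Matrix.of C.P) ^ m) z y := by
      intro y
      rw [pow_succ', Matrix.mul_apply]
      rfl
    simp only [h]
    rw [Finset.sum_comm]
    simp only [← Finset.mul_sum, ih, mul_one]
    exact C.P_sum x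

theorem r8_stat1 (C : Chain S) (z : S) : ∑ x, C.w x * C.P x z = C.w z := by
  have h : ∀ x, C.w x * C.P x z = C.w z * C.P z x := fun x => C.rev x z
  simp only [h, ← Finset.mul_sum, C.P_sum, mul_one]

theorem r8_stat [DecidableEq S] (C : Chain S) (m : ℕ) :
    ∀ y, ∑ x, C.w x * ((Matrix.of C.P) ^ m) x y = C.w y := by
  induction m with
  | zero =>
    intro y
    simp [Matrix.one_apply]
  | succ m ih =>
    intro y
    have h : ∀ x, C.w x * ((Matrix.of C.P) ^ (m + 1)) x y
        = ∑ z, (C.w x * C.P x z) * ((Matrix.of C.P) ^ m) z y := by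
      intro x
      rw [pow_succ', Matrix.mul_apply, Finset.mul_sum]
      refine Finset.sum_congr rfl fun z _ => ?_
      rw [Matrix.of_apply]
      ring
    simp only [h]
    rw [Finset.sum_comm]
    have h2 : ∀ z, ∑ x, C.w x * C.P x z * ((Matrix.of C.P) ^ m) z y
        = C.w z * ((Matrix.of C.P) ^ m) z y := by
      intro z
      rw [← Finset.sum_mul, r8_stat1]
    simp only [h2]
    exact ih y

theorem r8_rpow (a b p : ℝ) (ha : 0 ≤ a) (hb : 0 ≤ b) (hp : 1 ≤ p) :
    (a + b) ^ p ≤ 2 ^ (p - 1) * (a ^ p + b ^ p) := by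
  lift a to NNReal using ha
  lift b to NNReal using hb
  have h := NNReal.rpow_add_le_mul_rpow_add_rpow a b hp
  exact_mod_cast h

/-- three point comparison -/
theorem r8_three_point [DecidableEq S] (C : Chain S) (N m : ℕ) (D : S → S → ℝ) (p : ℝ)
    (hp : 1 ≤ p) (hD0 : ∀ x y, 0 ≤ D x y) (hDs : ∀ x y, D x y = D y x)
    (hDt : ∀ x y z, D x z ≤ D x y + D y z) :
    ∑ x, ∑ y, C.w x * ((Matrix.of C.P) ^ N) x y * (D x y) ^ p
      ≤ 2 ^ (p - 1) * (∑ x, ∑ y, C.w x * ((Matrix.of C.P) ^ (N + m)) x y * (D x y) ^ p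
        + ∑ x, ∑ y, C.w x * ((Matrix.of C.P) ^ m) x y * (D x y) ^ p) := by
  have hN := r8_pow_nonneg C N
  have hM := r8_pow_nonneg C m
  set Q := (Matrix.of C.P) ^ N with hQ
  set R := (Matrix.of C.P) ^ m with hR
  have h1 : ∑ x, ∑ y, C.w x * Q x y * (D x y) ^ p
      = ∑ x, ∑ y, ∑ z, C.w x * Q x y * R y z * (D x y) ^ p := by
    refine Finset.sum_congr rfl fun x _ => Finset.sum_congr rfl fun y _ => ?_
    have : ∀ z, C.w x * Q x y * R y z * (D x y) ^ p = (C.w x * Q x y * (D x y) ^ p) * R y z :=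
      fun z => by ring
    simp only [this, ← Finset.mul_sum]
    rw [hR, r8_pow_sum C m y, mul_one]
  have h2 : ∑ x, ∑ y, ∑ z, C.w x * Q x y * R y z * (D x y) ^ p
      ≤ ∑ x, ∑ y, ∑ z, C.w x * Q x y * R y z * (2 ^ (p - 1) * ((D x z) ^ p + (D y z) ^ p)) := by
    refine Finset.sum_le_sum fun x _ => Finset.sum_le_sum fun y _ => Finset.sum_le_sum fun z _ => ?_
    refine mul_le_mul_of_nonneg_left ?_
      (mul_nonneg (mul_nonneg (C.w_nonneg x) (hN x y)) (hM y z))
    have h3 : D x y ≤ D x z + D y z := by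
      have := hDt x z y
      rw [hDs z y] at this
      exact this
    refine (Real.rpow_le_rpow (hD0 x y) h3 (by linarith)).trans ?_
    exact r8_rpow _ _ p (hD0 x z) (hD0 y z) hp
  have h3 : ∑ x, ∑ y, ∑ z, C.w x * Q x y * R y z * (2 ^ (p - 1) * ((D x z) ^ p + (D y z) ^ p))
      = 2 ^ (p - 1) * (∑ x, ∑ y, ∑ z, C.w x * Q x y * R y z * (D x z) ^ p
        + ∑ x, ∑ y, ∑ z, C.w x * Q x y * R y z * (D y z) ^ p) := by
    rw [← Finset.sum_add_distrib, Finset.mul_sum]
    refine Finset.sum_congr rfl fun x _ => ?_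
    rw [← Finset.sum_add_distrib, Finset.mul_sum]
    refine Finset.sum_congr rfl fun y _ => ?_
    rw [← Finset.sum_add_distrib, Finset.mul_sum]
    refine Finset.sum_congr rfl fun z _ => ?_
    ring
  have h4 : ∑ x, ∑ y, ∑ z, C.w x * Q x y * R y z * (D x z) ^ p
      = ∑ x, ∑ z, C.w x * ((Matrix.of C.P) ^ (N + m)) x z * (D x z) ^ p := by
    refine Finset.sum_congr rfl fun x _ => ?_
    rw [Finset.sum_comm]
    refine Finset.sum_congr rfl fun z _ => ?_
    rw [pow_add, Matrix.mul_apply, Finset.mul_sum, Finset.sum_mul]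
    refine Finset.sum_congr rfl fun y _ => ?_
    ring
  have h5 : ∑ x, ∑ y, ∑ z, C.w x * Q x y * R y z * (D y z) ^ p
      = ∑ y, ∑ z, C.w y * R y z * (D y z) ^ p := by
    rw [Finset.sum_comm]
    refine Finset.sum_congr rfl fun y _ => ?_
    rw [Finset.sum_comm]
    refine Finset.sum_congr rfl fun z _ => ?_
    rw [← Finset.sum_mul, ← Finset.sum_mul, hQ, r8_stat C N y]
  rw [h1]
  refine h2.trans (le_of_eq ?_)
  rw [h3, h4, h5]

end P125S
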