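import Vale.Agent.P125S.Defs

/-! R3: Abel summation bound (helper16) -/

namespace P125S
open Finset

theorem abel_bound16 (n s : ℕ) (hs : s ≤ 1) (v d : ℕ → ℝ) :
    ∃ j : ℕ, |∑ c ∈ range n, cum v (c + s) * d c| ≤ tv n v * |∑ c ∈ Ico j n, d c| := by
  rcases Nat.eq_zero_or_pos n with h0 | hn
  · subst h0
    exact ⟨0, by simp [tv]⟩
  set D : ℕ → ℝ := fun e => ∑ c ∈ Ico (e + 1 - s) n, d c with hD
  have hne : (range n).Nonempty := ⟨0, mem_range.2 hn⟩
  obtain ⟨e0, -, he0⟩ := Finset.exists_max_image (range n) (fun e => |D e|) hne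
  refine ⟨e0 + 1 - s, ?_⟩
  have h1 : ∑ c ∈ range n, cum v (c + s) * d c = ∑ e ∈ range n, v e * D e := by
    have h2 : ∀ c ∈ range n, cum v (c + s) * d c
        = ∑ e ∈ range n, if e < c + s then v e * d c else 0 := by
      intro c hc
      rw [mem_range] at hc
      rw [cum, Finset.sum_mul, ← Finset.sum_filter]
      apply Finset.sum_congr _ (fun _ _ => rfl)
      ext e
      rw [mem_range, mem_filter, mem_range]
      omega
    rw [Finset.sum_congr rfl h2, Finset.sum_comm]
    apply Finset.sum_congr rfl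
    intro e _
    rw [← Finset.sum_filter, hD, Finset.mul_sum]
    apply Finset.sum_congr _ (fun _ _ => rfl)
    ext c
    rw [mem_filter, mem_range, mem_Ico]
    omega
  rw [h1]
  calc |∑ e ∈ range n, v e * D e| ≤ ∑ e ∈ range n, |v e * D e| := Finset.abs_sum_le_sum_abs _ _
    _ ≤ ∑ e ∈ range n, |v e| * |D e0| := by
        apply Finset.sum_le_sum
        intro e he
        rw [abs_mul]
        exact mul_le_mul_of_nonneg_left (he0 e he) (abs_nonneg _)
    _ = tv n v * |D e0| := by rw [tv, Finset.sum_mul]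

end P125S
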