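import Vale.Agent.P125S.R4

/-! R5c, second part: third power of the norm, pointwise -/

namespace P125S
open Finset
variable {S : Type} [Fintype S]

/-- copy of `after` -/
def after13 (m : ℕ) (G : S → S → ℕ → ℝ) (ω : Fin (m + 1) → S) (i : Fin m) (c : ℕ) : ℝ :=
  ∑ j : Fin m, if i < j then G (ω j.castSucc) (ω j.succ) c else 0

/-- sum of `G` over the steps before step `i` -/
def before13 (m : ℕ) (G : S → S → ℕ → ℝ) (ω : Fin (m + 1) → S) (i : Fin m) (c : ℕ) : ℝ :=
  ∑ j : Fin m, if j < i then G (ω j.castSucc) (ω j.succ) c else 0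

/-- copy of `Jfun` -/
def Jfun13 (m n s : ℕ) (G : S → S → ℕ → ℝ) (ω : Fin (m + 1) → S) : ℝ :=
  ∑ i : Fin m, ∑ c ∈ range n, |G (ω i.castSucc) (ω i.succ) c| *
    (cum (after13 m G ω i) (c + s)) ^ 2

/-- the same with `before13` -/
def Jbef13 (m n s : ℕ) (G : S → S → ℕ → ℝ) (ω : Fin (m + 1) → S) : ℝ :=
  ∑ i : Fin m, ∑ c ∈ range n, |G (ω i.castSucc) (ω i.succ) c| *
    (cum (before13 m G ω i) (c + s)) ^ 2

theorem cum13_neg (v : ℕ → ℝ) (k : ℕ) : cum (fun c => -v c) k = -cum v k := by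
  unfold cum
  rw [sum_neg_distrib]

theorem split13 (m : ℕ) (G : S → S → ℕ → ℝ) (ω : Fin (m + 1) → S) (i : Fin m) (c : ℕ) :
    psum m G ω c = before13 m G ω i c + (G (ω i.castSucc) (ω i.succ) c + after13 m G ω i c) := by
  unfold psum before13 after13
  have h : ∀ j : Fin m, G (ω j.castSucc) (ω j.succ) c
      = (if j < i then G (ω j.castSucc) (ω j.succ) c else 0)
        + ((if j = i then G (ω j.castSucc) (ω j.succ) c else 0)
          + (if i < j then G (ω j.castSucc) (ω j.succ) c else 0)) := by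
    intro j
    rcases lt_trichotomy j i with h1 | h1 | h1
    · rw [if_pos h1, if_neg (ne_of_lt h1), if_neg (not_lt.2 h1.le)]
      ring
    · subst h1
      rw [if_neg (lt_irrefl _), if_pos rfl]
      ring
    · rw [if_neg (not_lt.2 h1.le), if_neg (ne_of_gt h1), if_pos h1]
      ring
  rw [sum_congr rfl fun j _ => h j, sum_add_distrib, sum_add_distrib, sum_ite_eq',
    if_pos (mem_univ i)]

theorem step_rev13 (m : ℕ) (G : S → S → ℕ → ℝ) (hG : ∀ x y c, G y x c = -G x y c)
    (ω : Fin (m + 1) → S) (i : Fin m) (c : ℕ) :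
    G ((fun i => ω (Fin.rev i)) i.castSucc) ((fun i => ω (Fin.rev i)) i.succ) c
      = -G (ω (Fin.rev i).castSucc) (ω (Fin.rev i).succ) c := by
  show G (ω (Fin.rev i.castSucc)) (ω (Fin.rev i.succ)) c = _
  rw [Fin.rev_castSucc, Fin.rev_succ]
  exact hG _ _ _

theorem after_rev13 (m : ℕ) (G : S → S → ℕ → ℝ) (hG : ∀ x y c, G y x c = -G x y c)
    (ω : Fin (m + 1) → S) (i : Fin m) :
    after13 m G (fun i => ω (Fin.rev i)) i = fun c => -before13 m G ω (Fin.rev i) c := by
  funext c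
  unfold after13 before13
  rw [← sum_neg_distrib]
  rw [← Equiv.sum_comp Fin.revPerm (fun j : Fin m =>
    -(if j < Fin.rev i then G (ω j.castSucc) (ω j.succ) c else 0))]
  apply sum_congr rfl
  intro j _
  rw [step_rev13 m G hG ω j c]
  simp only [Fin.revPerm_apply]
  by_cases h : i < j
  · rw [if_pos h, if_pos (Fin.rev_lt_rev.2 h)]
  · rw [if_neg h, if_neg (fun h1 => h (Fin.rev_lt_rev.1 h1)), neg_zero]

theorem Jfun_rev13 (m n s : ℕ) (G : S → S → ℕ → ℝ) (hG : ∀ x y c, G y x c = -G x y c)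
    (ω : Fin (m + 1) → S) :
    Jfun13 m n s G (fun i => ω (Fin.rev i)) = Jbef13 m n s G ω := by
  unfold Jfun13 Jbef13
  rw [← Equiv.sum_comp Fin.revPerm (fun i : Fin m =>
    ∑ c ∈ range n, |G (ω i.castSucc) (ω i.succ) c| * (cum (before13 m G ω i) (c + s)) ^ 2)]
  apply sum_congr rfl
  intro i _
  apply sum_congr rfl
  intro c _
  rw [step_rev13 m G hG ω i c, after_rev13 m G hG ω i, cum13_neg, abs_neg, neg_sq]
  rfl

theorem nrm_cube13 (m n : ℕ) (G : S → S → ℕ → ℝ) (hG : ∀ x y c, G y x c = -G x y c)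
    (hg1 : ∀ x y, tv n (G x y) ≤ 1) (ω : Fin (m + 1) → S) :
    (nrm n (psum m G ω)) ^ 3 ≤ (9 / 2) * (Jfun13 m n 0 G ω + Jfun13 m n 1 G ω
      + Jfun13 m n 0 G (fun i => ω (Fin.rev i)) + Jfun13 m n 1 G (fun i => ω (Fin.rev i))
      + 2 * asum m (fun x y => tv n (G x y)) ω) := by
  rw [Jfun_rev13 m n 0 G hG ω, Jfun_rev13 m n 1 G hG ω]
  have h1 := cubic n (psum m G ω) (fun c => ∑ i : Fin m, |G (ω i.castSucc) (ω i.succ) c|)
    (fun c => abs_sum_le_sum_abs _ _)
  refine h1.trans ?_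
  have key : ∀ s, s ≤ 1 → ∑ c ∈ range n, (∑ i : Fin m, |G (ω i.castSucc) (ω i.succ) c|)
      * (cum (psum m G ω) (c + s)) ^ 2
      ≤ 3 * (Jfun13 m n s G ω + Jbef13 m n s G ω + asum m (fun x y => tv n (G x y)) ω) := by
    intro s hs
    have e1 : ∑ c ∈ range n, (∑ i : Fin m, |G (ω i.castSucc) (ω i.succ) c|)
        * (cum (psum m G ω) (c + s)) ^ 2
        = ∑ i : Fin m, ∑ c ∈ range n, |G (ω i.castSucc) (ω i.succ) c|
          * (cum (psum m G ω) (c + s)) ^ 2 := by
      rw [sum_comm]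
      apply sum_congr rfl
      intro c _
      rw [sum_mul]
    rw [e1]
    have e2 : 3 * (Jfun13 m n s G ω + Jbef13 m n s G ω + asum m (fun x y => tv n (G x y)) ω)
        = ∑ i : Fin m, ∑ c ∈ range n, |G (ω i.castSucc) (ω i.succ) c| *
          (3 * ((cum (after13 m G ω i) (c + s)) ^ 2 + (cum (before13 m G ω i) (c + s)) ^ 2 + 1)) := by
      unfold Jfun13 Jbef13 asum tv
      rw [← sum_add_distrib, ← sum_add_distrib, mul_sum]
      apply sum_congr rfl
      intro i _
      rw [← sum_add_distrib, ← sum_add_distrib, mul_sum]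
      apply sum_congr rfl
      intro c _
      ring
    rw [e2]
    apply sum_le_sum
    intro i _
    apply sum_le_sum
    intro c hc
    apply mul_le_mul_of_nonneg_left _ (abs_nonneg _)
    have hk : c + s ≤ n := by
      rw [mem_range] at hc
      omega
    have e3 : cum (psum m G ω) (c + s) = cum (before13 m G ω i) (c + s)
        + (cum (G (ω i.castSucc) (ω i.succ)) (c + s) + cum (after13 m G ω i) (c + s)) := by
      have : psum m G ω = fun c => before13 m G ω i c
          + (G (ω i.castSucc) (ω i.succ) c + after13 m G ω i c) := by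
        funext c
        exact split13 m G ω i c
      rw [this, cum13_add, cum13_add]
    have e4 : |cum (G (ω i.castSucc) (ω i.succ)) (c + s)| ≤ 1 :=
      ((nrm13_ge _ hk).trans (nrm13_le_tv n _)).trans (hg1 _ _)
    have e5 : (cum (G (ω i.castSucc) (ω i.succ)) (c + s)) ^ 2 ≤ 1 := by
      rw [← sq_abs]
      exact pow_le_one₀ (abs_nonneg _) e4
    rw [e3]
    set x := cum (before13 m G ω i) (c + s)
    set y := cum (G (ω i.castSucc) (ω i.succ)) (c + s)
    set z := cum (after13 m G ω i) (c + s)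
    nlinarith [sq_nonneg (x - y), sq_nonneg (y - z), sq_nonneg (x - z)]
  have k0 := key 0 (by norm_num)
  have k1 := key 1 le_rfl
  have e6 : ∑ c ∈ range n, (∑ i : Fin m, |G (ω i.castSucc) (ω i.succ) c|)
      * ((cum (psum m G ω) c) ^ 2 + (cum (psum m G ω) (c + 1)) ^ 2)
      = ∑ c ∈ range n, (∑ i : Fin m, |G (ω i.castSucc) (ω i.succ) c|)
        * (cum (psum m G ω) (c + 0)) ^ 2
        + ∑ c ∈ range n, (∑ i : Fin m, |G (ω i.castSucc) (ω i.succ) c|)
        * (cum (psum m G ω) (c + 1)) ^ 2 := by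
    rw [← sum_add_distrib]
    apply sum_congr rfl
    intro c _
    rw [add_zero]
    ring
  rw [e6]
  linarith

end P125S
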