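import Mathlib

/-!
# Summing operator and reversible chains: definitions
Coordinates are indexed by natural numbers below `n`; jump vectors are functions `ℕ → ℝ`.
-/

namespace P125S

open Finset

/-- A finite stationary reversible Markov chain. -/
structure Chain (S : Type) [Fintype S] where
  /-- the stationary law -/
  w : S → ℝ
  /-- the transition matrix -/
  P : S → S → ℝ
  w_nonneg : ∀ x, 0 ≤ w x
  w_sum : ∑ x, w x = 1
  P_nonneg : ∀ x y, 0 ≤ P x y
  P_sum : ∀ x, ∑ y, P x y = 1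
  rev : ∀ x y, w x * P x y = w y * P y x

/-- prefix sums -/
def cum (v : ℕ → ℝ) (k : ℕ) : ℝ := ∑ c ∈ range k, v c

/-- sup norm of the prefix sums up to `n` -/
noncomputable def nrm (n : ℕ) (v : ℕ → ℝ) : ℝ :=
  (range (n + 1)).sup' ⟨0, by simp⟩ (fun k => |cum v k|)

/-- total variation -/
def tv (n : ℕ) (v : ℕ → ℝ) : ℝ := ∑ c ∈ range n, |v c|

variable {S : Type} [Fintype S]

/-- weight of a path -/
def pathW (C : Chain S) (m : ℕ) (ω : Fin (m + 1) → S) : ℝ :=
  C.w (ω 0) * ∏ i : Fin m, C.P (ω i.castSucc) (ω i.succ)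

/-- expectation over stationary paths with `m` steps -/
def EE (C : Chain S) (m : ℕ) (F : (Fin (m + 1) → S) → ℝ) : ℝ :=
  ∑ ω : Fin (m + 1) → S, pathW C m ω * F ω

/-- sum of an edge function along a path -/
def psum (m : ℕ) (G : S → S → ℕ → ℝ) (ω : Fin (m + 1) → S) (c : ℕ) : ℝ :=
  ∑ i : Fin m, G (ω i.castSucc) (ω i.succ) c

/-- sum of a scalar edge function along a path -/
def asum (m : ℕ) (g : S → S → ℝ) (ω : Fin (m + 1) → S) : ℝ :=
  ∑ i : Fin m, g (ω i.castSucc) (ω i.succ)

/-- stationary mean of an edge function -/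
def rho (C : Chain S) (g : S → S → ℝ) : ℝ := ∑ x, ∑ y, C.w x * C.P x y * g x y

/-- killed kernel -/
noncomputable def ker (C : Chain S) (q h : ℝ) (g : S → S → ℝ) (x y : S) : ℝ :=
  q * C.P x y * Real.exp (-(g x y) / h)

/-- traffic of coordinate `c` at `x` -/
def kap (C : Chain S) (G : S → S → ℕ → ℝ) (c : ℕ) (x : S) : ℝ := ∑ y, C.P x y * |G x y c|

/-- the three linear equations for survival, first and second moment -/
structure Sys (C : Chain S) (q h : ℝ) (g : S → S → ℝ) (G : S → S → ℕ → ℝ)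
    (u : S → ℝ) (a b : ℕ → S → ℝ) : Prop where
  hu : ∀ x, u x = (1 - q) + ∑ y, ker C q h g x y * u y
  ha : ∀ k x, a k x = ∑ y, ker C q h g x y * (a k y + cum (G x y) k * u y)
  hb : ∀ k x, b k x = ∑ y, ker C q h g x y *
    (b k y + 2 * cum (G x y) k * a k y + (cum (G x y) k) ^ 2 * u y)

end P125S
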