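import Mathlib

/-! R8: passage from geometric to deterministic time (second hand) -/

namespace P125S
open Finset

theorem det_time23 (d : ℕ → ℝ) (hd : ∀ m, 0 ≤ d m) (B A : ℝ) (hA : 1 ≤ A)
    (h1 : ∀ N m, d N ≤ A * (d (N + m) + d m))
    (h2 : ∀ q : ℝ, 0 < q → q < 1 → ∀ Mx, ∑ m ∈ range Mx, (1 - q) * q ^ m * d m ≤ B / (1 - q))
    (N : ℕ) (hN : 1 ≤ N) : d N ≤ 16 * A * B * N := by
  have hNr : (1 : ℝ) ≤ N := by exact_mod_cast hN
  have hN0 : (0 : ℝ) < N := by linarith
  set q : ℝ := 1 - 1 / (2 * N) with hq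
  have hε0 : 0 < 1 / (2 * (N : ℝ)) := by positivity
  have hε1 : 1 / (2 * (N : ℝ)) ≤ 1 / 2 := by
    apply div_le_div_of_nonneg_left (by norm_num) (by norm_num) (by linarith)
  have hq0 : 0 < q := by rw [hq]; linarith
  have hq1 : q < 1 := by rw [hq]; linarith
  have h1q : 1 - q = 1 / (2 * N) := by rw [hq]; ring
  have hB : 0 ≤ B := by
    have h := h2 q hq0 hq1 0
    simp only [Finset.range_zero, Finset.sum_empty] at h
    have h3 : 0 < 1 - q := by linarith
    have h4 := (div_nonneg_iff.mp h)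
    rcases h4 with h4 | h4
    · exact h4.1
    · linarith [h4.2]
  have hqN : 1 / 2 ≤ q ^ N := by
    have h := one_add_mul_le_pow (a := -(1 / (2 * (N : ℝ)))) (by linarith) N
    have e1 : 1 + (N : ℝ) * -(1 / (2 * (N : ℝ))) = 1 / 2 := by field_simp; ring
    rw [e1] at h
    have e2 : 1 + -(1 / (2 * (N : ℝ))) = q := by rw [hq]; ring
    rw [e2] at h
    exact h
  obtain ⟨Mx, hMx⟩ := exists_pow_lt_of_lt_one (show (0 : ℝ) < 1 / 2 by norm_num) hq1
  have hgeo : ∑ m ∈ range Mx, (1 - q) * q ^ m = 1 - q ^ Mx := by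
    rw [← Finset.mul_sum, mul_comm, geom_sum_mul_neg]
  have hS1 : ∑ m ∈ range Mx, (1 - q) * q ^ m * d m ≤ B * (2 * N) := by
    have h := h2 q hq0 hq1 Mx
    rw [h1q] at h
    rw [h1q]
    calc _ ≤ B / (1 / (2 * N)) := h
      _ = B * (2 * N) := by field_simp
  have hS2 : ∑ m ∈ range Mx, (1 - q) * q ^ m * d (N + m) ≤ 2 * (B * (2 * N)) := by
    have h := h2 q hq0 hq1 (N + Mx)
    rw [Finset.sum_range_add] at h
    have h0 : 0 ≤ ∑ m ∈ range N, (1 - q) * q ^ m * d m :=
      Finset.sum_nonneg fun m _ => mul_nonneg (mul_nonneg (by linarith) (by positivity)) (hd m)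
    have h3 : ∑ m ∈ range Mx, (1 - q) * q ^ (N + m) * d (N + m) ≤ B * (2 * N) := by
      have e3 : B / (1 - q) = B * (2 * N) := by rw [h1q]; field_simp
      linarith
    have h4 : ∑ m ∈ range Mx, (1 - q) * q ^ (N + m) * d (N + m)
        = q ^ N * ∑ m ∈ range Mx, (1 - q) * q ^ m * d (N + m) := by
      rw [Finset.mul_sum]
      refine Finset.sum_congr rfl fun m _ => ?_
      rw [pow_add]; ring
    have h5 : 0 ≤ ∑ m ∈ range Mx, (1 - q) * q ^ m * d (N + m) :=
      Finset.sum_nonneg fun m _ => mul_nonneg (mul_nonneg (by linarith) (by positivity)) (hd _)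
    rw [h4] at h3
    nlinarith
  have hmain : d N * (1 - q ^ Mx) ≤ A * (3 * (B * (2 * N))) := by
    rw [← hgeo, Finset.mul_sum]
    calc ∑ m ∈ range Mx, d N * ((1 - q) * q ^ m)
        ≤ ∑ m ∈ range Mx, A * ((1 - q) * q ^ m * d (N + m) + (1 - q) * q ^ m * d m) := by
          refine Finset.sum_le_sum fun m _ => ?_
          have h3 : 0 ≤ (1 - q) * q ^ m := mul_nonneg (by linarith) (by positivity)
          calc d N * ((1 - q) * q ^ m) ≤ (A * (d (N + m) + d m)) * ((1 - q) * q ^ m) :=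
                mul_le_mul_of_nonneg_right (h1 N m) h3
            _ = _ := by ring
      _ = A * (∑ m ∈ range Mx, (1 - q) * q ^ m * d (N + m)
            + ∑ m ∈ range Mx, (1 - q) * q ^ m * d m) := by
          rw [← Finset.mul_sum, Finset.sum_add_distrib]
      _ ≤ A * (3 * (B * (2 * N))) := by
          apply mul_le_mul_of_nonneg_left _ (by linarith)
          linarith
  have hh : d N * (1 / 2) ≤ d N * (1 - q ^ Mx) :=
    mul_le_mul_of_nonneg_left (by linarith) (hd N)
  have hABN : 0 ≤ A * B * N := by positivity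
  nlinarith

end P125S
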