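import Vale.Agent.P125S.Defs

/-! R5: path expectations, basic lemmas (helper6) -/

namespace P125S
open Finset
variable {S : Type} [Fintype S]

/-- expectation over paths started at `x` -/
def ex6_EX (C : Chain S) (m : ℕ) (x : S) (F : (Fin (m + 1) → S) → ℝ) : ℝ :=
  ∑ ω : Fin m → S, (∏ i : Fin m, C.P ((Fin.cons x ω : Fin (m + 1) → S) i.castSucc)
    ((Fin.cons x ω : Fin (m + 1) → S) i.succ)) * F (Fin.cons x ω)

theorem ex6_sum_cons {β : Type} [AddCommMonoid β] (m : ℕ) (H : (Fin (m + 1) → S) → β) :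
    ∑ ω : Fin (m + 1) → S, H ω = ∑ x : S, ∑ ω : Fin m → S, H (Fin.cons x ω) := by
  rw [← Fintype.sum_prod_type' (f := fun (x : S) (ω : Fin m → S) => H (Fin.cons x ω))]
  exact (Fintype.sum_equiv (Fin.consEquiv (fun _ : Fin (m + 1) => S)) _ _ (fun _ => rfl)).symm

theorem ex6_EX_zero (C : Chain S) (x : S) (F : (Fin 1 → S) → ℝ) :
    ex6_EX C 0 x F = F (fun _ => x) := by
  unfold ex6_EX
  rw [Fintype.sum_unique]
  simp only [univ_eq_empty, prod_empty, one_mul]
  congr 1
  funext i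
  refine Fin.cases rfl (fun j => j.elim0) i

theorem ex6_EX_succ (C : Chain S) (m : ℕ) (x : S) (F : (Fin (m + 2) → S) → ℝ) :
    ex6_EX C (m + 1) x F = ∑ y, C.P x y * ex6_EX C m y (fun ω => F (Fin.cons x ω)) := by
  unfold ex6_EX
  rw [ex6_sum_cons]
  apply sum_congr rfl
  intro y _
  rw [mul_sum]
  apply sum_congr rfl
  intro ω _
  rw [Fin.prod_univ_succ]
  simp only [Fin.castSucc_zero, Fin.cons_zero, Fin.cons_succ, ← Fin.succ_castSucc]
  ring

theorem ex6_EE_eq (C : Chain S) (m : ℕ) (F : (Fin (m + 1) → S) → ℝ) :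
    EE C m F = ∑ x, C.w x * ex6_EX C m x F := by
  unfold EE ex6_EX pathW
  rw [ex6_sum_cons]
  apply sum_congr rfl
  intro x _
  rw [mul_sum]
  apply sum_congr rfl
  intro ω _
  simp only [Fin.cons_zero]
  ring

theorem ex6_pathW_rev (C : Chain S) (m : ℕ) (ω : Fin (m + 1) → S) :
    C.w (ω 0) * ∏ i : Fin m, C.P (ω i.castSucc) (ω i.succ) =
      C.w (ω (Fin.last m)) * ∏ i : Fin m, C.P (ω i.succ) (ω i.castSucc) := by
  induction m with
  | zero => simp
  | succ m ih =>
    rw [Fin.prod_univ_succ, Fin.prod_univ_succ]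
    have h := ih (fun i => ω i.succ)
    simp only [Fin.succ_zero_eq_one, Fin.castSucc_zero, ← Fin.succ_castSucc, Fin.succ_last] at h ⊢
    have hr := C.rev (ω 0) (ω 1)
    calc C.w (ω 0) * (C.P (ω 0) (ω 1) * ∏ i : Fin m, C.P (ω i.castSucc.succ) (ω i.succ.succ))
        = (C.w (ω 0) * C.P (ω 0) (ω 1)) * ∏ i : Fin m, C.P (ω i.castSucc.succ) (ω i.succ.succ) := by
          ring
      _ = C.P (ω 1) (ω 0) * (C.w (ω 1) * ∏ i : Fin m, C.P (ω i.castSucc.succ) (ω i.succ.succ)) := by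
          rw [hr]; ring
      _ = _ := by rw [h]; ring

theorem ex6_pathW_rev' (C : Chain S) (m : ℕ) (ω : Fin (m + 1) → S) :
    pathW C m (fun i => ω (Fin.rev i)) = pathW C m ω := by
  unfold pathW
  rw [ex6_pathW_rev C m ω]
  simp only [Fin.rev_zero]
  congr 1
  refine Fintype.prod_equiv Fin.revPerm _ _ ?_
  intro i
  simp only [Fin.revPerm_apply, Fin.rev_castSucc, Fin.rev_succ]

theorem ex6_EE_rev (C : Chain S) (m : ℕ) (F : (Fin (m + 1) → S) → ℝ) :
    EE C m F = EE C m (fun ω => F (fun i => ω (Fin.rev i))) := by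
  unfold EE
  refine Fintype.sum_equiv (Equiv.arrowCongr Fin.revPerm (Equiv.refl S)) _ _ ?_
  intro ω
  have e : (Equiv.arrowCongr Fin.revPerm (Equiv.refl S)) ω = fun i => ω (Fin.rev i) := by
    funext i
    simp [Equiv.arrowCongr]
  rw [e, ex6_pathW_rev']
  simp only [Fin.rev_rev]

theorem ex6_pathW_nonneg (C : Chain S) (m : ℕ) (ω : Fin (m + 1) → S) : 0 ≤ pathW C m ω :=
  mul_nonneg (C.w_nonneg _) (prod_nonneg fun _ _ => C.P_nonneg _ _)

theorem ex6_EE_mono (C : Chain S) (m : ℕ) (F F' : (Fin (m + 1) → S) → ℝ) (h : ∀ ω, F ω ≤ F' ω) :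
    EE C m F ≤ EE C m F' :=
  sum_le_sum fun ω _ => mul_le_mul_of_nonneg_left (h ω) (ex6_pathW_nonneg C m ω)

theorem ex6_EX_const (C : Chain S) (m : ℕ) (x : S) (c : ℝ) : ex6_EX C m x (fun _ => c) = c := by
  induction m generalizing x with
  | zero => rw [ex6_EX_zero]
  | succ m ih =>
    rw [ex6_EX_succ]
    simp only [ih]
    rw [← sum_mul, C.P_sum, one_mul]

theorem ex6_EX_add (C : Chain S) (m : ℕ) (x : S) (F F' : (Fin (m + 1) → S) → ℝ) :
    ex6_EX C m x (fun ω => F ω + F' ω) = ex6_EX C m x F + ex6_EX C m x F' := by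
  unfold ex6_EX
  rw [← sum_add_distrib]
  exact sum_congr rfl (fun ω _ => mul_add _ _ _)

theorem ex6_stat (C : Chain S) (f : S → ℝ) :
    ∑ x, C.w x * ∑ y, C.P x y * f y = ∑ y, C.w y * f y := by
  have h1 : ∀ x, C.w x * ∑ y, C.P x y * f y = ∑ y, C.w y * C.P y x * f y := by
    intro x
    rw [mul_sum]
    apply sum_congr rfl
    intro y _
    rw [← C.rev x y]; ring
  rw [sum_congr rfl (fun x _ => h1 x), sum_comm]
  apply sum_congr rfl
  intro y _
  have h2 : ∀ x, C.w y * C.P y x * f y = C.P y x * (C.w y * f y) := fun x => by ring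
  rw [sum_congr rfl (fun x _ => h2 x), ← sum_mul, C.P_sum, one_mul]

theorem ex6_EX_first (C : Chain S) (m : ℕ) (x : S) (H : S → ℝ) :
    ex6_EX C m x (fun ω => H (ω 0)) = H x := by
  have : ex6_EX C m x (fun ω => H (ω 0)) = ex6_EX C m x (fun _ => H x) := by
    unfold ex6_EX
    apply sum_congr rfl
    intro ω _
    rfl
  rw [this, ex6_EX_const]

theorem ex6_EE_asum (C : Chain S) (m : ℕ) (g : S → S → ℝ) :
    EE C m (fun ω => asum m g ω) = m * rho C g := by
  induction m with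
  | zero =>
    unfold EE asum
    simp
  | succ m ih =>
    rw [ex6_EE_eq]
    have h1 : ∀ x, ex6_EX C (m + 1) x (fun ω => asum (m + 1) g ω) =
        ∑ y, C.P x y * g x y + ∑ y, C.P x y * ex6_EX C m y (fun ω => asum m g ω) := by
      intro x
      rw [ex6_EX_succ, ← sum_add_distrib]
      apply sum_congr rfl
      intro y _
      have h2 : (fun ω : Fin (m + 1) → S => asum (m + 1) g (Fin.cons x ω)) =
          fun ω => g x (ω 0) + asum m g ω := by
        funext ω
        unfold asum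
        rw [Fin.sum_univ_succ]
        simp only [Fin.castSucc_zero, Fin.cons_zero, Fin.cons_succ, ← Fin.succ_castSucc]
      rw [h2, ex6_EX_add, ex6_EX_first C m y (fun z => g x z)]
      ring
    rw [sum_congr rfl (fun x _ => by rw [h1 x, mul_add]), sum_add_distrib, ex6_stat,
      ← ex6_EE_eq, ih]
    unfold rho
    have h3 : ∀ x, C.w x * ∑ y, C.P x y * g x y = ∑ y, C.w x * C.P x y * g x y := by
      intro x
      rw [mul_sum]
      exact sum_congr rfl (fun y _ => by ring)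
    rw [sum_congr rfl (fun x _ => h3 x)]
    push_cast
    ring

end P125S
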