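import Vale.Agent.P125S.R7c15

/-! R7: deterministic inequality for dyadic levels -/

namespace P125S
open Finset

theorem levels : ∃ C : ℝ, 0 < C ∧ ∀ (K : Finset ℤ) (t : ℤ → ℝ), (∀ k, 0 ≤ t k) →
    (∑ k ∈ K, t k) ^ (35 / 34 : ℝ) ≤ C * ∑ k ∈ K,
      ((2 : ℝ) ^ ((k : ℝ) * (1 / 34)) * t k
        + (2 : ℝ) ^ (-(k : ℝ) * (18 / 17 - 35 / 34)) * (t k) ^ (18 / 17 : ℝ)) := by
  obtain ⟨C, hC, h⟩ := levels15 (35 / 34) (18 / 17) (by norm_num) (by norm_num)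
  refine ⟨C, hC, fun K t ht => ?_⟩
  have h1 := h K t ht
  rw [show (35 / 34 - 1 : ℝ) = 1 / 34 by norm_num] at h1
  exact h1

end P125S
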