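import Vale.Agent.P125S.R6
import Vale.Agent.P125S.R7

/-! R8: general step functions, geometric time -/

namespace P125S
open Finset

/-- dyadic level of a pair -/
noncomputable def gtLv {S : Type} (n : ℕ) (f : S → ℕ → ℝ) (x y : S) : ℤ :=
  Int.clog 2 (tv n (fun c => f y c - f x c))

/-- the steps of level `k` -/
noncomputable def gtG {S : Type} (n : ℕ) (f : S → ℕ → ℝ) (k : ℤ) (x y : S) (c : ℕ) : ℝ :=
  if gtLv n f x y = k then f y c - f x c else 0

theorem gt_tv_nonneg (n : ℕ) (v : ℕ → ℝ) : 0 ≤ tv n v :=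
  sum_nonneg fun _ _ => abs_nonneg _

theorem gt_tv_zero (n : ℕ) : tv n (fun _ => (0 : ℝ)) = 0 := by
  unfold tv; simp

theorem gt_tv_smul (n : ℕ) (a : ℝ) (ha : 0 ≤ a) (v : ℕ → ℝ) :
    tv n (fun c => a * v c) = a * tv n v := by
  unfold tv
  rw [mul_sum]
  exact sum_congr rfl fun c _ => by rw [abs_mul, abs_of_nonneg ha]

theorem gt_lv_symm {S : Type} (n : ℕ) (f : S → ℕ → ℝ) (x y : S) :
    gtLv n f y x = gtLv n f x y := by
  unfold gtLv tv
  congr 1
  exact sum_congr rfl fun c _ => abs_sub_comm _ _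

theorem gt_anti {S : Type} (n : ℕ) (f : S → ℕ → ℝ) (k : ℤ) (x y : S) (c : ℕ) :
    gtG n f k y x c = -gtG n f k x y c := by
  unfold gtG
  rw [gt_lv_symm n f x y]
  split_ifs
  · ring
  · ring

theorem gt_tv {S : Type} (n : ℕ) (f : S → ℕ → ℝ) (k : ℤ) (x y : S) :
    tv n (gtG n f k x y) = if gtLv n f x y = k then tv n (fun c => f y c - f x c) else 0 := by
  by_cases h : gtLv n f x y = k
  · have : gtG n f k x y = fun c => f y c - f x c := by
      funext c; unfold gtG; rw [if_pos h]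
    rw [this, if_pos h]
  · have : gtG n f k x y = fun _ => (0 : ℝ) := by
      funext c; unfold gtG; rw [if_neg h]
    rw [this, if_neg h, gt_tv_zero]

theorem gt_tv_le {S : Type} (n : ℕ) (f : S → ℕ → ℝ) (k : ℤ) (x y : S) :
    tv n (gtG n f k x y) ≤ (2 : ℝ) ^ k := by
  rw [gt_tv]
  split_ifs with h
  · rw [← h]
    unfold gtLv
    exact_mod_cast Int.self_le_zpow_clog (by norm_num : 1 < 2) (tv n (fun c => f y c - f x c))
  · positivity

/-- linearity of the expectation -/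
theorem gt_EE_smul {S : Type} [Fintype S] (C : Chain S) (m : ℕ) (a : ℝ)
    (F : (Fin (m + 1) → S) → ℝ) : EE C m (fun ω => a * F ω) = a * EE C m F := by
  unfold EE
  rw [mul_sum]
  exact sum_congr rfl fun ω _ => by ring

theorem gt_EE_add {S : Type} [Fintype S] (C : Chain S) (m : ℕ)
    (F F' : (Fin (m + 1) → S) → ℝ) : EE C m (fun ω => F ω + F' ω) = EE C m F + EE C m F' := by
  unfold EE
  rw [← sum_add_distrib]
  exact sum_congr rfl fun ω _ => by ring

theorem gt_EE_sum {S : Type} [Fintype S] (C : Chain S) (m : ℕ) {ι : Type} (s : Finset ι)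
    (F : ι → (Fin (m + 1) → S) → ℝ) :
    EE C m (fun ω => ∑ k ∈ s, F k ω) = ∑ k ∈ s, EE C m (F k) := by
  unfold EE
  rw [sum_comm]
  exact sum_congr rfl fun ω _ => by rw [mul_sum]

theorem gt_geo (q : ℝ) (M : ℕ) :
    (1 - q) ^ 2 * ∑ m ∈ range M, (m : ℝ) * q ^ m + M * q ^ M * (1 - q) + q ^ (M + 1) = q := by
  induction M with
  | zero => simp
  | succ M ih =>
    rw [sum_range_succ, mul_add]
    push_cast
    have e : q ^ (M + 1) = q * q ^ M := by ring
    have e2 : q ^ (M + 1 + 1) = q * q * q ^ M := by ring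
    rw [e] at ih
    rw [e2, e]
    linear_combination ih

theorem gt_geo_le (q : ℝ) (hq0 : 0 < q) (hq1 : q < 1) (M : ℕ) :
    ∑ m ∈ range M, (1 - q) * q ^ m * (m : ℝ) ≤ 1 / (1 - q) := by
  have h := gt_geo q M
  have h1 : 0 < 1 - q := by linarith
  have h2 : 0 ≤ (M : ℝ) * q ^ M * (1 - q) := by positivity
  have h3 : 0 ≤ q ^ (M + 1) := by positivity
  have e : ∑ m ∈ range M, (1 - q) * q ^ m * (m : ℝ) = (1 - q) * ∑ m ∈ range M, (m : ℝ) * q ^ m := by
    rw [mul_sum]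
    exact sum_congr rfl fun m _ => by ring
  rw [e, le_div_iff₀ h1]
  nlinarith

theorem gt_nrm_psum {S : Type} [Fintype S] (n m : ℕ) (G : S → S → ℕ → ℝ) (ω : Fin (m + 1) → S) :
    nrm n (psum m G ω) ≤ asum m (fun x y => tv n (G x y)) ω := by
  have e : psum m G ω = fun c => ∑ i : Fin m, G (ω i.castSucc) (ω i.succ) c := by
    funext c; rfl
  rw [e]
  refine (nrm_sum univ n (fun (i : Fin m) c => G (ω i.castSucc) (ω i.succ) c)).trans ?_
  unfold asum
  exact sum_le_sum fun i _ => nrm_le_tv n _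

theorem gt_first {S : Type} [Fintype S] (C : Chain S) (q : ℝ) (hq0 : 0 < q) (hq1 : q < 1)
    (n : ℕ) (G : S → S → ℕ → ℝ) (Mx : ℕ) :
    ∑ m ∈ range Mx, (1 - q) * q ^ m * EE C m (fun ω => nrm n (psum m G ω))
      ≤ rho C (fun x y => tv n (G x y)) / (1 - q) := by
  have hr : 0 ≤ rho C (fun x y => tv n (G x y)) := by
    unfold rho
    exact sum_nonneg fun x _ => sum_nonneg fun y _ =>
      mul_nonneg (mul_nonneg (C.w_nonneg x) (C.P_nonneg x y)) (gt_tv_nonneg n _)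
  have h1 : 0 < 1 - q := by linarith
  calc ∑ m ∈ range Mx, (1 - q) * q ^ m * EE C m (fun ω => nrm n (psum m G ω))
      ≤ ∑ m ∈ range Mx, (1 - q) * q ^ m * (m * rho C (fun x y => tv n (G x y))) := by
        refine sum_le_sum fun m _ => ?_
        refine mul_le_mul_of_nonneg_left ?_ (by positivity)
        rw [← EE_asum C m (fun x y => tv n (G x y))]
        exact EE_mono C m _ _ fun ω => gt_nrm_psum n m G ω
    _ = (∑ m ∈ range Mx, (1 - q) * q ^ m * (m : ℝ)) * rho C (fun x y => tv n (G x y)) := by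
        rw [sum_mul]
        exact sum_congr rfl fun m _ => by ring
    _ ≤ (1 / (1 - q)) * rho C (fun x y => tv n (G x y)) :=
        mul_le_mul_of_nonneg_right (gt_geo_le q hq0 hq1 Mx) hr
    _ = rho C (fun x y => tv n (G x y)) / (1 - q) := by ring

/-- the moment estimate at level `k` -/
theorem gt_second {S : Type} [Fintype S] (C : Chain S) (q : ℝ) (hq0 : 0 < q) (hq1 : q < 1)
    (n : ℕ) (f : S → ℕ → ℝ) (k : ℤ) (Mx : ℕ) :
    (2 : ℝ) ^ (-(k : ℝ) * (18 / 17 - 35 / 34)) *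
      ∑ m ∈ range Mx, (1 - q) * q ^ m *
        EE C m (fun ω => (nrm n (psum m (gtG n f k) ω)) ^ (18 / 17 : ℝ))
      ≤ 10 ^ 8 * ((2 : ℝ) ^ ((k : ℝ) * (1 / 34)) *
        (rho C (fun x y => tv n (gtG n f k x y)) / (1 - q))) := by
  have hak : (0 : ℝ) < (2 : ℝ) ^ (-(k : ℝ)) := Real.rpow_pos_of_pos (by norm_num) _
  have hz : (2 : ℝ) ^ (-(k : ℝ)) * (2 : ℝ) ^ k = 1 := by
    rw [← Real.rpow_intCast 2 k, ← Real.rpow_add (by norm_num)]
    simp
  have hm := moment C q hq0 hq1 n (fun x y c => (2 : ℝ) ^ (-(k : ℝ)) * gtG n f k x y c)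
    (fun x y c => by rw [gt_anti n f k x y c]; ring)
    (fun x y => by
      have e : tv n (fun c => (2 : ℝ) ^ (-(k : ℝ)) * gtG n f k x y c)
          = (2 : ℝ) ^ (-(k : ℝ)) * tv n (gtG n f k x y) := gt_tv_smul n _ hak.le _
      rw [e, ← hz]
      exact mul_le_mul_of_nonneg_left (gt_tv_le n f k x y) hak.le) Mx
  have e1 : ∀ m (ω : Fin (m + 1) → S),
      (nrm n (psum m (fun x y c => (2 : ℝ) ^ (-(k : ℝ)) * gtG n f k x y c) ω)) ^ (18 / 17 : ℝ)
        = ((2 : ℝ) ^ (-(k : ℝ))) ^ (18 / 17 : ℝ)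
          * (nrm n (psum m (gtG n f k) ω)) ^ (18 / 17 : ℝ) := by
    intro m ω
    have e2 : psum m (fun x y c => (2 : ℝ) ^ (-(k : ℝ)) * gtG n f k x y c) ω
        = fun c => (2 : ℝ) ^ (-(k : ℝ)) * psum m (gtG n f k) ω c := by
      funext c
      unfold psum
      rw [mul_sum]
    rw [e2, nrm_smul, abs_of_pos hak, Real.mul_rpow hak.le (nrm_nonneg n _)]
  have e3 : rho C (fun x y => tv n (fun c => (2 : ℝ) ^ (-(k : ℝ)) * gtG n f k x y c))
      = (2 : ℝ) ^ (-(k : ℝ)) * rho C (fun x y => tv n (gtG n f k x y)) := by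
    unfold rho
    rw [mul_sum]
    refine sum_congr rfl fun x _ => ?_
    rw [mul_sum]
    refine sum_congr rfl fun y _ => ?_
    have e : tv n (fun c => (2 : ℝ) ^ (-(k : ℝ)) * gtG n f k x y c)
          = (2 : ℝ) ^ (-(k : ℝ)) * tv n (gtG n f k x y) := gt_tv_smul n _ hak.le _
    beta_reduce
    rw [e]; ring
  have e4 : ∑ m ∈ range Mx, (1 - q) * q ^ m * EE C m (fun ω =>
        (nrm n (psum m (fun x y c => (2 : ℝ) ^ (-(k : ℝ)) * gtG n f k x y c) ω)) ^ (18 / 17 : ℝ))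
      = ((2 : ℝ) ^ (-(k : ℝ))) ^ (18 / 17 : ℝ) * ∑ m ∈ range Mx, (1 - q) * q ^ m *
        EE C m (fun ω => (nrm n (psum m (gtG n f k) ω)) ^ (18 / 17 : ℝ)) := by
    rw [mul_sum]
    refine sum_congr rfl fun m _ => ?_
    have : (fun ω : Fin (m + 1) → S =>
        (nrm n (psum m (fun x y c => (2 : ℝ) ^ (-(k : ℝ)) * gtG n f k x y c) ω)) ^ (18 / 17 : ℝ))
        = fun ω => ((2 : ℝ) ^ (-(k : ℝ))) ^ (18 / 17 : ℝ)
          * (nrm n (psum m (gtG n f k) ω)) ^ (18 / 17 : ℝ) := by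
      funext ω
      exact e1 m ω
    rw [this, gt_EE_smul]
    ring
  rw [e4, e3] at hm
  -- exponents
  have e5 : (2 : ℝ) ^ (-(k : ℝ) * (18 / 17 - 35 / 34))
      = (2 : ℝ) ^ ((k : ℝ) * (35 / 34)) * ((2 : ℝ) ^ (-(k : ℝ))) ^ (18 / 17 : ℝ) := by
    rw [← Real.rpow_mul (by norm_num), ← Real.rpow_add (by norm_num)]
    congr 1
    ring
  have e6 : (2 : ℝ) ^ ((k : ℝ) * (1 / 34))
      = (2 : ℝ) ^ ((k : ℝ) * (35 / 34)) * (2 : ℝ) ^ (-(k : ℝ)) := by
    rw [← Real.rpow_add (by norm_num)]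
    congr 1
    ring
  have hb : (0 : ℝ) ≤ (2 : ℝ) ^ ((k : ℝ) * (35 / 34)) := (Real.rpow_pos_of_pos (by norm_num) _).le
  calc (2 : ℝ) ^ (-(k : ℝ) * (18 / 17 - 35 / 34)) *
      ∑ m ∈ range Mx, (1 - q) * q ^ m *
        EE C m (fun ω => (nrm n (psum m (gtG n f k) ω)) ^ (18 / 17 : ℝ))
      = (2 : ℝ) ^ ((k : ℝ) * (35 / 34)) * (((2 : ℝ) ^ (-(k : ℝ))) ^ (18 / 17 : ℝ) *
        ∑ m ∈ range Mx, (1 - q) * q ^ m *
        EE C m (fun ω => (nrm n (psum m (gtG n f k) ω)) ^ (18 / 17 : ℝ))) := by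
        rw [e5]; ring
    _ ≤ (2 : ℝ) ^ ((k : ℝ) * (35 / 34)) * (10 ^ 8 * ((2 : ℝ) ^ (-(k : ℝ)) *
        rho C (fun x y => tv n (gtG n f k x y))) / (1 - q)) :=
        mul_le_mul_of_nonneg_left hm hb
    _ = 10 ^ 8 * ((2 : ℝ) ^ ((k : ℝ) * (1 / 34)) *
        (rho C (fun x y => tv n (gtG n f k x y)) / (1 - q))) := by
        rw [e6]; ring

/-- telescoping -/
theorem gt_tele (m : ℕ) (φ : Fin (m + 1) → ℝ) :
    ∑ i : Fin m, (φ i.succ - φ i.castSucc) = φ (Fin.last m) - φ 0 := by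
  induction m with
  | zero => simp
  | succ m ih =>
    rw [Fin.sum_univ_castSucc]
    have := ih (fun i => φ i.castSucc)
    simp only [Fin.castSucc_zero] at this
    have e : ∑ i : Fin m, (φ (Fin.castSucc i).succ - φ (Fin.castSucc i).castSucc)
        = ∑ i : Fin m, (φ i.succ.castSucc - φ i.castSucc.castSucc) := by
      refine sum_congr rfl fun i _ => ?_
      rw [Fin.succ_castSucc]
    rw [e, this, Fin.succ_last]
    ring

theorem gt_split {S : Type} [Fintype S] (n : ℕ) (f : S → ℕ → ℝ) (K : Finset ℤ)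
    (hK : ∀ x y, gtLv n f x y ∈ K) (m : ℕ) (ω : Fin (m + 1) → S) (c : ℕ) :
    f (ω (Fin.last m)) c - f (ω 0) c = ∑ k ∈ K, psum m (gtG n f k) ω c := by
  unfold psum
  rw [sum_comm]
  have e : ∀ i : Fin m, ∑ k ∈ K, gtG n f k (ω i.castSucc) (ω i.succ) c
      = f (ω i.succ) c - f (ω i.castSucc) c := by
    intro i
    unfold gtG
    rw [sum_ite_eq, if_pos (hK _ _)]
  rw [sum_congr rfl fun i _ => e i]
  exact (gt_tele m (fun i => f (ω i) c)).symm

theorem gt_rho {S : Type} [Fintype S] (C : Chain S) (n : ℕ) (f : S → ℕ → ℝ) (K : Finset ℤ)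
    (hK : ∀ x y, gtLv n f x y ∈ K) :
    ∑ k ∈ K, (2 : ℝ) ^ ((k : ℝ) * (1 / 34)) * rho C (fun x y => tv n (gtG n f k x y))
      ≤ 2 * rho C (fun x y => (tv n (fun c => f y c - f x c)) ^ (35 / 34 : ℝ)) := by
  have e1 : ∑ k ∈ K, (2 : ℝ) ^ ((k : ℝ) * (1 / 34)) * rho C (fun x y => tv n (gtG n f k x y))
      = ∑ x, ∑ y, C.w x * C.P x y * ∑ k ∈ K, (2 : ℝ) ^ ((k : ℝ) * (1 / 34)) *
        tv n (gtG n f k x y) := by
    unfold rho
    have : ∀ k ∈ K, (2 : ℝ) ^ ((k : ℝ) * (1 / 34)) * ∑ x, ∑ y, C.w x * C.P x y *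
          tv n (gtG n f k x y)
        = ∑ x, ∑ y, C.w x * C.P x y * ((2 : ℝ) ^ ((k : ℝ) * (1 / 34)) * tv n (gtG n f k x y)) := by
      intro k _
      rw [mul_sum]
      refine sum_congr rfl fun x _ => ?_
      rw [mul_sum]
      exact sum_congr rfl fun y _ => by ring
    rw [sum_congr rfl this, sum_comm]
    refine sum_congr rfl fun x _ => ?_
    rw [sum_comm]
    refine sum_congr rfl fun y _ => ?_
    rw [mul_sum]
  rw [e1]
  unfold rho
  rw [mul_sum]
  refine sum_le_sum fun x _ => ?_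
  rw [mul_sum]
  refine sum_le_sum fun y _ => ?_
  have hw : 0 ≤ C.w x * C.P x y := mul_nonneg (C.w_nonneg x) (C.P_nonneg x y)
  have e2 : ∑ k ∈ K, (2 : ℝ) ^ ((k : ℝ) * (1 / 34)) * tv n (gtG n f k x y)
      = (2 : ℝ) ^ ((gtLv n f x y : ℝ) * (1 / 34)) * tv n (fun c => f y c - f x c) := by
    rw [sum_eq_single (gtLv n f x y)]
    · rw [gt_tv, if_pos rfl]
    · intro k _ hk
      rw [gt_tv, if_neg (Ne.symm hk), mul_zero]
    · intro h
      exact absurd (hK x y) h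
  rw [e2]
  set g := tv n (fun c => f y c - f x c) with hg
  have hg0 : 0 ≤ g := gt_tv_nonneg n _
  have key : (2 : ℝ) ^ ((gtLv n f x y : ℝ) * (1 / 34)) * g ≤ 2 * g ^ (35 / 34 : ℝ) := by
    rcases hg0.eq_or_lt with h0 | h0
    · rw [← h0, mul_zero]
      positivity
    · have h1 : (2 : ℝ) ^ (gtLv n f x y) ≤ 2 * g := by
        have h2 : (2 : ℝ) ^ (gtLv n f x y - 1) < g := by
          have := Int.zpow_pred_clog_lt_self (b := 2) (by norm_num) h0
          unfold gtLv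
          exact_mod_cast this
        rw [zpow_sub_one₀ (by norm_num)] at h2
        linarith
      have h3 : (2 : ℝ) ^ ((gtLv n f x y : ℝ) * (1 / 34)) ≤ 2 * g ^ (1 / 34 : ℝ) := by
        rw [Real.rpow_mul (by norm_num), Real.rpow_intCast]
        calc ((2 : ℝ) ^ (gtLv n f x y)) ^ (1 / 34 : ℝ) ≤ (2 * g) ^ (1 / 34 : ℝ) :=
              Real.rpow_le_rpow (by positivity) h1 (by norm_num)
          _ = (2 : ℝ) ^ (1 / 34 : ℝ) * g ^ (1 / 34 : ℝ) := Real.mul_rpow (by norm_num) hg0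
          _ ≤ 2 * g ^ (1 / 34 : ℝ) := by
              refine mul_le_mul_of_nonneg_right ?_ (by positivity)
              calc (2 : ℝ) ^ (1 / 34 : ℝ) ≤ (2 : ℝ) ^ (1 : ℝ) :=
                    Real.rpow_le_rpow_of_exponent_le (by norm_num) (by norm_num)
                _ = 2 := by norm_num
      calc (2 : ℝ) ^ ((gtLv n f x y : ℝ) * (1 / 34)) * g ≤ 2 * g ^ (1 / 34 : ℝ) * g :=
            mul_le_mul_of_nonneg_right h3 hg0
        _ = 2 * g ^ (35 / 34 : ℝ) := by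
            rw [mul_assoc]
            congr 1
            rw [show (35 / 34 : ℝ) = 1 / 34 + 1 by norm_num, Real.rpow_add h0, Real.rpow_one]
  calc C.w x * C.P x y * ((2 : ℝ) ^ ((gtLv n f x y : ℝ) * (1 / 34)) * g)
      ≤ C.w x * C.P x y * (2 * g ^ (35 / 34 : ℝ)) := mul_le_mul_of_nonneg_left key hw
    _ = 2 * (C.w x * C.P x y * g ^ (35 / 34 : ℝ)) := by ring

theorem geo_time22 : ∃ K : ℝ, 0 < K ∧ ∀ (S : Type) [Fintype S] (C : Chain S) (q : ℝ),
    0 < q → q < 1 → ∀ (n : ℕ) (f : S → ℕ → ℝ) (Mx : ℕ),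
    ∑ m ∈ range Mx, (1 - q) * q ^ m * EE C m (fun ω =>
        (nrm n (fun c => f (ω (Fin.last m)) c - f (ω 0) c)) ^ (35 / 34 : ℝ))
      ≤ K * rho C (fun x y => (tv n (fun c => f y c - f x c)) ^ (35 / 34 : ℝ)) / (1 - q) := by
  obtain ⟨A, hA, hlev⟩ := levels
  refine ⟨A * (1 + 10 ^ 8) * 2, by positivity, ?_⟩
  intro S _ C q hq0 hq1 n f Mx
  classical
  have h1 : 0 < 1 - q := by linarith
  set K : Finset ℤ := (univ : Finset (S × S)).image (fun z => gtLv n f z.1 z.2) with hKdef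
  have hK : ∀ x y, gtLv n f x y ∈ K := fun x y =>
    mem_image.mpr ⟨(x, y), mem_univ _, rfl⟩
  -- pointwise bound
  have hpt : ∀ m (ω : Fin (m + 1) → S),
      (nrm n (fun c => f (ω (Fin.last m)) c - f (ω 0) c)) ^ (35 / 34 : ℝ)
      ≤ ∑ k ∈ K, (A * (2 : ℝ) ^ ((k : ℝ) * (1 / 34)) * nrm n (psum m (gtG n f k) ω)
        + A * (2 : ℝ) ^ (-(k : ℝ) * (18 / 17 - 35 / 34)) *
          (nrm n (psum m (gtG n f k) ω)) ^ (18 / 17 : ℝ)) := by
    intro m ω
    have e : (fun c => f (ω (Fin.last m)) c - f (ω 0) c)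
        = fun c => ∑ k ∈ K, psum m (gtG n f k) ω c := by
      funext c
      exact gt_split n f K hK m ω c
    rw [e]
    have h2 := nrm_sum K n (fun k => psum m (gtG n f k) ω)
    have h3 := hlev K (fun k => nrm n (psum m (gtG n f k) ω)) (fun k => nrm_nonneg n _)
    refine (Real.rpow_le_rpow (nrm_nonneg n _) h2 (by norm_num)).trans (h3.trans (le_of_eq ?_))
    rw [mul_sum]
    exact sum_congr rfl fun k _ => by ring
  -- expectation
  have hEE : ∀ m, EE C m (fun ω =>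
        (nrm n (fun c => f (ω (Fin.last m)) c - f (ω 0) c)) ^ (35 / 34 : ℝ))
      ≤ ∑ k ∈ K, (A * (2 : ℝ) ^ ((k : ℝ) * (1 / 34)) * EE C m (fun ω => nrm n (psum m (gtG n f k) ω))
        + A * (2 : ℝ) ^ (-(k : ℝ) * (18 / 17 - 35 / 34)) *
          EE C m (fun ω => (nrm n (psum m (gtG n f k) ω)) ^ (18 / 17 : ℝ))) := by
    intro m
    refine (EE_mono C m _ _ (hpt m)).trans (le_of_eq ?_)
    rw [gt_EE_sum]
    refine sum_congr rfl fun k _ => ?_
    rw [gt_EE_add, gt_EE_smul, gt_EE_smul]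
  have hsum : ∑ m ∈ range Mx, (1 - q) * q ^ m * EE C m (fun ω =>
        (nrm n (fun c => f (ω (Fin.last m)) c - f (ω 0) c)) ^ (35 / 34 : ℝ))
      ≤ ∑ k ∈ K, (A * (2 : ℝ) ^ ((k : ℝ) * (1 / 34)) *
          (∑ m ∈ range Mx, (1 - q) * q ^ m * EE C m (fun ω => nrm n (psum m (gtG n f k) ω)))
        + A * ((2 : ℝ) ^ (-(k : ℝ) * (18 / 17 - 35 / 34)) *
          ∑ m ∈ range Mx, (1 - q) * q ^ m *
            EE C m (fun ω => (nrm n (psum m (gtG n f k) ω)) ^ (18 / 17 : ℝ)))) := by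
    calc _ ≤ ∑ m ∈ range Mx, (1 - q) * q ^ m * ∑ k ∈ K,
          (A * (2 : ℝ) ^ ((k : ℝ) * (1 / 34)) * EE C m (fun ω => nrm n (psum m (gtG n f k) ω))
        + A * (2 : ℝ) ^ (-(k : ℝ) * (18 / 17 - 35 / 34)) *
          EE C m (fun ω => (nrm n (psum m (gtG n f k) ω)) ^ (18 / 17 : ℝ))) := by
          refine sum_le_sum fun m _ => ?_
          exact mul_le_mul_of_nonneg_left (hEE m) (by positivity)
      _ = _ := by
          have : ∀ m ∈ range Mx, (1 - q) * q ^ m * ∑ k ∈ K,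
              (A * (2 : ℝ) ^ ((k : ℝ) * (1 / 34)) * EE C m (fun ω => nrm n (psum m (gtG n f k) ω))
              + A * (2 : ℝ) ^ (-(k : ℝ) * (18 / 17 - 35 / 34)) *
                EE C m (fun ω => (nrm n (psum m (gtG n f k) ω)) ^ (18 / 17 : ℝ)))
              = ∑ k ∈ K, (A * (2 : ℝ) ^ ((k : ℝ) * (1 / 34)) *
                ((1 - q) * q ^ m * EE C m (fun ω => nrm n (psum m (gtG n f k) ω)))
              + A * ((2 : ℝ) ^ (-(k : ℝ) * (18 / 17 - 35 / 34)) * ((1 - q) * q ^ m *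
                EE C m (fun ω => (nrm n (psum m (gtG n f k) ω)) ^ (18 / 17 : ℝ))))) := by
            intro m _
            rw [mul_sum]
            exact sum_congr rfl fun k _ => by ring
          rw [sum_congr rfl this, sum_comm]
          refine sum_congr rfl fun k _ => ?_
          rw [sum_add_distrib, mul_sum, mul_sum, mul_sum]
  refine hsum.trans ?_
  calc _ ≤ ∑ k ∈ K, (A * (2 : ℝ) ^ ((k : ℝ) * (1 / 34)) *
          (rho C (fun x y => tv n (gtG n f k x y)) / (1 - q))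
        + A * (10 ^ 8 * ((2 : ℝ) ^ ((k : ℝ) * (1 / 34)) *
          (rho C (fun x y => tv n (gtG n f k x y)) / (1 - q))))) := by
        refine sum_le_sum fun k _ => add_le_add ?_ ?_
        · exact mul_le_mul_of_nonneg_left (gt_first C q hq0 hq1 n _ Mx) (by positivity)
        · exact mul_le_mul_of_nonneg_left (gt_second C q hq0 hq1 n f k Mx) hA.le
    _ = A * (1 + 10 ^ 8) * (∑ k ∈ K, (2 : ℝ) ^ ((k : ℝ) * (1 / 34)) *
          rho C (fun x y => tv n (gtG n f k x y))) / (1 - q) := by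
        rw [mul_sum, sum_div]
        exact sum_congr rfl fun k _ => by ring
    _ ≤ A * (1 + 10 ^ 8) * (2 * rho C (fun x y =>
          (tv n (fun c => f y c - f x c)) ^ (35 / 34 : ℝ))) / (1 - q) := by
        refine div_le_div_of_nonneg_right ?_ h1.le
        exact mul_le_mul_of_nonneg_left (gt_rho C n f K hK) (by positivity)
    _ = _ := by ring

end P125S
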