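import Vale.Agent.P125S.R5

/-! R5c (helper11): sums over the position of the traffic edge, Markov property -/

namespace P125S
open Finset
variable {S : Type} [Fintype S]

/-- copy of `after` -/
def js11af (m : ℕ) (G : S → S → ℕ → ℝ) (ω : Fin (m + 1) → S) (i : Fin m) (c : ℕ) : ℝ :=
  ∑ j : Fin m, if i < j then G (ω j.castSucc) (ω j.succ) c else 0

/-- copy of `Jfun` -/
def js11J (m n s : ℕ) (G : S → S → ℕ → ℝ) (ω : Fin (m + 1) → S) : ℝ :=
  ∑ i : Fin m, ∑ c ∈ range n, |G (ω i.castSucc) (ω i.succ) c| *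
    (cum (js11af m G ω i) (c + s)) ^ 2

/-- scalar version of `after` -/
def js11ag (m : ℕ) (g : S → S → ℝ) (ω : Fin (m + 1) → S) (i : Fin m) : ℝ :=
  ∑ j : Fin m, if i < j then g (ω j.castSucc) (ω j.succ) else 0

/-- the majorant -/
noncomputable def js11F (m n s : ℕ) (G : S → S → ℕ → ℝ) (g : S → S → ℝ) (h : ℝ)
    (ω : Fin (m + 1) → S) : ℝ :=
  ∑ i : Fin m, ∑ c ∈ range n, |G (ω i.castSucc) (ω i.succ) c| *
    ((cum (js11af m G ω i) (c + s)) ^ 2 * Real.exp (-(js11ag m g ω i) / h))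

lemma js11af_zero (m : ℕ) (G : S → S → ℕ → ℝ) (x : S) (ω : Fin (m + 1) → S) :
    js11af (m + 1) G (Fin.cons x ω : Fin (m + 2) → S) 0 = psum m G ω := by
  funext c
  unfold js11af psum
  rw [Fin.sum_univ_succ]
  simp only [lt_irrefl, if_false, zero_add, Fin.succ_pos, if_true]
  refine Finset.sum_congr rfl fun j _ => ?_
  rw [← Fin.succ_castSucc, Fin.cons_succ, Fin.cons_succ]

lemma js11af_succ (m : ℕ) (G : S → S → ℕ → ℝ) (x : S) (ω : Fin (m + 1) → S) (i : Fin m) :
    js11af (m + 1) G (Fin.cons x ω : Fin (m + 2) → S) i.succ = js11af m G ω i := by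
  funext c
  unfold js11af
  rw [Fin.sum_univ_succ]
  simp only [Fin.not_lt_zero, if_false, zero_add, Fin.succ_lt_succ_iff]
  refine Finset.sum_congr rfl fun j _ => ?_
  rw [← Fin.succ_castSucc, Fin.cons_succ, Fin.cons_succ]

lemma js11ag_zero (m : ℕ) (g : S → S → ℝ) (x : S) (ω : Fin (m + 1) → S) :
    js11ag (m + 1) g (Fin.cons x ω : Fin (m + 2) → S) 0 = asum m g ω := by
  unfold js11ag asum
  rw [Fin.sum_univ_succ]
  simp only [lt_irrefl, if_false, zero_add, Fin.succ_pos, if_true]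
  refine Finset.sum_congr rfl fun j _ => ?_
  rw [← Fin.succ_castSucc, Fin.cons_succ, Fin.cons_succ]

lemma js11ag_succ (m : ℕ) (g : S → S → ℝ) (x : S) (ω : Fin (m + 1) → S) (i : Fin m) :
    js11ag (m + 1) g (Fin.cons x ω : Fin (m + 2) → S) i.succ = js11ag m g ω i := by
  unfold js11ag
  rw [Fin.sum_univ_succ]
  simp only [Fin.not_lt_zero, if_false, zero_add, Fin.succ_lt_succ_iff]
  refine Finset.sum_congr rfl fun j _ => ?_
  rw [← Fin.succ_castSucc, Fin.cons_succ, Fin.cons_succ]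

lemma js11F_cons (m n s : ℕ) (G : S → S → ℕ → ℝ) (g : S → S → ℝ) (h : ℝ) (x : S)
    (ω : Fin (m + 1) → S) :
    js11F (m + 1) n s G g h (Fin.cons x ω : Fin (m + 2) → S) =
      (∑ c ∈ range n, |G x (ω 0) c| *
        ((cum (psum m G ω) (c + s)) ^ 2 * Real.exp (-(asum m g ω) / h))) +
      js11F m n s G g h ω := by
  unfold js11F
  rw [Fin.sum_univ_succ]
  congr 1
  · refine Finset.sum_congr rfl fun c _ => ?_
    rw [js11af_zero, js11ag_zero, Fin.cons_succ, Fin.castSucc_zero, Fin.cons_zero]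
  · refine Finset.sum_congr rfl fun i _ => ?_
    refine Finset.sum_congr rfl fun c _ => ?_
    rw [js11af_succ, js11ag_succ, ← Fin.succ_castSucc, Fin.cons_succ, Fin.cons_succ]

lemma js11_EX_split (C : Chain S) (m n : ℕ) (x y : S) (G : S → S → ℕ → ℝ)
    (T : ℕ → (Fin (m + 1) → S) → ℝ) (R : (Fin (m + 1) → S) → ℝ) :
    EX C m y (fun ω => (∑ c ∈ range n, |G x (ω 0) c| * T c ω) + R ω) =
      (∑ c ∈ range n, |G x y c| * EX C m y (T c)) + EX C m y R := by
  unfold EX
  simp only [mul_add, Finset.sum_add_distrib, Finset.mul_sum, Fin.cons_zero]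
  congr 1
  rw [Finset.sum_comm]
  refine Finset.sum_congr rfl fun c _ => ?_
  refine Finset.sum_congr rfl fun ω _ => ?_
  ring

/-- the level sums -/
noncomputable def js11K (C : Chain S) (n s : ℕ) (G : S → S → ℕ → ℝ) (g : S → S → ℝ) (h : ℝ)
    (r : ℕ) : ℝ :=
  ∑ c ∈ range n, ∑ x, C.w x * kap C G c x *
    EX C r x (fun ω => (cum (psum r G ω) (c + s)) ^ 2 * Real.exp (-(asum r g ω) / h))

lemma js11_stat (C : Chain S) (f : S → ℝ) :
    ∑ x, C.w x * ∑ y, C.P x y * f y = ∑ y, C.w y * f y := by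
  simp only [Finset.mul_sum]
  rw [Finset.sum_comm]
  refine Finset.sum_congr rfl fun y _ => ?_
  have : ∀ x, C.w x * (C.P x y * f y) = (C.w y * f y) * C.P y x := by
    intro x
    have := C.rev x y
    rw [← mul_assoc, this]; ring
  simp only [this]
  rw [← Finset.mul_sum, C.P_sum, mul_one]

lemma js11_first (C : Chain S) (G : S → S → ℕ → ℝ) (hG : ∀ x y c, G y x c = -G x y c)
    (n : ℕ) (V : ℕ → S → ℝ) :
    ∑ x, C.w x * ∑ y, C.P x y * ∑ c ∈ range n, |G x y c| * V c y =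
      ∑ c ∈ range n, ∑ x, C.w x * kap C G c x * V c x := by
  have h1 : ∑ x, C.w x * ∑ y, C.P x y * ∑ c ∈ range n, |G x y c| * V c y =
      ∑ x, ∑ y, ∑ c ∈ range n, C.w x * (C.P x y * (|G x y c| * V c y)) := by
    simp only [Finset.mul_sum]
  have h0 : ∑ x, ∑ y, ∑ c ∈ range n, C.w x * (C.P x y * (|G x y c| * V c y)) =
      ∑ c ∈ range n, ∑ x, ∑ y, C.w x * (C.P x y * (|G x y c| * V c y)) := by
    rw [Finset.sum_comm (s := range n) (t := (univ : Finset S))]
    refine Finset.sum_congr rfl fun x _ => ?_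
    rw [Finset.sum_comm]
  rw [h1, h0]
  refine Finset.sum_congr rfl fun c _ => ?_
  have h2 : ∑ x, C.w x * kap C G c x * V c x =
      ∑ x, ∑ y, C.w x * (C.P x y * |G x y c|) * V c x := by
    unfold kap
    refine Finset.sum_congr rfl fun x _ => ?_
    rw [Finset.mul_sum, Finset.sum_mul]
  rw [h2, Finset.sum_comm]
  refine Finset.sum_congr rfl fun y _ => Finset.sum_congr rfl fun x _ => ?_
  have h3 : |G x y c| = |G y x c| := by rw [hG x y c, abs_neg]
  have h4 := C.rev x y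
  rw [h3]
  calc C.w x * (C.P x y * (|G y x c| * V c y)) = (C.w x * C.P x y) * (|G y x c| * V c y) := by ring
    _ = (C.w y * C.P y x) * (|G y x c| * V c y) := by rw [h4]
    _ = _ := by ring

lemma js11_EE (C : Chain S) (n s : ℕ) (G : S → S → ℕ → ℝ)
    (hG : ∀ x y c, G y x c = -G x y c) (g : S → S → ℝ) (h : ℝ) (m : ℕ) :
    EE C m (js11F m n s G g h) = ∑ r ∈ range m, js11K C n s G g h r := by
  induction m with
  | zero =>
    rw [EE_eq]
    simp only [EX_zero]
    simp [js11F]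
  | succ m ih =>
    rw [EE_eq, Finset.sum_range_succ, ← ih, EE_eq]
    simp only [EX_succ, js11F_cons]
    simp only [js11_EX_split C m n _ _ G (fun c ω => (cum (psum m G ω) (c + s)) ^ 2 *
      Real.exp (-(asum m g ω) / h)) (js11F m n s G g h)]
    simp only [mul_add, Finset.sum_add_distrib]
    rw [js11_first C G hG n (fun c y => EX C m y (fun ω => (cum (psum m G ω) (c + s)) ^ 2 *
      Real.exp (-(asum m g ω) / h))), js11_stat C (fun y => EX C m y (js11F m n s G g h))]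
    unfold js11K
    ring

lemma js11_J_le (m n s : ℕ) (G : S → S → ℕ → ℝ) (g : S → S → ℝ) (hg : ∀ x y, 0 ≤ g x y)
    (h : ℝ) (hh : 0 < h) (ω : Fin (m + 1) → S) :
    js11J m n s G ω * Real.exp (-(asum m g ω) / h) ≤ js11F m n s G g h ω := by
  unfold js11J js11F
  rw [Finset.sum_mul]
  refine Finset.sum_le_sum fun i _ => ?_
  rw [Finset.sum_mul]
  refine Finset.sum_le_sum fun c _ => ?_
  rw [mul_assoc]
  refine mul_le_mul_of_nonneg_left ?_ (abs_nonneg _)
  refine mul_le_mul_of_nonneg_left ?_ (sq_nonneg _)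
  apply Real.exp_le_exp.2
  have : js11ag m g ω i ≤ asum m g ω := by
    unfold js11ag asum
    refine Finset.sum_le_sum fun j _ => ?_
    split_ifs
    · exact le_rfl
    · exact hg _ _
  exact div_le_div_of_nonneg_right (by linarith) hh.le

lemma js11_geo (q : ℝ) (hq0 : 0 < q) (hq1 : q < 1) (v : ℕ → ℝ) (hv : ∀ r, 0 ≤ v r) (Mx : ℕ) :
    ∑ m ∈ range Mx, (1 - q) * q ^ m * ∑ r ∈ range m, v r ≤ ∑ r ∈ range Mx, q ^ r * v r := by
  -- stronger: ≤ sum q^r v_r - q^Mx * sum v_r
  have key : ∀ N : ℕ, ∑ m ∈ range N, (1 - q) * q ^ m * ∑ r ∈ range m, v r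
      + q ^ N * ∑ r ∈ range N, v r ≤ ∑ r ∈ range N, q ^ r * v r := by
    intro N
    induction N with
    | zero => simp
    | succ N ih =>
      rw [Finset.sum_range_succ, Finset.sum_range_succ (fun r => v r),
        Finset.sum_range_succ (fun r => q ^ r * v r)]
      have h1 : q ^ (N + 1) * v N ≤ q ^ N * v N := by
        refine mul_le_mul_of_nonneg_right ?_ (hv N)
        rw [pow_succ]
        have := pow_pos hq0 N
        nlinarith
      have h2 : (1 - q) * q ^ N * ∑ r ∈ range N, v r +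
          q ^ (N + 1) * (∑ r ∈ range N, v r + v N) =
          q ^ N * ∑ r ∈ range N, v r + q ^ (N + 1) * v N := by
        rw [pow_succ]; ring
      linarith
  have h1 := key Mx
  have h2 : 0 ≤ q ^ Mx * ∑ r ∈ range Mx, v r :=
    mul_nonneg (pow_pos hq0 _).le (Finset.sum_nonneg fun r _ => hv r)
  linarith

lemma js11_kap_nonneg (C : Chain S) (G : S → S → ℕ → ℝ) (c : ℕ) (x : S) : 0 ≤ kap C G c x :=
  Finset.sum_nonneg fun y _ => mul_nonneg (C.P_nonneg x y) (abs_nonneg _)

lemma js11_EX_nonneg (C : Chain S) (m : ℕ) (x : S) (F : (Fin (m + 1) → S) → ℝ)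
    (hF : ∀ ω, 0 ≤ F ω) : 0 ≤ EX C m x F :=
  Finset.sum_nonneg fun ω _ =>
    mul_nonneg (Finset.prod_nonneg fun i _ => C.P_nonneg _ _) (hF _)

theorem js11_J_sum (C : Chain S) (q : ℝ) (hq0 : 0 < q) (hq1 : q < 1) (h : ℝ) (hh : 1 ≤ h)
    (n : ℕ) (G : S → S → ℕ → ℝ) (hG : ∀ x y c, G y x c = -G x y c)
    (b : ℕ → S → ℝ)
    (hb : ∀ (k Mx : ℕ) (x : S), ∑ m ∈ range Mx, (1 - q) * q ^ m *
        EX C m x (fun ω => (cum (psum m G ω) k) ^ 2 *
          Real.exp (-(asum m (fun x y => tv n (G x y)) ω) / h)) ≤ b k x)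
    (s Mx : ℕ) :
    ∑ m ∈ range Mx, (1 - q) * q ^ m * EE C m (fun ω => js11J m n s G ω *
        Real.exp (-(asum m (fun x y => tv n (G x y)) ω) / h))
      ≤ (∑ c ∈ range n, ∑ x, C.w x * kap C G c x * b (c + s) x) / (1 - q) := by
  set g : S → S → ℝ := fun x y => tv n (G x y) with hgdef
  have hg : ∀ x y, 0 ≤ g x y := fun x y => Finset.sum_nonneg fun c _ => abs_nonneg _
  have hh0 : 0 < h := by linarith
  have hq : 0 < 1 - q := by linarith
  have h1 : ∀ m, EE C m (fun ω => js11J m n s G ω * Real.exp (-(asum m g ω) / h)) ≤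
      ∑ r ∈ range m, js11K C n s G g h r := by
    intro m
    rw [← js11_EE C n s G hG g h m]
    exact EE_mono C m _ _ (fun ω => js11_J_le m n s G g hg h hh0 ω)
  have hK : ∀ r, 0 ≤ js11K C n s G g h r := by
    intro r
    refine Finset.sum_nonneg fun c _ => Finset.sum_nonneg fun x _ => ?_
    refine mul_nonneg (mul_nonneg (C.w_nonneg x) (js11_kap_nonneg C G c x)) ?_
    exact js11_EX_nonneg C r x _ fun ω => mul_nonneg (sq_nonneg _) (Real.exp_pos _).le
  calc ∑ m ∈ range Mx, (1 - q) * q ^ m * EE C m (fun ω => js11J m n s G ω *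
        Real.exp (-(asum m g ω) / h))
      ≤ ∑ m ∈ range Mx, (1 - q) * q ^ m * ∑ r ∈ range m, js11K C n s G g h r := by
        refine Finset.sum_le_sum fun m _ => mul_le_mul_of_nonneg_left (h1 m) ?_
        exact mul_nonneg hq.le (pow_pos hq0 _).le
    _ ≤ ∑ r ∈ range Mx, q ^ r * js11K C n s G g h r := js11_geo q hq0 hq1 _ hK Mx
    _ = (∑ c ∈ range n, ∑ x, C.w x * kap C G c x * ∑ r ∈ range Mx, (1 - q) * q ^ r *
          EX C r x (fun ω => (cum (psum r G ω) (c + s)) ^ 2 *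
            Real.exp (-(asum r g ω) / h))) / (1 - q) := by
        rw [eq_div_iff hq.ne', Finset.sum_mul]
        unfold js11K
        simp only [Finset.mul_sum, Finset.sum_mul]
        rw [Finset.sum_comm]
        refine Finset.sum_congr rfl fun c _ => ?_
        rw [Finset.sum_comm]
        refine Finset.sum_congr rfl fun x _ => Finset.sum_congr rfl fun r _ => ?_
        ring
    _ ≤ (∑ c ∈ range n, ∑ x, C.w x * kap C G c x * b (c + s) x) / (1 - q) := by
        refine div_le_div_of_nonneg_right ?_ hq.le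
        refine Finset.sum_le_sum fun c _ => Finset.sum_le_sum fun x _ => ?_
        exact mul_le_mul_of_nonneg_left (hb (c + s) Mx x)
          (mul_nonneg (C.w_nonneg x) (js11_kap_nonneg C G c x))

end P125S
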