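import Vale.Agent.P125S.Defs

/-! R5 (second half): reversal, monotonicity and the mean of the traffic -/

namespace P125S
open Finset
variable {S : Type} [Fintype S]

theorem e18_pathW_nonneg (C : Chain S) (m : ℕ) (ω : Fin (m + 1) → S) : 0 ≤ pathW C m ω :=
  mul_nonneg (C.w_nonneg _) (prod_nonneg fun _ _ => C.P_nonneg _ _)

theorem e18_mono (C : Chain S) (m : ℕ) (F F' : (Fin (m + 1) → S) → ℝ) (h : ∀ ω, F ω ≤ F' ω) :
    EE C m F ≤ EE C m F' :=
  sum_le_sum fun ω _ => mul_le_mul_of_nonneg_left (h ω) (e18_pathW_nonneg C m ω)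

theorem e18_flip (C : Chain S) (m : ℕ) (ω : Fin (m + 1) → S) :
    C.w (ω 0) * ∏ i : Fin m, C.P (ω i.castSucc) (ω i.succ)
      = C.w (ω (Fin.last m)) * ∏ i : Fin m, C.P (ω i.succ) (ω i.castSucc) := by
  induction m with
  | zero => simp
  | succ m ih =>
    rw [Fin.prod_univ_castSucc, Fin.prod_univ_castSucc]
    have h1 := ih (fun j => ω j.castSucc)
    have h2 := C.rev (ω (Fin.last m).castSucc) (ω (Fin.last m).succ)
    simp only [Fin.succ_castSucc, Fin.castSucc_zero, Fin.succ_last] at h1 h2 ⊢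
    rw [← mul_assoc, h1]
    calc _ = (C.w (ω (Fin.last m).castSucc)
          * C.P (ω (Fin.last m).castSucc) (ω (Fin.last (m + 1))))
          * ∏ i : Fin m, C.P (ω i.succ.castSucc) (ω i.castSucc.castSucc) := by ring
      _ = _ := by rw [h2]; ring

theorem e18_pathW_rev (C : Chain S) (m : ℕ) (ω : Fin (m + 1) → S) :
    pathW C m (fun i => ω (Fin.rev i)) = pathW C m ω := by
  unfold pathW
  rw [e18_flip C m ω]
  have h1 : ∏ i : Fin m, C.P (ω (Fin.rev i.castSucc)) (ω (Fin.rev i.succ))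
      = ∏ i : Fin m, C.P (ω i.succ) (ω i.castSucc) := by
    rw [← Equiv.prod_comp Fin.revPerm (fun i : Fin m => C.P (ω i.succ) (ω i.castSucc))]
    refine prod_congr rfl fun i _ => ?_
    rw [Fin.rev_castSucc, Fin.rev_succ]
    rfl
  rw [h1]
  simp only [Fin.rev_zero]

theorem e18_rev (C : Chain S) (m : ℕ) (F : (Fin (m + 1) → S) → ℝ) :
    EE C m F = EE C m (fun ω => F (fun i => ω (Fin.rev i))) := by
  unfold EE
  refine (Fintype.sum_equiv (Equiv.arrowCongr Fin.revPerm (Equiv.refl S)) _ _ fun ω => ?_).symm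
  have h1 : (Equiv.arrowCongr Fin.revPerm (Equiv.refl S)) ω = fun i => ω (Fin.rev i) := rfl
  rw [h1, e18_pathW_rev]

theorem e18_pathW_snoc (C : Chain S) (m : ℕ) (y : S) (ω : Fin (m + 1) → S) :
    pathW C (m + 1) (Fin.snoc ω y : Fin (m + 2) → S)
      = pathW C m ω * C.P (ω (Fin.last m)) y := by
  unfold pathW
  rw [Fin.prod_univ_castSucc, ← mul_assoc]
  have h0 : (Fin.snoc ω y : Fin (m + 2) → S) 0 = ω 0 := by
    have := Fin.snoc_castSucc (α := fun _ => S) y ω 0
    rwa [Fin.castSucc_zero] at this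
  have h1 : ∀ i : Fin m, C.P ((Fin.snoc ω y : Fin (m + 2) → S) i.castSucc.castSucc)
      ((Fin.snoc ω y : Fin (m + 2) → S) i.castSucc.succ) = C.P (ω i.castSucc) (ω i.succ) := by
    intro i
    rw [Fin.succ_castSucc, Fin.snoc_castSucc, Fin.snoc_castSucc]
  rw [h0, prod_congr rfl fun i _ => h1 i, Fin.succ_last, Fin.snoc_castSucc, Fin.snoc_last]

theorem e18_sum_snoc (m : ℕ) (H : (Fin (m + 2) → S) → ℝ) :
    ∑ ω : Fin (m + 2) → S, H ω
      = ∑ ω : Fin (m + 1) → S, ∑ y, H (Fin.snoc ω y : Fin (m + 2) → S) := by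
  rw [← Equiv.sum_comp (Fin.snocEquiv (fun _ : Fin (m + 2) => S)) H, Fintype.sum_prod_type,
    sum_comm]
  rfl

theorem e18_succ (C : Chain S) (m : ℕ) (F : (Fin (m + 2) → S) → ℝ) :
    EE C (m + 1) F = EE C m (fun ω => ∑ y, C.P (ω (Fin.last m)) y
      * F (Fin.snoc ω y : Fin (m + 2) → S)) := by
  unfold EE
  rw [e18_sum_snoc]
  refine sum_congr rfl fun ω _ => ?_
  rw [mul_sum]
  refine sum_congr rfl fun y _ => ?_
  rw [e18_pathW_snoc]
  ring

theorem e18_first (C : Chain S) (m : ℕ) (γ : S → ℝ) :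
    EE C m (fun ω => γ (ω 0)) = ∑ x, C.w x * γ x := by
  induction m with
  | zero =>
    unfold EE pathW
    rw [← Equiv.sum_comp (Equiv.funUnique (Fin 1) S) (fun x => C.w x * γ x)]
    refine sum_congr rfl fun ω _ => ?_
    simp
  | succ m ih =>
    rw [e18_succ, ← ih]
    unfold EE
    refine sum_congr rfl fun ω _ => ?_
    have h0 : ∀ y, (Fin.snoc ω y : Fin (m + 2) → S) 0 = ω 0 := by
      intro y
      have := Fin.snoc_castSucc (α := fun _ => S) y ω 0
      rwa [Fin.castSucc_zero] at this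
    simp only [h0]
    rw [← sum_mul, C.P_sum, one_mul]

theorem e18_last (C : Chain S) (m : ℕ) (γ : S → ℝ) :
    EE C m (fun ω => γ (ω (Fin.last m))) = ∑ x, C.w x * γ x := by
  rw [e18_rev]
  simp only [Fin.rev_last]
  exact e18_first C m γ

theorem e18_add (C : Chain S) (m : ℕ) (F F' : (Fin (m + 1) → S) → ℝ) :
    EE C m (fun ω => F ω + F' ω) = EE C m F + EE C m F' := by
  unfold EE
  rw [← sum_add_distrib]
  exact sum_congr rfl fun ω _ => by ring

theorem e18_asum (C : Chain S) (m : ℕ) (g : S → S → ℝ) :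
    EE C m (fun ω => asum m g ω) = m * rho C g := by
  induction m with
  | zero =>
    unfold EE asum
    simp
  | succ m ih =>
    rw [e18_succ]
    have h1 : (fun ω : Fin (m + 1) → S => ∑ y, C.P (ω (Fin.last m)) y
        * asum (m + 1) g (Fin.snoc ω y : Fin (m + 2) → S))
        = fun ω => asum m g ω + (fun x => ∑ y, C.P x y * g x y) (ω (Fin.last m)) := by
      funext ω
      have h2 : ∀ y, asum (m + 1) g (Fin.snoc ω y : Fin (m + 2) → S)
          = asum m g ω + g (ω (Fin.last m)) y := by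
        intro y
        unfold asum
        rw [Fin.sum_univ_castSucc]
        have h3 : ∀ i : Fin m, g ((Fin.snoc ω y : Fin (m + 2) → S) i.castSucc.castSucc)
            ((Fin.snoc ω y : Fin (m + 2) → S) i.castSucc.succ) = g (ω i.castSucc) (ω i.succ) := by
          intro i
          rw [Fin.succ_castSucc, Fin.snoc_castSucc, Fin.snoc_castSucc]
        rw [sum_congr rfl fun i _ => h3 i, Fin.succ_last, Fin.snoc_castSucc, Fin.snoc_last]
      simp only [h2, mul_add, sum_add_distrib]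
      rw [← sum_mul, C.P_sum, one_mul]
    rw [h1, e18_add, ih, e18_last C m (fun x => ∑ y, C.P x y * g x y)]
    unfold rho
    push_cast
    have h4 : ∑ x, C.w x * ∑ y, C.P x y * g x y = ∑ x, ∑ y, C.w x * C.P x y * g x y := by
      refine sum_congr rfl fun x _ => ?_
      rw [mul_sum]
      exact sum_congr rfl fun y _ => by ring
    rw [h4]
    ring

end P125S
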