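import Vale.Agent.P125S.Defs
import Vale.Agent.P125S.Ex6
import Vale.Agent.P125S.R5r18

/-! R5: path expectations -/

namespace P125S
open Finset
variable {S : Type} [Fintype S]

/-- expectation over paths started at `x` -/
def EX (C : Chain S) (m : ℕ) (x : S) (F : (Fin (m + 1) → S) → ℝ) : ℝ :=
  ∑ ω : Fin m → S, (∏ i : Fin m, C.P ((Fin.cons x ω : Fin (m + 1) → S) i.castSucc)
    ((Fin.cons x ω : Fin (m + 1) → S) i.succ)) * F (Fin.cons x ω)

theorem EX_zero (C : Chain S) (x : S) (F : (Fin 1 → S) → ℝ) :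
    EX C 0 x F = F (fun _ => x) :=
  ex6_EX_zero C x F

theorem EX_succ (C : Chain S) (m : ℕ) (x : S) (F : (Fin (m + 2) → S) → ℝ) :
    EX C (m + 1) x F = ∑ y, C.P x y * EX C m y (fun ω => F (Fin.cons x ω)) :=
  ex6_EX_succ C m x F

theorem EE_eq (C : Chain S) (m : ℕ) (F : (Fin (m + 1) → S) → ℝ) :
    EE C m F = ∑ x, C.w x * EX C m x F :=
  ex6_EE_eq C m F

theorem EE_rev (C : Chain S) (m : ℕ) (F : (Fin (m + 1) → S) → ℝ) :
    EE C m F = EE C m (fun ω => F (fun i => ω (Fin.rev i))) := e18_rev C m F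

theorem EE_mono (C : Chain S) (m : ℕ) (F F' : (Fin (m + 1) → S) → ℝ) (h : ∀ ω, F ω ≤ F' ω) :
    EE C m F ≤ EE C m F' := e18_mono C m F F' h

/-- mean of the traffic -/
theorem EE_asum (C : Chain S) (m : ℕ) (g : S → S → ℝ) :
    EE C m (fun ω => asum m g ω) = m * rho C g := e18_asum C m g

end P125S
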