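import Vale.Agent.P125S.R4
import Vale.Agent.P125S.R5

/-! R8: assembly of `markov_finite` from the geometric time estimate -/

namespace P125S
open Finset

theorem mf23_EE_nonneg {S : Type} [Fintype S] (C : Chain S) (m : ℕ)
    (F : (Fin (m + 1) → S) → ℝ) (hF : ∀ ω, 0 ≤ F ω) : 0 ≤ EE C m F := by
  refine Finset.sum_nonneg fun ω _ => mul_nonneg ?_ (hF ω)
  exact mul_nonneg (C.w_nonneg _) (Finset.prod_nonneg fun i _ => C.P_nonneg _ _)

theorem mf23_core {S : Type} [Fintype S] [DecidableEq S] (C : Chain S) (n : ℕ)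
    (f : S → ℕ → ℝ) (K0 : ℝ)
    (hgeo : ∀ q : ℝ, 0 < q → q < 1 → ∀ Mx : ℕ,
      ∑ m ∈ range Mx, (1 - q) * q ^ m * EE C m (fun ω =>
        (nrm n (fun c => f (ω (Fin.last m)) c - f (ω 0) c)) ^ (35 / 34 : ℝ))
      ≤ K0 * rho C (fun x y => (tv n (fun c => f y c - f x c)) ^ (35 / 34 : ℝ)) / (1 - q))
    (hpath : ∀ (m : ℕ) (Φ : S → S → ℝ),
      EE C m (fun ω => Φ (ω 0) (ω (Fin.last m))) =
      ∑ x, ∑ y, C.w x * ((Matrix.of C.P) ^ m) x y * Φ x y)
    (h3 : ∀ (N m : ℕ) (D : S → S → ℝ) (p : ℝ), 1 ≤ p → (∀ x y, 0 ≤ D x y) →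
      (∀ x y, D x y = D y x) → (∀ x y z, D x z ≤ D x y + D y z) →
      ∑ x, ∑ y, C.w x * ((Matrix.of C.P) ^ N) x y * (D x y) ^ p
      ≤ 2 ^ (p - 1) * (∑ x, ∑ y, C.w x * ((Matrix.of C.P) ^ (N + m)) x y * (D x y) ^ p
        + ∑ x, ∑ y, C.w x * ((Matrix.of C.P) ^ m) x y * (D x y) ^ p))
    (hdet : ∀ (d : ℕ → ℝ), (∀ m, 0 ≤ d m) → ∀ (B A : ℝ), 1 ≤ A →
      (∀ N m, d N ≤ A * (d (N + m) + d m)) →
      (∀ q : ℝ, 0 < q → q < 1 → ∀ Mx, ∑ m ∈ range Mx, (1 - q) * q ^ m * d m ≤ B / (1 - q)) →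
      ∀ N : ℕ, 1 ≤ N → d N ≤ 16 * A * B * N)
    (t : ℕ) (ht : 1 ≤ t) :
    ∑ x, ∑ y, C.w x * ((Matrix.of C.P) ^ t) x y *
        (nrm n (fun c => f y c - f x c)) ^ (35 / 34 : ℝ)
      ≤ (16 * 2 ^ (35 / 34 - 1 : ℝ) * K0) * t * ∑ x, ∑ y, C.w x * C.P x y *
        (tv n (fun c => f y c - f x c)) ^ (35 / 34 : ℝ) := by
  have hA : (1 : ℝ) ≤ 2 ^ (35 / 34 - 1 : ℝ) :=
    Real.one_le_rpow (by norm_num) (by norm_num)
  have hD0 : ∀ x y, 0 ≤ nrm n (fun c => f y c - f x c) := fun x y => nrm_nonneg n _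
  have hDs : ∀ x y, nrm n (fun c => f y c - f x c) = nrm n (fun c => f x c - f y c) := by
    intro x y
    have h := nrm_smul n (-1) (fun c => f x c - f y c)
    have e : (fun c => (-1 : ℝ) * (f x c - f y c)) = fun c => f y c - f x c := by
      funext c; ring
    rw [e] at h
    rw [h]
    simp
  have hDt : ∀ x y z, nrm n (fun c => f z c - f x c)
      ≤ nrm n (fun c => f y c - f x c) + nrm n (fun c => f z c - f y c) := by
    intro x y z
    have h := nrm_add n (fun c => f y c - f x c) (fun c => f z c - f y c)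
    have e : (fun c => (f y c - f x c) + (f z c - f y c)) = fun c => f z c - f x c := by
      funext c; ring
    rw [e] at h
    exact h
  have key := hdet (fun m => ∑ x, ∑ y, C.w x * ((Matrix.of C.P) ^ m) x y *
        (nrm n (fun c => f y c - f x c)) ^ (35 / 34 : ℝ))
    (fun m => by
      have h := hpath m (fun x y => (nrm n (fun c => f y c - f x c)) ^ (35 / 34 : ℝ))
      show 0 ≤ ∑ x, ∑ y, C.w x * ((Matrix.of C.P) ^ m) x y *
        (nrm n (fun c => f y c - f x c)) ^ (35 / 34 : ℝ)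
      rw [← h]
      exact mf23_EE_nonneg C m _ fun ω => Real.rpow_nonneg (hD0 _ _) _)
    (K0 * rho C (fun x y => (tv n (fun c => f y c - f x c)) ^ (35 / 34 : ℝ)))
    (2 ^ (35 / 34 - 1 : ℝ)) hA
    (fun N m => h3 N m (fun x y => nrm n (fun c => f y c - f x c)) (35 / 34) (by norm_num)
      hD0 hDs hDt)
    (fun q hq0 hq1 Mx => by
      have h := hgeo q hq0 hq1 Mx
      refine le_trans (le_of_eq ?_) h
      refine Finset.sum_congr rfl fun m _ => ?_
      have h' := hpath m (fun x y => (nrm n (fun c => f y c - f x c)) ^ (35 / 34 : ℝ))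
      show (1 - q) * q ^ m * (∑ x, ∑ y, C.w x * ((Matrix.of C.P) ^ m) x y *
        (nrm n (fun c => f y c - f x c)) ^ (35 / 34 : ℝ)) = _
      rw [← h'])
    t ht
  refine key.trans (le_of_eq ?_)
  simp only [rho]
  ring

end P125S
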