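import Mathlib

/-! R6: pointwise inequality and geometric sum -/

namespace P125S
open Finset

theorem r6g_half : ((2 : ℝ) ^ (11 / 2 : ℝ)) ≤ 453 / 10 := by
  have h : ((2 : ℝ) ^ (11 / 2 : ℝ)) ^ 2 = 2048 := by
    rw [← Real.rpow_natCast ((2 : ℝ) ^ (11 / 2 : ℝ)) 2, ← Real.rpow_mul (by norm_num)]
    norm_num
  have h0 : 0 < (2 : ℝ) ^ (11 / 2 : ℝ) := by positivity
  nlinarith

theorem r6g_eight (k : ℕ) : ((8 : ℝ) ^ k) ^ (11 / 6 : ℝ) = (2 : ℝ) ^ ((11 / 2 : ℝ) * k) := by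
  have h8 : (8 : ℝ) ^ k = (2 : ℝ) ^ (3 * (k : ℝ)) := by
    rw [Real.rpow_mul (by norm_num)]
    norm_num
  rw [h8, ← Real.rpow_mul (by norm_num)]
  congr 1
  ring

theorem r6g_pw (s A : ℝ) (hs : 0 ≤ s) (hsA : s ≤ A) (L : ℕ) (hL : A ≤ 8 ^ L) :
    s ^ (18 / 17 : ℝ) ≤ A + 130 * ∑ l ∈ range (L + 1),
      (2 : ℝ) ^ (-(11 / 2 : ℝ) * l) * (s ^ 3 * Real.exp (-A / 8 ^ l)) := by
  classical
  have hex : ∃ l : ℕ, A ≤ 8 ^ l := ⟨L, hL⟩
  have hA0 : 0 ≤ A := le_trans hs hsA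
  have hterm : ∀ l ∈ range (L + 1),
      0 ≤ (2 : ℝ) ^ (-(11 / 2 : ℝ) * l) * (s ^ 3 * Real.exp (-A / 8 ^ l)) := by
    intro l _
    positivity
  have hsum0 : 0 ≤ ∑ l ∈ range (L + 1),
      (2 : ℝ) ^ (-(11 / 2 : ℝ) * l) * (s ^ 3 * Real.exp (-A / 8 ^ l)) := sum_nonneg hterm
  rcases le_or_gt (s ^ (18 / 17 : ℝ)) A with hle | hgt
  · linarith
  -- now A < s ^ (18/17)
  have hlL : Nat.find hex ≤ L := Nat.find_min' hex hL
  have hlA : A ≤ 8 ^ (Nat.find hex) := Nat.find_spec hex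
  cases hk : Nat.find hex with
  | zero =>
    rw [hk] at hlA
    have hA1 : A ≤ 1 := by simpa using hlA
    have hs1 : s ≤ 1 := le_trans hsA hA1
    have : s ^ (18 / 17 : ℝ) ≤ s ^ (1 : ℝ) := by
      rcases eq_or_lt_of_le hs with h0 | h0
      · rw [← h0]
        rw [Real.zero_rpow (by norm_num), Real.zero_rpow (by norm_num)]
      · exact Real.rpow_le_rpow_of_exponent_ge h0 hs1 (by norm_num)
    rw [Real.rpow_one] at this
    linarith
  | succ k =>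
    rw [hk] at hlA hlL
    have hkA : (8 : ℝ) ^ k < A := by
      have := Nat.find_min hex (m := k) (by omega)
      exact not_le.1 this
    have h8k : 0 < (8 : ℝ) ^ k := by positivity
    have hspos : 0 < s := by
      rcases eq_or_lt_of_le hs with h0 | h0
      · rw [← h0, Real.zero_rpow (by norm_num)] at hgt
        linarith
      · exact h0
    set E : ℝ := s ^ (18 / 17 : ℝ) with hE
    have hEpos : 0 < E := by positivity
    have hE2 : s ^ 3 = E * E ^ (11 / 6 : ℝ) := by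
      rw [hE, ← Real.rpow_mul hs, ← Real.rpow_add hspos, ← Real.rpow_natCast]
      congr 1
      norm_num
    have h1 : (2 : ℝ) ^ ((11 / 2 : ℝ) * k) ≤ E ^ (11 / 6 : ℝ) := by
      rw [← r6g_eight]
      exact Real.rpow_le_rpow h8k.le (le_trans hkA.le hgt.le) (by norm_num)
    have hexp : Real.exp (-1) ≤ Real.exp (-A / 8 ^ (k + 1)) := by
      apply Real.exp_le_exp.2
      have h8 : (0 : ℝ) < 8 ^ (k + 1) := by positivity
      rw [le_div_iff₀ h8]
      linarith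
    have hsingle : (2 : ℝ) ^ (-(11 / 2 : ℝ) * ((k + 1 : ℕ) : ℝ)) *
        (s ^ 3 * Real.exp (-A / 8 ^ (k + 1))) ≤ ∑ l ∈ range (L + 1),
      (2 : ℝ) ^ (-(11 / 2 : ℝ) * l) * (s ^ 3 * Real.exp (-A / 8 ^ l)) :=
      single_le_sum hterm (mem_range.2 (by omega))
    have hpow : (2 : ℝ) ^ (-(11 / 2 : ℝ) * ((k + 1 : ℕ) : ℝ)) * (2 : ℝ) ^ ((11 / 2 : ℝ) * k) *
        (2 : ℝ) ^ (11 / 2 : ℝ) = 1 := by
      rw [← Real.rpow_add (by norm_num), ← Real.rpow_add (by norm_num)]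
      rw [show (-(11 / 2 : ℝ) * ((k + 1 : ℕ) : ℝ) + (11 / 2 : ℝ) * k + 11 / 2 : ℝ) = 0 by
        push_cast; ring]
      exact Real.rpow_zero _
    set a : ℝ := (2 : ℝ) ^ (-(11 / 2 : ℝ) * ((k + 1 : ℕ) : ℝ)) with ha
    set b : ℝ := (2 : ℝ) ^ ((11 / 2 : ℝ) * k) with hb
    have ha0 : 0 < a := by positivity
    have hb0 : 0 < b := by positivity
    have hab : 10 / 453 ≤ a * b := by
      have hab0 : 0 < a * b := by positivity
      have hc := r6g_half
      have : a * b * (2 : ℝ) ^ (11 / 2 : ℝ) ≤ a * b * (453 / 10) :=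
        mul_le_mul_of_nonneg_left hc hab0.le
      rw [hpow] at this
      linarith
    have he : 1 / 2.7182818286 ≤ Real.exp (-1) := by
      rw [Real.exp_neg, one_div]
      exact inv_anti₀ (Real.exp_pos 1) Real.exp_one_lt_d9.le
    have hmain : E ≤ 130 * (a * (s ^ 3 * Real.exp (-A / 8 ^ (k + 1)))) := by
      have e1 : a * (s ^ 3 * Real.exp (-A / 8 ^ (k + 1))) ≥ a * ((E * b) * Real.exp (-1)) := by
        apply mul_le_mul_of_nonneg_left _ ha0.le
        apply mul_le_mul _ hexp (Real.exp_pos _).le (by positivity)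
        rw [hE2]
        exact mul_le_mul_of_nonneg_left h1 hEpos.le
      have e2 : a * ((E * b) * Real.exp (-1)) = E * ((a * b) * Real.exp (-1)) := by ring
      have e3 : 10 / 453 * (1 / 2.7182818286) ≤ (a * b) * Real.exp (-1) :=
        mul_le_mul hab he (by norm_num) (by positivity)
      have e4 : E * (1 / 130) ≤ E * ((a * b) * Real.exp (-1)) := by
        apply mul_le_mul_of_nonneg_left _ hEpos.le
        refine le_trans ?_ e3
        norm_num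
      rw [e2] at e1
      linarith
    have : 130 * (a * (s ^ 3 * Real.exp (-A / 8 ^ (k + 1)))) ≤ 130 * ∑ l ∈ range (L + 1),
      (2 : ℝ) ^ (-(11 / 2 : ℝ) * l) * (s ^ 3 * Real.exp (-A / 8 ^ l)) := by
      linarith
    linarith

theorem r6g_geo (L : ℕ) :
    ∑ l ∈ range (L + 1), (2 : ℝ) ^ (-(11 / 2 : ℝ) * l) * 32 ^ l ≤ 4 := by
  set r : ℝ := (2 : ℝ) ^ (-(11 / 2 : ℝ)) * 32 with hr
  have h1 : ∀ l ∈ range (L + 1), (2 : ℝ) ^ (-(11 / 2 : ℝ) * l) * 32 ^ l = r ^ l := by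
    intro l _
    rw [hr, mul_pow, Real.rpow_mul_natCast (by norm_num)]
  rw [sum_congr rfl h1]
  have hr0 : 0 < r := by positivity
  have hr2 : r ^ 2 = 1 / 2 := by
    rw [hr, mul_pow, ← Real.rpow_natCast ((2 : ℝ) ^ (-(11 / 2 : ℝ))) 2,
      ← Real.rpow_mul (by norm_num)]
    rw [show (-(11 / 2 : ℝ) * ((2 : ℕ) : ℝ)) = ((-11 : ℤ) : ℝ) by norm_num, Real.rpow_intCast]
    norm_num
  have hr3 : r ≤ 3 / 4 := by nlinarith
  have hg := geom_sum_mul_neg r (L + 1)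
  have hp : 0 ≤ r ^ (L + 1) := by positivity
  have hS : 0 ≤ ∑ i ∈ range (L + 1), r ^ i := sum_nonneg (fun i _ => by positivity)
  nlinarith

end P125S
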