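import Vale.Agent.P125S.R5d
import Vale.Agent.P125S.R6g20

/-! R6: the moment of order 18/17 -/

namespace P125S
open Finset
variable {S : Type} [Fintype S]

theorem mo16_tv_nonneg (n : ℕ) (v : ℕ → ℝ) : 0 ≤ tv n v := sum_nonneg fun _ _ => abs_nonneg _

theorem mo16_nrm_nonneg (n : ℕ) (v : ℕ → ℝ) : 0 ≤ nrm n v := by
  have h := le_sup' (s := range (n + 1)) (fun k => |cum v k|) (mem_range.2 (Nat.succ_pos n))
  exact le_trans (abs_nonneg _) h

theorem mo16_asum_nonneg (m n : ℕ) (G : S → S → ℕ → ℝ) (ω : Fin (m + 1) → S) :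
    0 ≤ asum m (fun x y => tv n (G x y)) ω := sum_nonneg fun _ _ => mo16_tv_nonneg _ _

theorem mo16_nrm_le (m n : ℕ) (G : S → S → ℕ → ℝ) (ω : Fin (m + 1) → S) :
    nrm n (psum m G ω) ≤ asum m (fun x y => tv n (G x y)) ω := by
  refine sup'_le _ _ fun k hk => ?_
  have hk' : k ≤ n := Nat.lt_succ_iff.1 (mem_range.1 hk)
  calc |cum (psum m G ω) k| ≤ ∑ c ∈ range k, |psum m G ω c| := abs_sum_le_sum_abs _ _
    _ ≤ ∑ c ∈ range n, |psum m G ω c| :=
        sum_le_sum_of_subset_of_nonneg (range_subset_range.2 hk') fun _ _ _ => abs_nonneg _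
    _ ≤ ∑ c ∈ range n, ∑ i : Fin m, |G (ω i.castSucc) (ω i.succ) c| :=
        sum_le_sum fun c _ => abs_sum_le_sum_abs _ _
    _ = asum m (fun x y => tv n (G x y)) ω := by
        rw [sum_comm]
        rfl

theorem mo16_asum_le (m n : ℕ) (G : S → S → ℕ → ℝ) (hg1 : ∀ x y, tv n (G x y) ≤ 1)
    (ω : Fin (m + 1) → S) : asum m (fun x y => tv n (G x y)) ω ≤ m := by
  calc asum m (fun x y => tv n (G x y)) ω ≤ ∑ _i : Fin m, (1 : ℝ) :=
        sum_le_sum fun i _ => hg1 _ _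
    _ = m := by simp

theorem mo16_EE_sum (C : Chain S) (m : ℕ) {ι : Type} (s : Finset ι)
    (F : ι → (Fin (m + 1) → S) → ℝ) :
    EE C m (fun ω => ∑ i ∈ s, F i ω) = ∑ i ∈ s, EE C m (F i) := by
  unfold EE
  rw [sum_comm]
  exact sum_congr rfl fun ω _ => by rw [mul_sum]

theorem mo16_moment (C : Chain S) (q : ℝ) (hq0 : 0 < q) (hq1 : q < 1)
    (n : ℕ) (G : S → S → ℕ → ℝ) (hG : ∀ x y c, G y x c = -G x y c)
    (hg1 : ∀ x y, tv n (G x y) ≤ 1) (Mx : ℕ) :
    ∑ m ∈ range Mx, (1 - q) * q ^ m * EE C m (fun ω => (nrm n (psum m G ω)) ^ (18 / 17 : ℝ))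
      ≤ 10 ^ 8 * rho C (fun x y => tv n (G x y)) / (1 - q) := by
  have h1q : 0 < 1 - q := by linarith
  have hρ : 0 ≤ rho C (fun x y => tv n (G x y)) :=
    tm8_rho_nonneg C _ fun x y => mo16_tv_nonneg _ _
  set T : ℕ → ℕ → ℝ := fun l m => EE C m (fun ω => (nrm n (psum m G ω)) ^ 3 *
        Real.exp (-(asum m (fun x y => tv n (G x y)) ω) / 8 ^ l)) with hT
  have h8 : ∀ m ∈ range Mx, (m : ℝ) ≤ 8 ^ Mx := by
    intro m hm
    have h1 : m ≤ Mx := (mem_range.1 hm).le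
    have h2 : Mx < 8 ^ Mx := Nat.lt_pow_self (by norm_num)
    calc (m : ℝ) ≤ ((8 ^ Mx : ℕ) : ℝ) := by exact_mod_cast (le_trans h1 h2.le)
      _ = 8 ^ Mx := by push_cast; ring
  have hstep : ∀ m ∈ range Mx,
      EE C m (fun ω => (nrm n (psum m G ω)) ^ (18 / 17 : ℝ))
        ≤ m * rho C (fun x y => tv n (G x y))
          + 130 * ∑ l ∈ range (Mx + 1), (2 : ℝ) ^ (-(11 / 2 : ℝ) * l) * T l m := by
    intro m hm
    calc EE C m (fun ω => (nrm n (psum m G ω)) ^ (18 / 17 : ℝ))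
        ≤ EE C m (fun ω => asum m (fun x y => tv n (G x y)) ω
            + 130 * ∑ l ∈ range (Mx + 1), (2 : ℝ) ^ (-(11 / 2 : ℝ) * l) *
              ((nrm n (psum m G ω)) ^ 3 *
                Real.exp (-(asum m (fun x y => tv n (G x y)) ω) / 8 ^ l))) := by
          refine EE_mono C m _ _ fun ω => ?_
          exact r6g_pw _ _ (mo16_nrm_nonneg _ _) (mo16_nrm_le m n G ω) Mx
            (le_trans (mo16_asum_le m n G hg1 ω) (h8 m hm))
      _ = m * rho C (fun x y => tv n (G x y))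
          + 130 * ∑ l ∈ range (Mx + 1), (2 : ℝ) ^ (-(11 / 2 : ℝ) * l) * T l m := by
          rw [tm8_EE_add, tm8_EE_mul, EE_asum, mo16_EE_sum]
          congr 2
          refine sum_congr rfl fun l _ => ?_
          rw [tm8_EE_mul]
  have hg := tm8_geo q hq0 hq1 Mx
  have h3 : ∀ l, ∑ m ∈ range Mx, (1 - q) * q ^ m * T l m
      ≤ 20000 * 32 ^ l * rho C (fun x y => tv n (G x y)) / (1 - q) :=
    fun l => third_moment C q hq0 hq1 l n G hG hg1 Mx
  have hgeo := r6g_geo Mx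
  calc ∑ m ∈ range Mx, (1 - q) * q ^ m * EE C m (fun ω => (nrm n (psum m G ω)) ^ (18 / 17 : ℝ))
      ≤ ∑ m ∈ range Mx, (1 - q) * q ^ m * (m * rho C (fun x y => tv n (G x y))
          + 130 * ∑ l ∈ range (Mx + 1), (2 : ℝ) ^ (-(11 / 2 : ℝ) * l) * T l m) := by
        refine sum_le_sum fun m hm => mul_le_mul_of_nonneg_left (hstep m hm) ?_
        exact mul_nonneg h1q.le (pow_nonneg hq0.le m)
    _ = rho C (fun x y => tv n (G x y)) * (∑ m ∈ range Mx, (1 - q) * q ^ m * (m : ℝ))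
        + 130 * ∑ l ∈ range (Mx + 1), (2 : ℝ) ^ (-(11 / 2 : ℝ) * l) *
          (∑ m ∈ range Mx, (1 - q) * q ^ m * T l m) := by
        rw [mul_sum]
        have e1 : ∑ l ∈ range (Mx + 1), (2 : ℝ) ^ (-(11 / 2 : ℝ) * l) *
          (∑ m ∈ range Mx, (1 - q) * q ^ m * T l m)
          = ∑ m ∈ range Mx, (1 - q) * q ^ m *
            ∑ l ∈ range (Mx + 1), (2 : ℝ) ^ (-(11 / 2 : ℝ) * l) * T l m := by
          simp only [mul_sum]
          rw [sum_comm]
          refine sum_congr rfl fun m _ => sum_congr rfl fun l _ => by ring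
        rw [e1, mul_sum, ← sum_add_distrib]
        exact sum_congr rfl fun m _ => by ring
    _ ≤ rho C (fun x y => tv n (G x y)) * (1 / (1 - q))
        + 130 * ∑ l ∈ range (Mx + 1), (2 : ℝ) ^ (-(11 / 2 : ℝ) * l) *
          (20000 * 32 ^ l * rho C (fun x y => tv n (G x y)) / (1 - q)) := by
        gcongr with l _
        exact h3 l
    _ = rho C (fun x y => tv n (G x y)) / (1 - q)
        * (1 + 2600000 * ∑ l ∈ range (Mx + 1), (2 : ℝ) ^ (-(11 / 2 : ℝ) * l) * 32 ^ l) := by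
        rw [mul_add, mul_sum, mul_sum, mul_sum]
        congr 1
        · ring
        · exact sum_congr rfl fun l _ => by ring
    _ ≤ rho C (fun x y => tv n (G x y)) / (1 - q) * 10 ^ 8 := by
        have h0 : 0 ≤ rho C (fun x y => tv n (G x y)) / (1 - q) := div_nonneg hρ h1q.le
        refine mul_le_mul_of_nonneg_left ?_ h0
        linarith
    _ = 10 ^ 8 * rho C (fun x y => tv n (G x y)) / (1 - q) := by ring

end P125S
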