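import Vale.Agent.P125S.Defs

/-! The statement: Markov type of an operator, the spaces `ℓ¹` and `ℓ^∞` -/

namespace P125S
open Finset

/-- Markov type `p` with constant `K` of a bounded operator: for every finite stationary
reversible chain, every map `f` and every time `t ≥ 1`,
`E ‖T f(Z_t) - T f(Z_0)‖ ^ p ≤ K ^ p * t * E ‖f(Z_1) - f(Z_0)‖ ^ p`. -/
def OpMarkovType {X Y : Type} [NormedAddCommGroup X] [NormedSpace ℝ X]
    [NormedAddCommGroup Y] [NormedSpace ℝ Y] (T : X →L[ℝ] Y) (p K : ℝ) : Prop :=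
  ∀ (S : Type) [Fintype S] [DecidableEq S] (C : Chain S) (f : S → X) (t : ℕ), 1 ≤ t →
    ∑ x, ∑ y, C.w x * ((Matrix.of C.P) ^ t) x y * ‖T (f y) - T (f x)‖ ^ p
      ≤ K ^ p * t * ∑ x, ∑ y, C.w x * C.P x y * ‖f y - f x‖ ^ p

/-- `ℓ¹` -/
abbrev L1 : Type := lp (fun _ : ℕ => ℝ) 1

/-- `ℓ^∞` -/
abbrev Linf : Type := lp (fun _ : ℕ => ℝ) ⊤

end P125S
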