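import Vale.Agent.P125S.R9
import Vale.Agent.P125S.Op

/-! R10: the summing operator does not factor through a uniformly convex space -/

namespace P125S
open Finset

/-- coordinate functional on `ℓ^∞` -/
noncomputable def nf4ev (i : ℕ) : Linf →L[ℝ] ℝ :=
  LinearMap.mkContinuous
    { toFun := fun v => (v : ℕ → ℝ) i
      map_add' := fun v w => by simp
      map_smul' := fun a v => by simp } 1 (fun v => by
        rw [one_mul]
        exact lp.norm_apply_le_norm ENNReal.top_ne_zero v i)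

theorem nf4ev_apply (i : ℕ) (v : Linf) : nf4ev i v = (v : ℕ → ℝ) i := rfl

theorem nf4ev_norm (i : ℕ) : ‖nf4ev i‖ ≤ 1 :=
  LinearMap.mkContinuous_norm_le _ zero_le_one _

theorem nf4 (T : L1 →L[ℝ] Linf) (hT : ∀ (v : L1) (k : ℕ),
    (T v : ℕ → ℝ) k = ∑ c ∈ range k, (v : ℕ → ℝ) c) (Z : Type) [NormedAddCommGroup Z]
    [NormedSpace ℝ Z] [UniformConvexSpace Z] (A : L1 →L[ℝ] Z) (B : Z →L[ℝ] Linf) :
    T ≠ B.comp A := by
  intro hTA
  refine no_factor Z (fun i => A (lp.single 1 i (1 : ℝ))) (fun i => (nf4ev i).comp B) ‖A‖ ‖B‖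
    ?_ ?_ ?_
  · intro i
    have h1 := A.le_opNorm (lp.single (E := fun _ : ℕ => ℝ) 1 i (1 : ℝ))
    rwa [lp.norm_single one_pos, norm_one, mul_one] at h1
  · intro i
    refine (ContinuousLinearMap.opNorm_comp_le _ _).trans ?_
    calc ‖nf4ev i‖ * ‖B‖ ≤ 1 * ‖B‖ := mul_le_mul_of_nonneg_right (nf4ev_norm i) (norm_nonneg _)
      _ = ‖B‖ := one_mul _
  · intro i j
    have h1 : B (A (lp.single (E := fun _ : ℕ => ℝ) 1 j (1 : ℝ)))
        = T (lp.single (E := fun _ : ℕ => ℝ) 1 j (1 : ℝ)) := by rw [hTA]; rfl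
    change nf4ev i (B (A (lp.single (E := fun _ : ℕ => ℝ) 1 j (1 : ℝ)))) = _
    rw [h1, nf4ev_apply, hT]
    by_cases hj : j < i
    · rw [if_pos hj, Finset.sum_eq_single_of_mem j (mem_range.mpr hj)]
      · simp
      · intro c _ hc
        exact lp.single_apply_ne (E := fun _ : ℕ => ℝ) 1 j (1 : ℝ) hc
    · rw [if_neg hj]
      apply Finset.sum_eq_zero
      intro c hc
      have : c ≠ j := by
        rintro rfl
        exact hj (mem_range.mp hc)
      exact lp.single_apply_ne (E := fun _ : ℕ => ℝ) 1 j (1 : ℝ) this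

end P125S
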