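import Vale.Agent.P125S.Defs

/-! R4, part 2: elementary properties of `nrm` -/

namespace P125S
open Finset

theorem nrm13_le {n : ℕ} {v : ℕ → ℝ} {B : ℝ} (h : ∀ k, k ≤ n → |cum v k| ≤ B) : nrm n v ≤ B := by
  unfold nrm
  apply Finset.sup'_le
  intro k hk
  exact h k (Nat.lt_succ_iff.1 (mem_range.1 hk))

theorem nrm13_ge {n : ℕ} (v : ℕ → ℝ) {k : ℕ} (hk : k ≤ n) : |cum v k| ≤ nrm n v := by
  unfold nrm
  exact Finset.le_sup' (fun k => |cum v k|) (mem_range.2 (Nat.lt_succ_of_le hk))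

theorem cum13_add (v v' : ℕ → ℝ) (k : ℕ) :
    cum (fun c => v c + v' c) k = cum v k + cum v' k := by
  unfold cum
  rw [sum_add_distrib]

theorem cum13_smul (a : ℝ) (v : ℕ → ℝ) (k : ℕ) : cum (fun c => a * v c) k = a * cum v k := by
  unfold cum
  rw [mul_sum]

theorem cum13_sum {ι : Type} (s : Finset ι) (v : ι → ℕ → ℝ) (k : ℕ) :
    cum (fun c => ∑ i ∈ s, v i c) k = ∑ i ∈ s, cum (v i) k := by
  unfold cum
  rw [sum_comm]

theorem nrm13_nonneg (n : ℕ) (v : ℕ → ℝ) : 0 ≤ nrm n v :=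
  (abs_nonneg _).trans (nrm13_ge v (Nat.zero_le n))

theorem nrm13_le_tv (n : ℕ) (v : ℕ → ℝ) : nrm n v ≤ tv n v := by
  apply nrm13_le
  intro k hk
  unfold cum tv
  refine (abs_sum_le_sum_abs _ _).trans ?_
  apply sum_le_sum_of_subset_of_nonneg
  · intro c hc
    rw [mem_range] at hc ⊢
    omega
  · intro c _ _
    exact abs_nonneg _

theorem nrm13_add (n : ℕ) (v v' : ℕ → ℝ) :
    nrm n (fun c => v c + v' c) ≤ nrm n v + nrm n v' := by
  apply nrm13_le
  intro k hk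
  rw [cum13_add]
  exact (abs_add_le _ _).trans (add_le_add (nrm13_ge v hk) (nrm13_ge v' hk))

theorem nrm13_sum {ι : Type} (s : Finset ι) (n : ℕ) (v : ι → ℕ → ℝ) :
    nrm n (fun c => ∑ i ∈ s, v i c) ≤ ∑ i ∈ s, nrm n (v i) := by
  apply nrm13_le
  intro k hk
  rw [cum13_sum]
  refine (abs_sum_le_sum_abs _ _).trans ?_
  exact sum_le_sum fun i _ => nrm13_ge (v i) hk

theorem nrm13_smul (n : ℕ) (a : ℝ) (v : ℕ → ℝ) :
    nrm n (fun c => a * v c) = |a| * nrm n v := by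
  apply le_antisymm
  · apply nrm13_le
    intro k hk
    rw [cum13_smul, abs_mul]
    exact mul_le_mul_of_nonneg_left (nrm13_ge v hk) (abs_nonneg a)
  · by_cases ha : a = 0
    · subst ha
      rw [abs_zero, zero_mul]
      exact nrm13_nonneg _ _
    · have hpos : 0 < |a| := abs_pos.2 ha
      rw [← le_div_iff₀' hpos]
      apply nrm13_le
      intro k hk
      rw [le_div_iff₀' hpos, ← abs_mul, ← cum13_smul]
      exact nrm13_ge (fun c => a * v c) hk

end P125S
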