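import Vale.Agent.P125S.Defs

namespace P125S
open Finset
variable {S : Type} [Fintype S]

theorem r1h14_maxp (M : S → S → ℝ) (hM : ∀ x y, 0 ≤ M x y) (q : ℝ) (hq : q < 1)
    (hrow : ∀ x, ∑ y, M x y ≤ q) (r : S → ℝ) (hr : ∀ x, ∑ y, M x y * r y ≤ r x) :
    ∀ x, 0 ≤ r x := by
  intro x
  haveI : Nonempty S := ⟨x⟩
  obtain ⟨x0, -, hx0⟩ := exists_min_image (univ : Finset S) r univ_nonempty
  have hmin : ∀ y, r x0 ≤ r y := fun y => hx0 y (mem_univ y)
  have h0 : 0 ≤ r x0 := by
    by_contra hneg
    push Not at hneg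
    have h1 : ∑ y, M x0 y * r x0 ≤ ∑ y, M x0 y * r y :=
      sum_le_sum (fun y _ => mul_le_mul_of_nonneg_left (hmin y) (hM x0 y))
    rw [← sum_mul] at h1
    have h2 := hr x0
    have h3 := hrow x0
    nlinarith
  exact h0.trans (hmin x)

theorem r1h14_res_exists (M : S → S → ℝ) (hM : ∀ x y, 0 ≤ M x y) (q : ℝ) (hq : q < 1)
    (hrow : ∀ x, ∑ y, M x y ≤ q) (φ : S → ℝ) :
    ∃ r : S → ℝ, ∀ x, r x = ∑ y, M x y * r y + φ x := by
  let T : (S → ℝ) →ₗ[ℝ] (S → ℝ) :=
    { toFun := fun r x => r x - ∑ y, M x y * r y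
      map_add' := by
        intro r s
        funext x
        simp only [Pi.add_apply, mul_add, sum_add_distrib]
        ring
      map_smul' := by
        intro c r
        funext x
        simp only [Pi.smul_apply, smul_eq_mul, RingHom.id_apply, mul_sub, mul_sum]
        congr 1
        apply sum_congr rfl
        intro y _
        ring }
  have hinj : Function.Injective T := by
    rw [← LinearMap.ker_eq_bot, LinearMap.ker_eq_bot']
    intro r hr
    have h1 : ∀ x, r x = ∑ y, M x y * r y := by
      intro x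
      have := congrFun hr x
      change r x - ∑ y, M x y * r y = 0 at this
      linarith
    have h2 := r1h14_maxp M hM q hq hrow r (fun x => (h1 x).symm.le)
    have h3 := r1h14_maxp M hM q hq hrow (fun x => - r x) (fun x => by
      show ∑ y, M x y * (- r y) ≤ - r x
      rw [h1 x, ← sum_neg_distrib]
      exact le_of_eq (sum_congr rfl (fun y _ => by ring)))
    funext x
    have := h2 x
    have := h3 x
    simp only [Pi.zero_apply]
    linarith
  have hsurj := LinearMap.surjective_of_injective hinj
  obtain ⟨r, hr⟩ := hsurj φ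
  refine ⟨r, fun x => ?_⟩
  have := congrFun hr x
  change r x - ∑ y, M x y * r y = φ x at this
  linarith

end P125S
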