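import Vale.Agent.P125S.Defs
import Vale.Agent.P125S.R1h14

/-! R1: resolvent and maximum principle -/

namespace P125S
open Finset
variable {S : Type} [Fintype S]

theorem maxp (M : S → S → ℝ) (hM : ∀ x y, 0 ≤ M x y) (q : ℝ) (hq : q < 1)
    (hrow : ∀ x, ∑ y, M x y ≤ q) (r : S → ℝ) (hr : ∀ x, ∑ y, M x y * r y ≤ r x) :
    ∀ x, 0 ≤ r x :=
  r1h14_maxp M hM q hq hrow r hr

theorem res_exists (M : S → S → ℝ) (hM : ∀ x y, 0 ≤ M x y) (q : ℝ) (hq : q < 1)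
    (hrow : ∀ x, ∑ y, M x y ≤ q) (φ : S → ℝ) :
    ∃ r : S → ℝ, ∀ x, r x = ∑ y, M x y * r y + φ x :=
  r1h14_res_exists M hM q hq hrow φ

end P125S
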