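import Vale.Agent.P125S.R8

/-! R10 `summing_markov`: from finitely many coordinates to the summing operator on `ℓ¹` (helper1) -/

namespace P125S
open Finset Filter Topology

theorem m1_nrm_le (n : ℕ) (v : ℕ → ℝ) (M : ℝ) (h : ∀ k, |cum v k| ≤ M) : nrm n v ≤ M := by
  unfold nrm
  exact sup'_le _ _ fun k _ => h k

theorem m1_le_nrm (n : ℕ) (v : ℕ → ℝ) (k : ℕ) (hk : k ≤ n) : |cum v k| ≤ nrm n v := by
  unfold nrm
  exact le_sup' (fun k => |cum v k|) (mem_range.2 (by omega))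

theorem m1_tendsto (T : lp (fun _ : ℕ => ℝ) 1 →L[ℝ] lp (fun _ : ℕ => ℝ) ⊤)
    (hT : ∀ (v : lp (fun _ : ℕ => ℝ) 1) (k : ℕ),
      (T v : ℕ → ℝ) k = ∑ c ∈ range k, (v : ℕ → ℝ) c) (v : lp (fun _ : ℕ => ℝ) 1) :
    Tendsto (fun n => nrm n (v : ℕ → ℝ)) atTop (𝓝 ‖T v‖) := by
  have h0 : ∀ k, |cum (v : ℕ → ℝ) k| = ‖(T v : ℕ → ℝ) k‖ := by
    intro k
    rw [hT v k, Real.norm_eq_abs]
    rfl
  rw [tendsto_order]
  constructor
  · intro a ha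
    rw [lp.norm_eq_ciSup] at ha
    obtain ⟨k, hk⟩ := exists_lt_of_lt_ciSup ha
    filter_upwards [eventually_ge_atTop k] with n hn
    rw [← h0 k] at hk
    exact lt_of_lt_of_le hk (m1_le_nrm n _ k hn)
  · intro a ha
    filter_upwards with n
    refine lt_of_le_of_lt (m1_nrm_le n _ ‖T v‖ fun k => ?_) ha
    rw [h0 k]
    exact lp.norm_apply_le_norm (by simp) (T v) k

theorem m1_tv (n : ℕ) (v : lp (fun _ : ℕ => ℝ) 1) : tv n (v : ℕ → ℝ) ≤ ‖v‖ := by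
  have h := lp.sum_rpow_le_norm_rpow (p := 1) (by simp) v (range n)
  simpa [tv] using h

theorem m1_main (K : ℝ) (hK : 0 < K)
    (hfin : ∀ (S : Type) [Fintype S] [DecidableEq S]
      (C : Chain S) (n : ℕ) (f : S → ℕ → ℝ) (t : ℕ), 1 ≤ t →
      ∑ x, ∑ y, C.w x * ((Matrix.of C.P) ^ t) x y *
          (nrm n (fun c => f y c - f x c)) ^ (35 / 34 : ℝ)
        ≤ K * t * ∑ x, ∑ y, C.w x * C.P x y *
          (tv n (fun c => f y c - f x c)) ^ (35 / 34 : ℝ))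
    (T : lp (fun _ : ℕ => ℝ) 1 →L[ℝ] lp (fun _ : ℕ => ℝ) ⊤)
    (hT : ∀ (v : lp (fun _ : ℕ => ℝ) 1) (k : ℕ),
      (T v : ℕ → ℝ) k = ∑ c ∈ range k, (v : ℕ → ℝ) c)
    (S : Type) [Fintype S] [DecidableEq S] (C : Chain S)
    (f : S → lp (fun _ : ℕ => ℝ) 1) (t : ℕ) (ht : 1 ≤ t) :
    ∑ x, ∑ y, C.w x * ((Matrix.of C.P) ^ t) x y * ‖T (f y) - T (f x)‖ ^ (35 / 34 : ℝ)
      ≤ (K ^ (34 / 35 : ℝ)) ^ (35 / 34 : ℝ) * t *
        ∑ x, ∑ y, C.w x * C.P x y * ‖f y - f x‖ ^ (35 / 34 : ℝ) := by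
  have hKp : (K ^ (34 / 35 : ℝ)) ^ (35 / 34 : ℝ) = K := by
    rw [← Real.rpow_mul hK.le]
    norm_num
  rw [hKp]
  have hco : ∀ x y, (fun c => (f y : ℕ → ℝ) c - (f x : ℕ → ℝ) c)
      = ((f y - f x : lp (fun _ : ℕ => ℝ) 1) : ℕ → ℝ) := by
    intro x y
    rw [lp.coeFn_sub]
    rfl
  have hlim : Tendsto (fun n => ∑ x, ∑ y, C.w x * ((Matrix.of C.P) ^ t) x y *
      (nrm n (fun c => (f y : ℕ → ℝ) c - (f x : ℕ → ℝ) c)) ^ (35 / 34 : ℝ)) atTop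
      (𝓝 (∑ x, ∑ y, C.w x * ((Matrix.of C.P) ^ t) x y * ‖T (f y) - T (f x)‖ ^ (35 / 34 : ℝ))) := by
    refine tendsto_finsetSum _ fun x _ => tendsto_finsetSum _ fun y _ => ?_
    refine Tendsto.const_mul _ ?_
    rw [← map_sub]
    have h1 := m1_tendsto T hT (f y - f x)
    have h2 := h1.rpow_const (p := (35 / 34 : ℝ)) (Or.inr (by norm_num))
    refine h2.congr fun n => ?_
    rw [← hco x y]
  refine le_of_tendsto' hlim fun n => ?_
  refine (hfin S C n (fun x => (f x : ℕ → ℝ)) t ht).trans ?_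
  refine mul_le_mul_of_nonneg_left ?_ (by positivity)
  refine sum_le_sum fun x _ => sum_le_sum fun y _ => ?_
  refine mul_le_mul_of_nonneg_left ?_ (mul_nonneg (C.w_nonneg x) (C.P_nonneg x y))
  refine Real.rpow_le_rpow ?_ ?_ (by norm_num)
  · exact sum_nonneg fun c _ => abs_nonneg _
  · have := m1_tv n (f y - f x)
    rw [← hco x y] at this
    exact this

end P125S
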