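import Mathlib

/-!
# A uniformly convex space contains no summing structure
-/

namespace P125S

/-- average of a dyadic block of length `2 ^ k` starting at `s` -/
noncomputable def r9avg {Z : Type*} [NormedAddCommGroup Z] [NormedSpace ℝ Z] (e : ℕ → Z) :
    ℕ → ℕ → Z
  | 0, s => e s
  | k + 1, s => (1 / 2 : ℝ) • (r9avg e k s + r9avg e k (s + 2 ^ k))

theorem r9_one {Z : Type*} [NormedAddCommGroup Z] [NormedSpace ℝ Z] (e : ℕ → Z)
    (φ : ℕ → (Z →L[ℝ] ℝ)) (h : ∀ i j, φ i (e j) = if j < i then 1 else 0) (k : ℕ) :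
    ∀ s i, s + 2 ^ k ≤ i → φ i (r9avg e k s) = 1 := by
  induction k with
  | zero =>
    intro s i hi
    have : s < i := by simpa using hi
    simp [r9avg, h, this]
  | succ k ih =>
    intro s i hi
    have h2 : (2 : ℕ) ^ (k + 1) = 2 ^ k + 2 ^ k := by ring
    have h3 : 0 < (2 : ℕ) ^ k := by positivity
    simp only [r9avg, map_smul, map_add]
    rw [ih s i (by omega), ih (s + 2 ^ k) i (by omega)]
    norm_num

theorem r9_zero {Z : Type*} [NormedAddCommGroup Z] [NormedSpace ℝ Z] (e : ℕ → Z)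
    (φ : ℕ → (Z →L[ℝ] ℝ)) (h : ∀ i j, φ i (e j) = if j < i then 1 else 0) (k : ℕ) :
    ∀ s i, i ≤ s → φ i (r9avg e k s) = 0 := by
  induction k with
  | zero =>
    intro s i hi
    have : ¬ s < i := by omega
    simp [r9avg, h, this]
  | succ k ih =>
    intro s i hi
    simp only [r9avg, map_smul, map_add]
    rw [ih s i hi, ih (s + 2 ^ k) i (hi.trans (Nat.le_add_right _ _))]
    norm_num

theorem no_factor (Z : Type*) [NormedAddCommGroup Z] [NormedSpace ℝ Z] [UniformConvexSpace Z]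
    (e : ℕ → Z) (φ : ℕ → (Z →L[ℝ] ℝ)) (R C : ℝ) (he : ∀ i, ‖e i‖ ≤ R)
    (hφ : ∀ i, ‖φ i‖ ≤ C) (h : ∀ i j, φ i (e j) = if j < i then 1 else 0) : False := by
  have hb : ∀ i (z : Z), |φ i z| ≤ C * ‖z‖ := fun i z =>
    ((φ i).le_opNorm z).trans (mul_le_mul_of_nonneg_right (hφ i) (norm_nonneg z))
  have h10 : φ 1 (e 0) = 1 := by rw [h]; simp
  have h1 : (1 : ℝ) ≤ C * ‖e 0‖ := by
    have := hb 1 (e 0)
    rwa [h10, abs_one] at this
  have hC0 : 0 ≤ C := (norm_nonneg _).trans (hφ 0)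
  have hC : 0 < C := by
    rcases hC0.eq_or_lt with h' | h'
    · rw [← h', zero_mul] at h1
      linarith
    · exact h'
  have hR : 0 < R := by
    have h2 : 0 < ‖e 0‖ := by
      by_contra h'
      have : ‖e 0‖ = 0 := le_antisymm (not_lt.mp h') (norm_nonneg _)
      rw [this, mul_zero] at h1
      linarith
    exact h2.trans_le (he 0)
  have hsep : ∀ k s, 1 / C ≤ ‖r9avg e k s - r9avg e k (s + 2 ^ k)‖ := by
    intro k s
    have h2 := hb (s + 2 ^ k) (r9avg e k s - r9avg e k (s + 2 ^ k))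
    rw [map_sub, r9_one e φ h k s _ le_rfl, r9_zero e φ h k _ _ le_rfl, sub_zero, abs_one] at h2
    rw [div_le_iff₀ hC]
    linarith
  have hlow : ∀ k, 1 / C ≤ ‖r9avg e k 0‖ := by
    intro k
    have h2 := hb (0 + 2 ^ k) (r9avg e k 0)
    rw [r9_one e φ h k 0 _ le_rfl, abs_one] at h2
    rw [div_le_iff₀ hC]
    linarith
  have heps : 0 < 1 / C / R := by positivity
  obtain ⟨δ, hδ, hU⟩ := exists_forall_closed_ball_dist_add_le_two_sub Z heps
  set q : ℝ := 1 - min δ 1 / 2 with hq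
  have hm : 0 < min δ 1 := lt_min hδ one_pos
  have hm1 : min δ 1 ≤ 1 := min_le_right _ _
  have hmδ : min δ 1 ≤ δ := min_le_left _ _
  have hq0 : 0 < q := by rw [hq]; linarith
  have hq1 : q < 1 := by rw [hq]; linarith
  have hup : ∀ k s, ‖r9avg e k s‖ ≤ q ^ k * R := by
    intro k
    induction k with
    | zero => intro s; simpa [r9avg] using he s
    | succ k ih =>
      intro s
      have hρ : 0 < q ^ k * R := by positivity
      have hρR : q ^ k * R ≤ R := by
        have : q ^ k ≤ 1 := pow_le_one₀ hq0.le hq1.le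
        nlinarith
      set x := r9avg e k s
      set y := r9avg e k (s + 2 ^ k)
      have hx : ‖(q ^ k * R)⁻¹ • x‖ ≤ 1 := by
        rw [norm_smul, Real.norm_of_nonneg (inv_nonneg.mpr hρ.le), inv_mul_le_iff₀ hρ, mul_one]
        exact ih s
      have hy : ‖(q ^ k * R)⁻¹ • y‖ ≤ 1 := by
        rw [norm_smul, Real.norm_of_nonneg (inv_nonneg.mpr hρ.le), inv_mul_le_iff₀ hρ, mul_one]
        exact ih (s + 2 ^ k)
      have hxy : 1 / C / R ≤ ‖(q ^ k * R)⁻¹ • x - (q ^ k * R)⁻¹ • y‖ := by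
        rw [← smul_sub, norm_smul, Real.norm_of_nonneg (inv_nonneg.mpr hρ.le)]
        calc 1 / C / R ≤ 1 / C / (q ^ k * R) :=
              div_le_div_of_nonneg_left (by positivity) hρ hρR
          _ = (q ^ k * R)⁻¹ * (1 / C) := by rw [div_eq_inv_mul]
          _ ≤ (q ^ k * R)⁻¹ * ‖x - y‖ :=
              mul_le_mul_of_nonneg_left (hsep k s) (inv_nonneg.mpr hρ.le)
      have h3 := hU hx hy hxy
      rw [← smul_add, norm_smul, Real.norm_of_nonneg (inv_nonneg.mpr hρ.le),
        inv_mul_le_iff₀ hρ] at h3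
      have h4 : ‖r9avg e (k + 1) s‖ = 1 / 2 * ‖x + y‖ := by
        have : r9avg e (k + 1) s = (1 / 2 : ℝ) • (x + y) := rfl
        rw [this, norm_smul]
        norm_num
      rw [h4]
      have h5 : q ^ k * R * (2 - δ) ≤ q ^ k * R * (2 * q) := by
        apply mul_le_mul_of_nonneg_left _ hρ.le
        rw [hq]; linarith
      calc 1 / 2 * ‖x + y‖ ≤ 1 / 2 * (q ^ k * R * (2 * q)) := by
            apply mul_le_mul_of_nonneg_left (h3.trans h5) (by norm_num)
        _ = q ^ (k + 1) * R := by ring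
  have hlim : Filter.Tendsto (fun k : ℕ => q ^ k * R) Filter.atTop (nhds 0) := by
    have := (tendsto_pow_atTop_nhds_zero_of_lt_one hq0.le hq1).mul_const R
    simpa using this
  have hev := hlim.eventually (gt_mem_nhds (show (0 : ℝ) < 1 / C by positivity))
  obtain ⟨k, hk⟩ := hev.exists
  have := hlow k
  have := hup k 0
  linarith

end P125S
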