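import Vale.Agent.P125S.Op

/-! The summing operator from l1 to l infinity -/

namespace P125S
open Finset

theorem se5_abs_sum_le (v : L1) (k : ℕ) : ∑ c ∈ range k, |(v : ℕ → ℝ) c| ≤ ‖v‖ := by
  have h := lp.sum_rpow_le_norm_rpow (E := fun _ : ℕ => ℝ) (p := 1) (by norm_num) v (range k)
  simpa using h

theorem se5_sum_le (v : L1) (k : ℕ) : |∑ c ∈ range k, (v : ℕ → ℝ) c| ≤ ‖v‖ :=
  le_trans (Finset.abs_sum_le_sum_abs _ _) (se5_abs_sum_le v k)

theorem se5_mem (v : L1) : Memℓp (E := fun _ : ℕ => ℝ) (fun k => ∑ c ∈ range k, (v : ℕ → ℝ) c) ⊤ := by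
  refine memℓp_infty ⟨‖v‖, ?_⟩
  rintro _ ⟨k, rfl⟩
  exact se5_sum_le v k

/-- the summing operator -/
noncomputable def se5T : L1 →L[ℝ] Linf :=
  LinearMap.mkContinuous
    { toFun := fun v => ⟨fun k => ∑ c ∈ range k, (v : ℕ → ℝ) c, se5_mem v⟩
      map_add' := by
        intro v w
        ext k
        show ∑ c ∈ range k, ((v : ℕ → ℝ) c + (w : ℕ → ℝ) c)
          = ∑ c ∈ range k, (v : ℕ → ℝ) c + ∑ c ∈ range k, (w : ℕ → ℝ) c
        exact Finset.sum_add_distrib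
      map_smul' := by
        intro a v
        ext k
        simp [Finset.mul_sum] } 1 (by
    intro v
    rw [one_mul]
    exact lp.norm_le_of_forall_le (norm_nonneg _) (fun k => se5_sum_le v k))

theorem se5_exists : ∃ T : L1 →L[ℝ] Linf, ∀ (v : L1) (k : ℕ),
    (T v : ℕ → ℝ) k = ∑ c ∈ range k, (v : ℕ → ℝ) c :=
  ⟨se5T, fun _ _ => rfl⟩

end P125S
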