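import Vale.Agent.P125S.R8
import Vale.Agent.P125S.R9
import Vale.Agent.P125S.R10m1
import Vale.Agent.P125S.Op
import Vale.Agent.P125S.Nf4
import Vale.Agent.P125S.Se5

/-! R10: the summing operator on `ℓ¹` -/

namespace P125S
open Finset

theorem summing_exists : ∃ T : L1 →L[ℝ] Linf, ∀ (v : L1) (k : ℕ),
    (T v : ℕ → ℝ) k = ∑ c ∈ range k, (v : ℕ → ℝ) c :=
  se5_exists

theorem summing_markov (T : L1 →L[ℝ] Linf) (hT : ∀ (v : L1) (k : ℕ),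
    (T v : ℕ → ℝ) k = ∑ c ∈ range k, (v : ℕ → ℝ) c) :
    ∃ p K : ℝ, 1 < p ∧ 0 < K ∧ OpMarkovType T p K := by
  obtain ⟨K, hK, hf⟩ := markov_finite
  exact ⟨35 / 34, K ^ (34 / 35 : ℝ), by norm_num, Real.rpow_pos_of_pos hK _,
    fun S _ _ C f t ht => m1_main K hK hf T hT S C f t ht⟩

theorem summing_no_factor (T : L1 →L[ℝ] Linf) (hT : ∀ (v : L1) (k : ℕ),
    (T v : ℕ → ℝ) k = ∑ c ∈ range k, (v : ℕ → ℝ) c) (Z : Type) [NormedAddCommGroup Z]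
    [NormedSpace ℝ Z] [UniformConvexSpace Z] (A : L1 →L[ℝ] Z) (B : Z →L[ℝ] Linf) :
    T ≠ B.comp A := by
  exact nf4 T hT Z A B

end P125S
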