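import Vale.Agent.P125S.Defs

/-! R1: resolvent and maximum principle, proofs -/

namespace P125S
open Finset
variable {S : Type} [Fintype S]

theorem r1_maxp (M : S → S → ℝ) (hM : ∀ x y, 0 ≤ M x y) (q : ℝ) (hq : q < 1)
    (hrow : ∀ x, ∑ y, M x y ≤ q) (r : S → ℝ) (hr : ∀ x, ∑ y, M x y * r y ≤ r x) :
    ∀ x, 0 ≤ r x := by
  intro x
  obtain ⟨z, -, hz⟩ := Finset.exists_min_image (univ : Finset S) r ⟨x, Finset.mem_univ x⟩
  have h1 : r z ≤ r x := hz x (Finset.mem_univ x)
  refine le_trans ?_ h1
  by_contra hneg
  push Not at hneg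
  have h2 : ∑ y, M z y * r z ≤ ∑ y, M z y * r y :=
    Finset.sum_le_sum fun y _ => mul_le_mul_of_nonneg_left (hz y (Finset.mem_univ y)) (hM z y)
  rw [← Finset.sum_mul] at h2
  have h3 := hr z
  have h4 := hrow z
  nlinarith

theorem r1_res_exists (M : S → S → ℝ) (hM : ∀ x y, 0 ≤ M x y) (q : ℝ) (hq : q < 1)
    (hrow : ∀ x, ∑ y, M x y ≤ q) (φ : S → ℝ) :
    ∃ r : S → ℝ, ∀ x, r x = ∑ y, M x y * r y + φ x := by
  let L : (S → ℝ) →ₗ[ℝ] (S → ℝ) :=
    { toFun := fun r x => r x - ∑ y, M x y * r y
      map_add' := by
        intro r s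
        funext x
        simp only [Pi.add_apply, mul_add, Finset.sum_add_distrib]
        ring
      map_smul' := by
        intro t r
        funext x
        simp only [Pi.smul_apply, smul_eq_mul, RingHom.id_apply]
        have : ∀ y, M x y * (t * r y) = t * (M x y * r y) := fun y => by ring
        simp only [this, ← Finset.mul_sum]
        ring }
  have hinj : Function.Injective L := by
    rw [injective_iff_map_eq_zero]
    intro r hr
    have h1 : ∀ x, r x = ∑ y, M x y * r y := by
      intro x
      have := congrFun hr x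
      simp only [L, LinearMap.coe_mk, AddHom.coe_mk, Pi.zero_apply] at this
      linarith
    have h2 := r1_maxp M hM q hq hrow r (fun x => (h1 x).ge)
    have h3 := r1_maxp M hM q hq hrow (fun x => -r x) (fun x => by
      have : ∑ y, M x y * -r y = -∑ y, M x y * r y := by
        rw [← Finset.sum_neg_distrib]
        exact Finset.sum_congr rfl fun y _ => by ring
      rw [this, ← h1 x])
    funext x
    have a := h2 x
    have b := h3 x
    simp only [Pi.zero_apply]
    linarith
  have hsurj : Function.Surjective L := LinearMap.injective_iff_surjective.mp hinj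
  obtain ⟨r, hr⟩ := hsurj φ
  refine ⟨r, fun x => ?_⟩
  have := congrFun hr x
  simp only [L, LinearMap.coe_mk, AddHom.coe_mk] at this
  linarith

end P125S
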