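import Vale.Agent.P125S.Defs

/-! R2, first half: the cubic monotone inequality (helper6) -/

namespace P125S
open Finset

/-- one cell of the exact integral of `h dF^2` -/
noncomputable def r2a6_cell (F h : ℕ → ℝ) (j : ℕ) : ℝ :=
  (F (j + 1) - F j) *
    (2 * h j * F j + h j * F (j + 1) + h (j + 1) * F j + 2 * h (j + 1) * F (j + 1)) / 3

/-- increment weight -/
noncomputable def r2a6_D (F₁ F₂ : ℕ → ℝ) (j : ℕ) : ℝ :=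
  (F₁ (j + 1) + F₂ (j + 1) - F₁ j - F₂ j) *
    ((F₁ j - F₂ j) ^ 2 + (F₁ j - F₂ j) * (F₁ (j + 1) - F₂ (j + 1)) + (F₁ (j + 1) - F₂ (j + 1)) ^ 2)

theorem r2a6_quad (h k : ℝ) : 0 ≤ h ^ 2 + h * k + k ^ 2 := by
  nlinarith [sq_nonneg (h + k), sq_nonneg h, sq_nonneg k]

theorem r2a6_D_nonneg (F₁ F₂ : ℕ → ℝ) (m1 : Monotone F₁) (m2 : Monotone F₂) (j : ℕ) :
    0 ≤ r2a6_D F₁ F₂ j := by
  have e1 : F₁ j ≤ F₁ (j + 1) := m1 (Nat.le_succ j)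
  have e2 : F₂ j ≤ F₂ (j + 1) := m2 (Nat.le_succ j)
  unfold r2a6_D
  exact mul_nonneg (by linarith) (r2a6_quad _ _)

theorem r2a6_step (h k d : ℝ) (hd : |k - h| ≤ d) :
    |k| ^ 3 ≤ |h| ^ 3 + d * (h ^ 2 + h * k + k ^ 2) := by
  have e : k ^ 3 = h ^ 3 + (k - h) * (h ^ 2 + h * k + k ^ 2) := by ring
  have q := r2a6_quad h k
  calc |k| ^ 3 = |k ^ 3| := (abs_pow k 3).symm
    _ = |h ^ 3 + (k - h) * (h ^ 2 + h * k + k ^ 2)| := by rw [← e]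
    _ ≤ |h ^ 3| + |(k - h) * (h ^ 2 + h * k + k ^ 2)| := abs_add_le _ _
    _ = |h| ^ 3 + |k - h| * (h ^ 2 + h * k + k ^ 2) := by
        rw [abs_pow, abs_mul, abs_of_nonneg q]
    _ ≤ |h| ^ 3 + d * (h ^ 2 + h * k + k ^ 2) := by
        have := mul_le_mul_of_nonneg_right hd q
        linarith

theorem r2a6_cub (F₁ F₂ : ℕ → ℝ) (h1 : F₁ 0 = 0) (h2 : F₂ 0 = 0)
    (m1 : Monotone F₁) (m2 : Monotone F₂) (k : ℕ) :
    |F₁ k - F₂ k| ^ 3 ≤ ∑ j ∈ range k, r2a6_D F₁ F₂ j := by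
  induction k with
  | zero => simp [h1, h2]
  | succ k ih =>
    rw [sum_range_succ]
    have e1 : F₁ k ≤ F₁ (k + 1) := m1 (Nat.le_succ k)
    have e2 : F₂ k ≤ F₂ (k + 1) := m2 (Nat.le_succ k)
    have hd : |(F₁ (k + 1) - F₂ (k + 1)) - (F₁ k - F₂ k)| ≤
        F₁ (k + 1) + F₂ (k + 1) - F₁ k - F₂ k := by
      rw [abs_le]; constructor <;> linarith
    have := r2a6_step (F₁ k - F₂ k) (F₁ (k + 1) - F₂ (k + 1)) _ hd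
    unfold r2a6_D at ih ⊢
    linarith

theorem r2a6_psi (n : ℕ) (F₁ F₂ : ℕ → ℝ) (h1 : F₁ 0 = 0) (h2 : F₂ 0 = 0) :
    6 * (∑ j ∈ range n, r2a6_cell F₁ (fun j => F₁ j - F₂ j) j
      - ∑ j ∈ range n, r2a6_cell F₂ (fun j => F₁ j - F₂ j) j)
      = 3 * (F₁ n + F₂ n) * (F₁ n - F₂ n) ^ 2 + ∑ j ∈ range n, r2a6_D F₁ F₂ j := by
  induction n with
  | zero => simp [h1, h2]
  | succ n ih =>
    rw [sum_range_succ, sum_range_succ, sum_range_succ]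
    have key : 6 * (r2a6_cell F₁ (fun j => F₁ j - F₂ j) n
        - r2a6_cell F₂ (fun j => F₁ j - F₂ j) n)
        = 3 * (F₁ (n + 1) + F₂ (n + 1)) * (F₁ (n + 1) - F₂ (n + 1)) ^ 2
          - 3 * (F₁ n + F₂ n) * (F₁ n - F₂ n) ^ 2 + r2a6_D F₁ F₂ n := by
      unfold r2a6_cell r2a6_D
      ring
    linarith

theorem r2a6_main (n : ℕ) (F₁ F₂ : ℕ → ℝ) (h1 : F₁ 0 = 0) (h2 : F₂ 0 = 0)
    (m1 : Monotone F₁) (m2 : Monotone F₂) (k : ℕ) (hk : k ≤ n) :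
    |F₁ k - F₂ k| ^ 3 ≤
      6 * (∑ j ∈ range n, r2a6_cell F₁ (fun j => F₁ j - F₂ j) j
      - ∑ j ∈ range n, r2a6_cell F₂ (fun j => F₁ j - F₂ j) j) := by
  rw [r2a6_psi n F₁ F₂ h1 h2]
  have a1 : 0 ≤ F₁ n := by rw [← h1]; exact m1 (Nat.zero_le n)
  have a2 : 0 ≤ F₂ n := by rw [← h2]; exact m2 (Nat.zero_le n)
  have b : 0 ≤ 3 * (F₁ n + F₂ n) * (F₁ n - F₂ n) ^ 2 := by positivity
  have c := r2a6_cub F₁ F₂ h1 h2 m1 m2 k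
  have d : ∑ j ∈ range k, r2a6_D F₁ F₂ j ≤ ∑ j ∈ range n, r2a6_D F₁ F₂ j :=
    sum_le_sum_of_subset_of_nonneg (range_subset_range.mpr hk)
      (fun j _ _ => r2a6_D_nonneg F₁ F₂ m1 m2 j)
  linarith

end P125S
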