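import Vale.Agent.P125S.Defs

/-! R2: the cubic energy inequality from the monotone map (helper7) -/

namespace P125S
open Finset
variable {S : Type} [Fintype S]

/-- the bilinear form of `Psi`, as in `R2.lean` -/
noncomputable def e7Psi (n : ℕ) (F h : ℕ → ℝ) : ℝ :=
  ∑ j ∈ range n, (F (j + 1) - F j) *
    (2 * h j * F j + h j * F (j + 1) + h (j + 1) * F j + 2 * h (j + 1) * F (j + 1)) / 3

theorem e7_add (n : ℕ) (F h k : ℕ → ℝ) :
    e7Psi n F (fun j => h j + k j) = e7Psi n F h + e7Psi n F k := by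
  unfold e7Psi
  rw [← sum_add_distrib]
  refine sum_congr rfl fun j _ => ?_
  ring

theorem e7_smul (n : ℕ) (F h : ℕ → ℝ) (c : ℝ) :
    e7Psi n F (fun j => c * h j) = c * e7Psi n F h := by
  unfold e7Psi
  rw [mul_sum]
  refine sum_congr rfl fun j _ => ?_
  ring

theorem e7_sum {ι : Type} (s : Finset ι) (n : ℕ) (F : ℕ → ℝ) (h : ι → ℕ → ℝ) :
    e7Psi n F (fun j => ∑ i ∈ s, h i j) = ∑ i ∈ s, e7Psi n F (h i) := by
  classical
  induction s using Finset.induction_on with
  | empty =>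
    simp [e7Psi]
  | insert a s ha ih =>
    rw [sum_insert ha, ← ih, ← e7_add]
    congr 1
    funext j
    rw [sum_insert ha]

theorem e7_mono (n : ℕ) (F : ℕ → ℝ) (h0 : ∀ j, 0 ≤ F j) (m : Monotone F) (h k : ℕ → ℝ)
    (hk : ∀ j, h j ≤ k j) : e7Psi n F h ≤ e7Psi n F k := by
  unfold e7Psi
  refine sum_le_sum fun j _ => ?_
  have h1 : 0 ≤ F (j + 1) - F j := sub_nonneg.2 (m (Nat.le_succ j))
  have h2 := h0 j
  have h3 := h0 (j + 1)
  have h4 := hk j
  have h5 := hk (j + 1)
  have h6 : 2 * h j * F j + h j * F (j + 1) + h (j + 1) * F j + 2 * h (j + 1) * F (j + 1)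
      ≤ 2 * k j * F j + k j * F (j + 1) + k (j + 1) * F j + 2 * k (j + 1) * F (j + 1) := by
    have a1 := mul_le_mul_of_nonneg_right h4 h2
    have a2 := mul_le_mul_of_nonneg_right h4 h3
    have a3 := mul_le_mul_of_nonneg_right h5 h2
    have a4 := mul_le_mul_of_nonneg_right h5 h3
    linarith
  have h7 := mul_le_mul_of_nonneg_left h6 h1
  linarith

theorem e7_const (n : ℕ) (F : ℕ → ℝ) (hF : F 0 = 0) (t : ℝ) :
    e7Psi n F (fun _ => t) = t * F n ^ 2 := by
  unfold e7Psi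
  have h : ∀ j ∈ range n, (F (j + 1) - F j) *
      (2 * t * F j + t * F (j + 1) + t * F j + 2 * t * F (j + 1)) / 3
      = t * F (j + 1) ^ 2 - t * F j ^ 2 := by
    intro j _
    ring
  rw [sum_congr rfl h, Finset.sum_range_sub (fun j => t * F j ^ 2) n, hF]
  ring

theorem energy7 (w : S → ℝ) (M : S → S → ℝ) (hw : ∀ x, 0 ≤ w x) (hM : ∀ x y, 0 ≤ M x y)
    (hsym : ∀ x y, w x * M x y = w y * M y x) (hrow : ∀ x, ∑ y, M x y ≤ 1)
    (n : ℕ) (lam psi : ℕ → S → ℝ) (hlam0 : ∀ c x, 0 ≤ lam c x) (hpsi0 : ∀ c x, 0 ≤ psi c x)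
    (heq : ∀ c x, lam c x = ∑ y, M x y * lam c y + psi c x)
    (B L : ℝ) (κ : S → ℝ) (hpsi : ∀ x, ∑ c ∈ range n, psi c x ≤ B * κ x)
    (hlam : ∀ x, ∑ c ∈ range n, lam c x ≤ L)
    (hpm : ∀ F₁ F₂ : ℕ → ℝ, F₁ 0 = 0 → F₂ 0 = 0 → Monotone F₁ → Monotone F₂ → ∀ k ≤ n,
      |F₁ k - F₂ k| ^ 3 ≤
        6 * (e7Psi n F₁ (fun j => F₁ j - F₂ j) - e7Psi n F₂ (fun j => F₁ j - F₂ j)))
    (j : S → S → ℕ) :
    ∑ x, ∑ y, w x * M x y * |∑ c ∈ Ico (j x y) n, lam c x - ∑ c ∈ Ico (j x y) n, lam c y| ^ 3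
      ≤ 12 * B * L ^ 2 * ∑ x, w x * κ x := by
  classical
  set F : S → ℕ → ℝ := fun x i => ∑ c ∈ Ico (n - i) n, lam c x with hF
  have hF0 : ∀ x, F x 0 = 0 := by
    intro x
    simp [hF]
  have hFm : ∀ x, Monotone (F x) := by
    intro x a b hab
    refine sum_le_sum_of_subset_of_nonneg ?_ fun c _ _ => hlam0 c x
    exact Ico_subset_Ico (by omega) le_rfl
  have hFn : ∀ x i, 0 ≤ F x i := fun x i => sum_nonneg fun c _ => hlam0 c x
  have hFj : ∀ (k : ℕ) (x : S), ∑ c ∈ Ico k n, lam c x = F x (n - k) := by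
    intro k x
    rcases le_total k n with h | h
    · show _ = ∑ c ∈ Ico (n - (n - k)) n, lam c x
      rw [show n - (n - k) = k by omega]
    · show _ = ∑ c ∈ Ico (n - (n - k)) n, lam c x
      rw [show n - k = 0 by omega, Nat.sub_zero, Ico_self, Ico_eq_empty_of_le h]
  have hFL : ∀ x, F x n ≤ L := by
    intro x
    have : F x n = ∑ c ∈ range n, lam c x := by
      show ∑ c ∈ Ico (n - n) n, lam c x = _
      rw [Nat.sub_self, range_eq_Ico]
    rw [this]
    exact hlam x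
  -- the pointwise inequality
  have h1 : ∀ x y, w x * M x y *
      |∑ c ∈ Ico (j x y) n, lam c x - ∑ c ∈ Ico (j x y) n, lam c y| ^ 3
      ≤ 6 * (w x * M x y * e7Psi n (F x) (fun i => F x i - F y i))
        + 6 * (w x * M x y * e7Psi n (F y) (fun i => F y i - F x i)) := by
    intro x y
    rw [hFj, hFj]
    have h2 := hpm (F x) (F y) (hF0 x) (hF0 y) (hFm x) (hFm y) (n - j x y) (Nat.sub_le _ _)
    have h3 : e7Psi n (F y) (fun i => F y i - F x i)
        = - e7Psi n (F y) (fun i => F x i - F y i) := by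
      have h4 := e7_smul n (F y) (fun i => F x i - F y i) (-1)
      rw [neg_one_mul] at h4
      rw [← h4]
      congr 1
      funext i
      ring
    rw [h3]
    have h5 := mul_le_mul_of_nonneg_left h2 (mul_nonneg (hw x) (hM x y))
    linarith
  have h2 : ∑ x, ∑ y, w x * M x y * e7Psi n (F y) (fun i => F y i - F x i)
      = ∑ x, ∑ y, w x * M x y * e7Psi n (F x) (fun i => F x i - F y i) := by
    rw [sum_comm]
    refine sum_congr rfl fun x _ => sum_congr rfl fun y _ => ?_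
    rw [hsym y x]
  have h3 : ∀ x, ∑ y, w x * M x y * e7Psi n (F x) (fun i => F x i - F y i)
      = w x * e7Psi n (F x) (fun i => ∑ y, M x y * (F x i - F y i)) := by
    intro x
    rw [e7_sum, mul_sum]
    refine sum_congr rfl fun y _ => ?_
    rw [e7_smul]
    ring
  have h4 : ∀ x, e7Psi n (F x) (fun i => ∑ y, M x y * (F x i - F y i)) ≤ B * κ x * L ^ 2 := by
    intro x
    have ht : 0 ≤ B * κ x := le_trans (sum_nonneg fun c _ => hpsi0 c x) (hpsi x)
    have h5 : e7Psi n (F x) (fun i => ∑ y, M x y * (F x i - F y i))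
        ≤ e7Psi n (F x) (fun _ => B * κ x) := by
      refine e7_mono n (F x) (hFn x) (hFm x) _ _ fun i => ?_
      have e1 : ∑ y, M x y * (F x i - F y i) = (∑ y, M x y) * F x i - ∑ y, M x y * F y i := by
        rw [sum_mul, ← sum_sub_distrib]
        refine sum_congr rfl fun y _ => ?_
        ring
      have e2 : ∑ y, M x y * F y i = ∑ c ∈ Ico (n - i) n, ∑ y, M x y * lam c y := by
        show ∑ y, M x y * (∑ c ∈ Ico (n - i) n, lam c y) = _
        simp_rw [mul_sum]
        rw [sum_comm]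
      have e3 : F x i - ∑ y, M x y * F y i = ∑ c ∈ Ico (n - i) n, psi c x := by
        rw [e2]
        show ∑ c ∈ Ico (n - i) n, lam c x - _ = _
        rw [← sum_sub_distrib]
        refine sum_congr rfl fun c _ => ?_
        have := heq c x
        linarith
      have e4 : ∑ c ∈ Ico (n - i) n, psi c x ≤ ∑ c ∈ range n, psi c x := by
        refine sum_le_sum_of_subset_of_nonneg ?_ fun c _ _ => hpsi0 c x
        intro c hc
        rw [mem_Ico] at hc
        exact mem_range.2 hc.2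
      have e5 : (∑ y, M x y) * F x i ≤ 1 * F x i :=
        mul_le_mul_of_nonneg_right (hrow x) (hFn x i)
      have e6 := hpsi x
      rw [e1]
      linarith
    refine h5.trans ?_
    rw [e7_const n (F x) (hF0 x)]
    refine mul_le_mul_of_nonneg_left ?_ ht
    exact pow_le_pow_left₀ (hFn x n) (hFL x) 2
  calc ∑ x, ∑ y, w x * M x y *
        |∑ c ∈ Ico (j x y) n, lam c x - ∑ c ∈ Ico (j x y) n, lam c y| ^ 3
      ≤ ∑ x, ∑ y, (6 * (w x * M x y * e7Psi n (F x) (fun i => F x i - F y i))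
        + 6 * (w x * M x y * e7Psi n (F y) (fun i => F y i - F x i))) :=
        sum_le_sum fun x _ => sum_le_sum fun y _ => h1 x y
    _ = 6 * (∑ x, ∑ y, w x * M x y * e7Psi n (F x) (fun i => F x i - F y i))
        + 6 * (∑ x, ∑ y, w x * M x y * e7Psi n (F y) (fun i => F y i - F x i)) := by
        simp_rw [sum_add_distrib, ← mul_sum]
    _ = 12 * ∑ x, w x * e7Psi n (F x) (fun i => ∑ y, M x y * (F x i - F y i)) := by
        rw [h2]
        simp_rw [h3]
        ring
    _ ≤ 12 * ∑ x, w x * (B * κ x * L ^ 2) := by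
        refine mul_le_mul_of_nonneg_left ?_ (by norm_num)
        exact sum_le_sum fun x _ => mul_le_mul_of_nonneg_left (h4 x) (hw x)
    _ = 12 * B * L ^ 2 * ∑ x, w x * κ x := by
        rw [mul_sum, mul_sum]
        refine sum_congr rfl fun x _ => ?_
        ring

end P125S
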