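import Vale.Agent.P125S.Defs
import Vale.Agent.P125S.R2e7
import Vale.Agent.P125S.R2a6

/-! R2: the monotone map and the cubic energy inequality -/

namespace P125S
open Finset
variable {S : Type} [Fintype S]

/-- exact integral of `h dF^2` for piecewise linear `F`, `h` -/
noncomputable def Psi (n : ℕ) (F h : ℕ → ℝ) : ℝ :=
  ∑ j ∈ range n, (F (j + 1) - F j) *
    (2 * h j * F j + h j * F (j + 1) + h (j + 1) * F j + 2 * h (j + 1) * F (j + 1)) / 3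

theorem psi_mono (n : ℕ) (F₁ F₂ : ℕ → ℝ) (h1 : F₁ 0 = 0) (h2 : F₂ 0 = 0)
    (m1 : Monotone F₁) (m2 : Monotone F₂) (k : ℕ) (hk : k ≤ n) :
    |F₁ k - F₂ k| ^ 3 ≤
      6 * (Psi n F₁ (fun j => F₁ j - F₂ j) - Psi n F₂ (fun j => F₁ j - F₂ j)) := by
  exact r2a6_main n F₁ F₂ h1 h2 m1 m2 k hk

/-- energy bound for tails of resolvents; `j x y` is an arbitrary choice of the cut -/
theorem energy (w : S → ℝ) (M : S → S → ℝ) (hw : ∀ x, 0 ≤ w x) (hM : ∀ x y, 0 ≤ M x y)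
    (hsym : ∀ x y, w x * M x y = w y * M y x) (hrow : ∀ x, ∑ y, M x y ≤ 1)
    (n : ℕ) (lam psi : ℕ → S → ℝ) (hlam0 : ∀ c x, 0 ≤ lam c x) (hpsi0 : ∀ c x, 0 ≤ psi c x)
    (heq : ∀ c x, lam c x = ∑ y, M x y * lam c y + psi c x)
    (B L : ℝ) (hB : 0 ≤ B) (κ : S → ℝ) (hpsi : ∀ x, ∑ c ∈ range n, psi c x ≤ B * κ x)
    (hlam : ∀ x, ∑ c ∈ range n, lam c x ≤ L)
    (j : S → S → ℕ) :
    ∑ x, ∑ y, w x * M x y * |∑ c ∈ Ico (j x y) n, lam c x - ∑ c ∈ Ico (j x y) n, lam c y| ^ 3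
      ≤ 12 * B * L ^ 2 * ∑ x, w x * κ x :=
  energy7 w M hw hM hsym hrow n lam psi hlam0 hpsi0 heq B L κ hpsi hlam
    (fun F₁ F₂ h1 h2 m1 m2 k hk => psi_mono n F₁ F₂ h1 h2 m1 m2 k hk) j

end P125S
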