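import Vale.Agent.P125S.Defs

/-! R3: duality identity (helper lemmas and proof) -/

namespace P125S
open Finset
variable {S : Type} [Fintype S]

theorem d22_sym (C : Chain S) (q h : ℝ) (g : S → S → ℝ) (hgs : ∀ x y, g x y = g y x) (x y : S) :
    C.w x * ker C q h g x y = C.w y * ker C q h g y x := by
  unfold ker
  rw [hgs y x]
  have := C.rev x y
  linear_combination (q * Real.exp (-(g x y) / h)) * this

theorem d22_swap (C : Chain S) (q h : ℝ) (g : S → S → ℝ) (hgs : ∀ x y, g x y = g y x)
    (F : S → S → ℝ) :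
    ∑ x, ∑ y, C.w x * ker C q h g x y * F x y = ∑ x, ∑ y, C.w x * ker C q h g x y * F y x := by
  rw [sum_comm]
  refine sum_congr rfl fun x _ => sum_congr rfl fun y _ => ?_
  rw [d22_sym C q h g hgs y x]

theorem d22_add (W F H : S → S → ℝ) :
    ∑ x, ∑ y, W x y * (F x y + H x y) = ∑ x, ∑ y, W x y * F x y + ∑ x, ∑ y, W x y * H x y := by
  rw [← sum_add_distrib]
  refine sum_congr rfl fun x _ => ?_
  rw [← sum_add_distrib]
  exact sum_congr rfl fun y _ => by ring

theorem d22_smul (W F : S → S → ℝ) (t : ℝ) :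
    ∑ x, ∑ y, W x y * (t * F x y) = t * ∑ x, ∑ y, W x y * F x y := by
  rw [mul_sum]
  refine sum_congr rfl fun x _ => ?_
  rw [mul_sum]
  exact sum_congr rfl fun y _ => by ring

theorem d22_cum_neg (G : S → S → ℕ → ℝ) (hG : ∀ x y c, G y x c = -G x y c) (x y : S) (k : ℕ) :
    cum (G y x) k = -cum (G x y) k := by
  unfold cum
  rw [← sum_neg_distrib]
  exact sum_congr rfl fun c _ => hG x y c

/-- testing an equation `v = K (F ·)` against `z` -/
theorem d22_test (C : Chain S) (q h : ℝ) (g : S → S → ℝ) (v z : S → ℝ) (F : S → S → ℝ)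
    (hv : ∀ x, v x = ∑ y, ker C q h g x y * F x y) :
    ∑ x, C.w x * v x * z x = ∑ x, ∑ y, C.w x * ker C q h g x y * (z x * F x y) := by
  refine sum_congr rfl fun x _ => ?_
  rw [hv x, mul_sum, sum_mul]
  exact sum_congr rfl fun y _ => by ring

theorem dualityA (C : Chain S) (q : ℝ) (h : ℝ) (g : S → S → ℝ)
    (hgs : ∀ x y, g x y = g y x) (G : S → S → ℕ → ℝ) (hG : ∀ x y c, G y x c = -G x y c)
    (u : S → ℝ) (a b : ℕ → S → ℝ) (hsys : Sys C q h g G u a b) (k : ℕ)
    (κ r lam : S → ℝ) (hr : ∀ x, r x = ∑ y, ker C q h g x y * r y + κ x)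
    (hlam : ∀ x, lam x = ∑ y, ker C q h g x y * lam y +
      ∑ y, ker C q h g x y * (-(cum (G x y) k)) * r y) :
    ∑ x, C.w x * κ x * b k x =
      ∑ x, ∑ y, C.w x * ker C q h g x y * (cum (G x y) k) ^ 2 * r x * u y
      + ∑ x, ∑ y, C.w x * ker C q h g x y * cum (G x y) k *
          (((lam x - lam y) * (u x + u y) - (lam x + lam y) * (u x - u y)) / 2) := by
  have hD := fun x y => d22_cum_neg G hG x y k
  -- test the equation of `r` against `b`
  have e1 : ∑ x, C.w x * κ x * b k x
      = ∑ x, C.w x * r x * b k x - ∑ x, ∑ y, C.w x * ker C q h g x y * (b k x * r y) := by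
    rw [← sum_sub_distrib]
    refine sum_congr rfl fun x _ => ?_
    have : κ x = r x - ∑ y, ker C q h g x y * r y := by linarith [hr x]
    rw [this, mul_sub, sub_mul, mul_sum, sum_mul]
    congr 1
    exact sum_congr rfl fun y _ => by ring
  have e2 : ∑ x, C.w x * b k x * r x
      = ∑ x, ∑ y, C.w x * ker C q h g x y * (r x * (b k y + 2 * cum (G x y) k * a k y
        + (cum (G x y) k) ^ 2 * u y)) :=
    d22_test C q h g (b k) r _ (hsys.hb k)
  have e2' : ∑ x, C.w x * r x * b k x = ∑ x, C.w x * b k x * r x :=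
    sum_congr rfl fun x _ => by ring
  have e3 : ∑ x, ∑ y, C.w x * ker C q h g x y * (r x * (b k y + 2 * cum (G x y) k * a k y
        + (cum (G x y) k) ^ 2 * u y))
      = ∑ x, ∑ y, C.w x * ker C q h g x y * (r x * b k y)
        + 2 * ∑ x, ∑ y, C.w x * ker C q h g x y * (r x * cum (G x y) k * a k y)
        + ∑ x, ∑ y, C.w x * ker C q h g x y * (cum (G x y) k) ^ 2 * r x * u y := by
    rw [mul_sum, ← sum_add_distrib, ← sum_add_distrib]
    refine sum_congr rfl fun x _ => ?_
    rw [mul_sum, ← sum_add_distrib, ← sum_add_distrib]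
    exact sum_congr rfl fun y _ => by ring
  have e4 : ∑ x, ∑ y, C.w x * ker C q h g x y * (r x * b k y)
      = ∑ x, ∑ y, C.w x * ker C q h g x y * (b k x * r y) := by
    rw [d22_swap C q h g hgs]
    exact sum_congr rfl fun x _ => sum_congr rfl fun y _ => by ring
  have e5 : ∑ x, ∑ y, C.w x * ker C q h g x y * (r x * cum (G x y) k * a k y)
      = - ∑ x, ∑ y, C.w x * ker C q h g x y * (cum (G x y) k * r y * a k x) := by
    rw [d22_swap C q h g hgs, ← sum_neg_distrib]
    refine sum_congr rfl fun x _ => ?_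
    rw [← sum_neg_distrib]
    exact sum_congr rfl fun y _ => by rw [hD x y]; ring
  -- test the equation of `lam` against `a`
  have e6 : ∑ x, C.w x * lam x * a k x
      = ∑ x, ∑ y, C.w x * ker C q h g x y * (a k x * lam y)
        - ∑ x, ∑ y, C.w x * ker C q h g x y * (cum (G x y) k * r y * a k x) := by
    rw [← sum_sub_distrib]
    refine sum_congr rfl fun x _ => ?_
    rw [hlam x, mul_add, add_mul, mul_sum, sum_mul, mul_sum, sum_mul, ← sum_sub_distrib,
      ← sum_add_distrib]
    exact sum_congr rfl fun y _ => by ring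
  have e7 : ∑ x, C.w x * a k x * lam x
      = ∑ x, ∑ y, C.w x * ker C q h g x y * (lam x * (a k y + cum (G x y) k * u y)) :=
    d22_test C q h g (a k) lam _ (hsys.ha k)
  have e7' : ∑ x, C.w x * lam x * a k x = ∑ x, C.w x * a k x * lam x :=
    sum_congr rfl fun x _ => by ring
  have e8 : ∑ x, ∑ y, C.w x * ker C q h g x y * (lam x * (a k y + cum (G x y) k * u y))
      = ∑ x, ∑ y, C.w x * ker C q h g x y * (lam x * a k y)
        + ∑ x, ∑ y, C.w x * ker C q h g x y * (cum (G x y) k * (lam x * u y)) := by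
    rw [← sum_add_distrib]
    refine sum_congr rfl fun x _ => ?_
    rw [← sum_add_distrib]
    exact sum_congr rfl fun y _ => by ring
  have e9 : ∑ x, ∑ y, C.w x * ker C q h g x y * (lam x * a k y)
      = ∑ x, ∑ y, C.w x * ker C q h g x y * (a k x * lam y) := by
    rw [d22_swap C q h g hgs]
    exact sum_congr rfl fun x _ => sum_congr rfl fun y _ => by ring
  have e10 : ∑ x, ∑ y, C.w x * ker C q h g x y * (cum (G x y) k * (lam x * u y))
      = - ∑ x, ∑ y, C.w x * ker C q h g x y * (cum (G x y) k * (lam y * u x)) := by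
    rw [d22_swap C q h g hgs, ← sum_neg_distrib]
    refine sum_congr rfl fun x _ => ?_
    rw [← sum_neg_distrib]
    exact sum_congr rfl fun y _ => by rw [hD x y]; ring
  have e11 : ∑ x, ∑ y, C.w x * ker C q h g x y * cum (G x y) k *
          (((lam x - lam y) * (u x + u y) - (lam x + lam y) * (u x - u y)) / 2)
      = ∑ x, ∑ y, C.w x * ker C q h g x y * (cum (G x y) k * (lam x * u y))
        - ∑ x, ∑ y, C.w x * ker C q h g x y * (cum (G x y) k * (lam y * u x)) := by
    rw [← sum_sub_distrib]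
    refine sum_congr rfl fun x _ => ?_
    rw [← sum_sub_distrib]
    exact sum_congr rfl fun y _ => by ring
  rw [e11]
  linarith

end P125S
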