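import Vale.Agent.P125S.R1

/-! Bound of the resolvent of the traffic -/

namespace P125S
open Finset
variable {S : Type} [Fintype S]

theorem rb8_exp {t : ℝ} (h0 : 0 ≤ t) (h1 : t ≤ 1) : Real.exp (-t) ≤ 1 - t / 2 := by
  have h2 : 1 + t ≤ Real.exp t := by linarith [Real.add_one_le_exp t]
  have h3 : Real.exp (-t) * Real.exp t = 1 := by rw [← Real.exp_add]; simp
  have h4 : 0 < Real.exp (-t) := Real.exp_pos _
  have h5 : Real.exp (-t) * (1 + t) ≤ 1 := by
    calc Real.exp (-t) * (1 + t) ≤ Real.exp (-t) * Real.exp t :=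
          mul_le_mul_of_nonneg_left h2 h4.le
      _ = 1 := h3
  have h6 : 1 ≤ (1 - t / 2) * (1 + t) := by nlinarith
  have h7 : 0 < 1 + t := by linarith
  by_contra hc
  push Not at hc
  nlinarith

theorem rb8_ker_nonneg (C : Chain S) {q : ℝ} (hq0 : 0 ≤ q) (h : ℝ) (g : S → S → ℝ) (x y : S) :
    0 ≤ ker C q h g x y :=
  mul_nonneg (mul_nonneg hq0 (C.P_nonneg x y)) (Real.exp_pos _).le

theorem rb8_ker_le (C : Chain S) {q : ℝ} (hq0 : 0 ≤ q) {h : ℝ} (hh : 1 ≤ h)
    {g : S → S → ℝ} (hg0 : ∀ x y, 0 ≤ g x y) (hg1 : ∀ x y, g x y ≤ 1) (x y : S) :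
    ker C q h g x y ≤ q * C.P x y * (1 - g x y / (2 * h)) := by
  have hpos : 0 < h := by linarith
  have h1 : Real.exp (-(g x y) / h) ≤ 1 - g x y / (2 * h) := by
    have e1 : -(g x y) / h = -(g x y / h) := by ring
    have e2 : g x y / (2 * h) = g x y / h / 2 := by field_simp
    rw [e1, e2]
    refine rb8_exp (div_nonneg (hg0 x y) hpos.le) ?_
    rw [div_le_one hpos]
    linarith [hg1 x y]
  exact mul_le_mul_of_nonneg_left h1 (mul_nonneg hq0 (C.P_nonneg x y))

theorem rb8_row (C : Chain S) {q : ℝ} (hq0 : 0 ≤ q) {h : ℝ} (hh : 1 ≤ h)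
    {g : S → S → ℝ} (hg0 : ∀ x y, 0 ≤ g x y) (hg1 : ∀ x y, g x y ≤ 1) (x : S) :
    ∑ y, ker C q h g x y ≤ q * (1 - (∑ y, C.P x y * g x y) / (2 * h)) := by
  have hpos : 0 < h := by linarith
  calc ∑ y, ker C q h g x y ≤ ∑ y, q * C.P x y * (1 - g x y / (2 * h)) :=
        sum_le_sum fun y _ => rb8_ker_le C hq0 hh hg0 hg1 x y
    _ = q * (∑ y, C.P x y - (∑ y, C.P x y * g x y) / (2 * h)) := by
        rw [sum_div, ← sum_sub_distrib, mul_sum]
        refine sum_congr rfl fun y _ => ?_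
        field_simp
    _ = _ := by rw [C.P_sum]

theorem rb8_row_le (C : Chain S) {q : ℝ} (hq0 : 0 ≤ q) {h : ℝ} (hh : 1 ≤ h)
    {g : S → S → ℝ} (hg0 : ∀ x y, 0 ≤ g x y) (x : S) :
    ∑ y, ker C q h g x y ≤ q := by
  have hpos : 0 < h := by linarith
  calc ∑ y, ker C q h g x y ≤ ∑ y, q * C.P x y := by
        refine sum_le_sum fun y _ => ?_
        unfold ker
        have h1 : Real.exp (-(g x y) / h) ≤ 1 := by
          rw [Real.exp_le_one_iff]
          exact div_nonpos_of_nonpos_of_nonneg (by linarith [hg0 x y]) hpos.le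
        have h2 : 0 ≤ q * C.P x y := mul_nonneg hq0 (C.P_nonneg x y)
        nlinarith
    _ = q := by rw [← mul_sum, C.P_sum, mul_one]

theorem rb8_r_bound (C : Chain S) (q : ℝ) (hq0 : 0 < q) (hq1 : q < 1) (h : ℝ) (hh : 1 ≤ h)
    (g : S → S → ℝ) (hg0 : ∀ x y, 0 ≤ g x y) (hg1 : ∀ x y, g x y ≤ 1) (B : ℝ) (hB : 0 ≤ B)
    (r φ : S → ℝ) (hφ : ∀ x, φ x ≤ B * ∑ y, C.P x y * g x y)
    (hr : ∀ x, r x = ∑ y, ker C q h g x y * r y + φ x) : ∀ x, r x ≤ 2 * h * B := by
  have hpos : 0 < h := by linarith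
  have key := maxp (ker C q h g) (rb8_ker_nonneg C hq0.le h g) q hq1
    (rb8_row_le C hq0.le hh hg0) (fun x => 2 * h * B - r x) ?_
  · intro x
    linarith [key x]
  · intro x
    have e1 : ∑ y, ker C q h g x y * (2 * h * B - r y)
        = 2 * h * B * ∑ y, ker C q h g x y - (r x - φ x) := by
      rw [hr x, add_sub_cancel_right, mul_sum, ← sum_sub_distrib]
      exact sum_congr rfl fun y _ => by ring
    rw [e1]
    have h1 := rb8_row C hq0.le hh hg0 hg1 x
    set T := ∑ y, C.P x y * g x y with hT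
    have hT0 : 0 ≤ T := sum_nonneg fun y _ => mul_nonneg (C.P_nonneg x y) (hg0 x y)
    have hT1 : T ≤ 1 := by
      rw [← C.P_sum x]
      refine sum_le_sum fun y _ => ?_
      have := C.P_nonneg x y
      nlinarith [hg1 x y, hg0 x y]
    have h2 : q * (1 - T / (2 * h)) ≤ 1 - T / (2 * h) := by
      have h3 : 0 ≤ 1 - T / (2 * h) := by
        rw [sub_nonneg, div_le_one (by linarith)]
        linarith
      nlinarith
    have h4 : 2 * h * B * ∑ y, ker C q h g x y ≤ 2 * h * B * (1 - T / (2 * h)) :=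
      mul_le_mul_of_nonneg_left (h1.trans h2) (by positivity)
    have h5 : 2 * h * B * (1 - T / (2 * h)) = 2 * h * B - B * T := by
      field_simp
    have h6 := hφ x
    linarith

end P125S
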