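import Vale.Agent.P125S.R1
import Vale.Agent.P125S.RB8
import Vale.Agent.P125S.R3d22

/-! R3: a priori bounds for the survival probability -/

namespace P125S
open Finset
variable {S : Type} [Fintype S]

theorem ub13_row_ge (C : Chain S) {q : ℝ} (hq0 : 0 ≤ q) {h : ℝ} (hh : 1 ≤ h)
    (g : S → S → ℝ) (x : S) :
    q - q * ((∑ y, C.P x y * g x y) / h) ≤ ∑ y, ker C q h g x y := by
  have hpos : 0 < h := by linarith
  have h1 : q - q * ((∑ y, C.P x y * g x y) / h)
      = ∑ y, q * C.P x y * (1 - g x y / h) := by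
    have e1 : ∀ y, q * C.P x y * (1 - g x y / h)
        = q * C.P x y - (q / h) * (C.P x y * g x y) := by
      intro y
      field_simp
    rw [sum_congr rfl fun y _ => e1 y, sum_sub_distrib, ← mul_sum, ← mul_sum, C.P_sum x, mul_one]
    field_simp
  rw [h1]
  refine sum_le_sum fun y _ => ?_
  unfold ker
  apply mul_le_mul_of_nonneg_left _ (mul_nonneg hq0 (C.P_nonneg x y))
  have h2 := Real.add_one_le_exp (-(g x y) / h)
  have e2 : -(g x y) / h = -(g x y / h) := by ring
  rw [e2] at h2 ⊢
  linarith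

theorem ub13 (C : Chain S) (q : ℝ) (hq0 : 0 < q) (hq1 : q < 1) (h : ℝ) (hh : 1 ≤ h)
    (g : S → S → ℝ) (hg0 : ∀ x y, 0 ≤ g x y)
    (hgs : ∀ x y, g x y = g y x) (u : S → ℝ)
    (hu : ∀ x, u x = (1 - q) + ∑ y, ker C q h g x y * u y) :
    (∀ x, 0 ≤ u x) ∧ (∀ x, u x ≤ 1) ∧
    ∑ x, ∑ y, C.w x * ker C q h g x y * (u x - u y) ^ 2 ≤ 2 * rho C g / h := by
  have hpos : 0 < h := by linarith
  have hK := rb8_ker_nonneg C hq0.le h g
  have hrow := rb8_row_le C hq0.le hh hg0
  have h0 : ∀ x, 0 ≤ u x := by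
    refine maxp (ker C q h g) hK q hq1 hrow u ?_
    intro x
    linarith [hu x]
  have h1' : ∀ x, 0 ≤ 1 - u x := by
    refine maxp (ker C q h g) hK q hq1 hrow (fun x => 1 - u x) ?_
    intro x
    have e1 : ∑ y, ker C q h g x y * (1 - u y)
        = ∑ y, ker C q h g x y - ∑ y, ker C q h g x y * u y := by
      rw [← sum_sub_distrib]
      exact sum_congr rfl fun y _ => by ring
    rw [e1]
    linarith [hu x, hrow x]
  refine ⟨h0, fun x => by linarith [h1' x], ?_⟩
  -- notation
  set k : S → ℝ := fun x => ∑ y, ker C q h g x y with hk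
  -- sum w K u = sum w k u
  have s1 : ∑ x, C.w x * (∑ y, ker C q h g x y * u y) = ∑ x, C.w x * (k x * u x) := by
    have e1 : ∑ x, C.w x * (∑ y, ker C q h g x y * u y)
        = ∑ x, ∑ y, C.w x * ker C q h g x y * (fun (_ : S) (b : S) => u b) x y := by
      refine sum_congr rfl fun x _ => ?_
      rw [mul_sum]
      exact sum_congr rfl fun y _ => by ring
    rw [e1, d22_swap C q h g hgs]
    refine sum_congr rfl fun x _ => ?_
    rw [hk]
    simp only
    rw [sum_mul, mul_sum]
    exact sum_congr rfl fun y _ => by ring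
  have s2 : ∑ x, C.w x * ((1 - q) - u x * (1 - k x)) = 0 := by
    have e1 : ∑ x, C.w x * ((1 - q) - u x * (1 - k x))
        = ∑ x, C.w x * ((1 - q) - u x) + ∑ x, C.w x * (k x * u x) := by
      rw [← sum_add_distrib]
      exact sum_congr rfl fun x _ => by ring
    rw [e1, ← s1, ← sum_add_distrib]
    apply sum_eq_zero
    intro x _
    have := hu x
    have e2 : C.w x * ((1 - q) - u x) + C.w x * (∑ y, ker C q h g x y * u y)
        = C.w x * ((1 - q) + (∑ y, ker C q h g x y * u y) - u x) := by ring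
    rw [e2, ← this, sub_self, mul_zero]
  -- the energy
  have s3 : ∑ x, ∑ y, C.w x * ker C q h g x y * (u x - u y) ^ 2
      = 2 * ∑ x, C.w x * (u x * ((1 - q) - u x * (1 - k x))) := by
    have e1 : ∑ x, ∑ y, C.w x * ker C q h g x y * (u x - u y) ^ 2
        = ∑ x, ∑ y, C.w x * ker C q h g x y * (u x) ^ 2
          + ∑ x, ∑ y, C.w x * ker C q h g x y * (u y) ^ 2
          - 2 * ∑ x, ∑ y, C.w x * ker C q h g x y * (u x * u y) := by
      rw [mul_sum, ← sum_add_distrib, ← sum_sub_distrib]
      refine sum_congr rfl fun x _ => ?_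
      rw [mul_sum, ← sum_add_distrib, ← sum_sub_distrib]
      exact sum_congr rfl fun y _ => by ring
    have e2 : ∑ x, ∑ y, C.w x * ker C q h g x y * (u y) ^ 2
        = ∑ x, ∑ y, C.w x * ker C q h g x y * (u x) ^ 2 :=
      d22_swap C q h g hgs (fun _ b => (u b) ^ 2)
    have e3 : ∑ x, ∑ y, C.w x * ker C q h g x y * (u x) ^ 2
        = ∑ x, C.w x * (k x * (u x) ^ 2) := by
      refine sum_congr rfl fun x _ => ?_
      rw [hk]
      simp only
      rw [sum_mul, mul_sum]
      exact sum_congr rfl fun y _ => by ring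
    have e4 : ∑ x, ∑ y, C.w x * ker C q h g x y * (u x * u y)
        = ∑ x, C.w x * (u x * (u x - (1 - q))) := by
      refine sum_congr rfl fun x _ => ?_
      have : u x - (1 - q) = ∑ y, ker C q h g x y * u y := by linarith [hu x]
      rw [this, mul_sum, mul_sum]
      exact sum_congr rfl fun y _ => by ring
    rw [e1, e2, e3, e4, mul_sum, mul_sum, ← sum_add_distrib, ← sum_sub_distrib]
    exact sum_congr rfl fun x _ => by ring
  have s4 : ∑ x, C.w x * (u x * ((1 - q) - u x * (1 - k x)))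
      = ∑ x, C.w x * ((1 - u x) * (u x * (1 - k x) - (1 - q))) := by
    have e1 : ∑ x, C.w x * ((1 - u x) * (u x * (1 - k x) - (1 - q)))
        = ∑ x, C.w x * (u x * ((1 - q) - u x * (1 - k x)))
          - ∑ x, C.w x * ((1 - q) - u x * (1 - k x)) := by
      rw [← sum_sub_distrib]
      exact sum_congr rfl fun x _ => by ring
    rw [e1, s2, sub_zero]
  have s5 : ∑ x, C.w x * ((1 - u x) * (u x * (1 - k x) - (1 - q))) ≤ rho C g / h := by
    have e1 : rho C g / h = ∑ x, C.w x * ((∑ y, C.P x y * g x y) / h) := by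
      unfold rho
      rw [sum_div]
      refine sum_congr rfl fun x _ => ?_
      rw [mul_div_assoc', mul_sum]
      congr 1
      exact sum_congr rfl fun y _ => by ring
    rw [e1]
    refine sum_le_sum fun x _ => ?_
    apply mul_le_mul_of_nonneg_left _ (C.w_nonneg x)
    have f0 := h0 x
    have f1 := h1' x
    have f2 : k x ≤ q := hrow x
    have f3 : q - q * ((∑ y, C.P x y * g x y) / h) ≤ k x := ub13_row_ge C hq0.le hh g x
    have f4 : 0 ≤ (∑ y, C.P x y * g x y) / h :=
      div_nonneg (sum_nonneg fun y _ => mul_nonneg (C.P_nonneg x y) (hg0 x y)) hpos.le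
    set γ := (∑ y, C.P x y * g x y) / h
    have f5 : u x * (1 - k x) - (1 - q) ≤ γ := by
      have g1 : u x * (1 - k x) ≤ 1 * (1 - k x) :=
        mul_le_mul_of_nonneg_right (by linarith) (by linarith)
      have g2 : q * γ ≤ 1 * γ := mul_le_mul_of_nonneg_right hq1.le f4
      linarith
    calc (1 - u x) * (u x * (1 - k x) - (1 - q)) ≤ (1 - u x) * γ :=
          mul_le_mul_of_nonneg_left f5 f1
      _ ≤ 1 * γ := mul_le_mul_of_nonneg_right (by linarith) f4
      _ = γ := one_mul _
  rw [s3, s4]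
  have e9 : 2 * rho C g / h = 2 * (rho C g / h) := by ring
  rw [e9]
  linarith

end P125S
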