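import Vale.Agent.P125S.R1
import Vale.Agent.P125S.Ab16
import Vale.Agent.P125S.RB8
import Vale.Agent.P125S.R2
import Vale.Agent.P125S.R3d22
import Vale.Agent.P125S.Ub13

/-! R3: the core estimate -/

namespace P125S
open Finset
variable {S : Type} [Fintype S]

/-- a priori bounds: `0 ≤ u ≤ 1`, Dirichlet energy of `u` -/
theorem u_bounds (C : Chain S) (q : ℝ) (hq0 : 0 < q) (hq1 : q < 1) (h : ℝ) (hh : 1 ≤ h)
    (g : S → S → ℝ) (hg0 : ∀ x y, 0 ≤ g x y) (hg1 : ∀ x y, g x y ≤ 1)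
    (hgs : ∀ x y, g x y = g y x) (u : S → ℝ)
    (hu : ∀ x, u x = (1 - q) + ∑ y, ker C q h g x y * u y) :
    (∀ x, 0 ≤ u x) ∧ (∀ x, u x ≤ 1) ∧
    ∑ x, ∑ y, C.w x * ker C q h g x y * (u x - u y) ^ 2 ≤ 2 * rho C g / h :=
  ub13 C q hq0 hq1 h hh g hg0 hgs u hu

/-- resolvent of the total traffic is at most `2 h` -/
theorem r_bound (C : Chain S) (q : ℝ) (hq0 : 0 < q) (hq1 : q < 1) (h : ℝ) (hh : 1 ≤ h)
    (g : S → S → ℝ) (hg0 : ∀ x y, 0 ≤ g x y) (hg1 : ∀ x y, g x y ≤ 1) (B : ℝ) (hB : 0 ≤ B)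
    (r φ : S → ℝ) (hφ : ∀ x, φ x ≤ B * ∑ y, C.P x y * g x y)
    (hr : ∀ x, r x = ∑ y, ker C q h g x y * r y + φ x) : ∀ x, r x ≤ 2 * h * B := by
  exact rb8_r_bound C q hq0 hq1 h hh g hg0 hg1 B hB r φ hφ hr

/-- Abel summation: a sum against prefix sums, `s = 0` or `s = 1` -/
theorem abel_bound (n s : ℕ) (hs : s ≤ 1) (v d : ℕ → ℝ) :
    ∃ j : ℕ, |∑ c ∈ range n, cum v (c + s) * d c| ≤ tv n v * |∑ c ∈ Ico j n, d c| :=
  abel_bound16 n s hs v d

/-- duality identity: the second moment term expressed through `lam` -/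
theorem duality (C : Chain S) (q : ℝ) (h : ℝ) (g : S → S → ℝ)
    (hgs : ∀ x y, g x y = g y x) (G : S → S → ℕ → ℝ) (hG : ∀ x y c, G y x c = -G x y c)
    (u : S → ℝ) (a b : ℕ → S → ℝ) (hsys : Sys C q h g G u a b) (k : ℕ)
    (κ r lam : S → ℝ) (hr : ∀ x, r x = ∑ y, ker C q h g x y * r y + κ x)
    (hlam : ∀ x, lam x = ∑ y, ker C q h g x y * lam y +
      ∑ y, ker C q h g x y * (-(cum (G x y) k)) * r y) :
    ∑ x, C.w x * κ x * b k x =
      ∑ x, ∑ y, C.w x * ker C q h g x y * (cum (G x y) k) ^ 2 * r x * u y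
      + ∑ x, ∑ y, C.w x * ker C q h g x y * cum (G x y) k *
          (((lam x - lam y) * (u x + u y) - (lam x + lam y) * (u x - u y)) / 2) :=
  dualityA C q h g hgs G hG u a b hsys k κ r lam hr hlam

theorem c14_cum_le (n : ℕ) (v : ℕ → ℝ) (k : ℕ) (hk : k ≤ n) : |cum v k| ≤ tv n v := by
  unfold cum tv
  refine (abs_sum_le_sum_abs _ _).trans ?_
  exact sum_le_sum_of_subset_of_nonneg (range_subset_range.2 hk) (fun _ _ _ => abs_nonneg _)

theorem c14_tv_nonneg (n : ℕ) (v : ℕ → ℝ) : 0 ≤ tv n v :=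
  sum_nonneg (fun _ _ => abs_nonneg _)

theorem c14_ker_nonneg (C : Chain S) {q h : ℝ} (hq : 0 ≤ q) (g : S → S → ℝ) (x y : S) :
    0 ≤ ker C q h g x y := by
  unfold ker
  exact mul_nonneg (mul_nonneg hq (C.P_nonneg x y)) (Real.exp_nonneg _)

theorem c14_ker_le (C : Chain S) {q h : ℝ} (hq0 : 0 ≤ q) (hh : 0 ≤ h) (g : S → S → ℝ)
    (hg : ∀ x y, 0 ≤ g x y) (x y : S) :
    ker C q h g x y ≤ q * C.P x y := by
  unfold ker
  have h1 : Real.exp (-(g x y) / h) ≤ 1 := by
    rw [Real.exp_le_one_iff]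
    exact div_nonpos_of_nonpos_of_nonneg (neg_nonpos.2 (hg x y)) hh
  have h2 : 0 ≤ q * C.P x y := mul_nonneg hq0 (C.P_nonneg x y)
  nlinarith

theorem c14_ker_row (C : Chain S) {q h : ℝ} (hq0 : 0 ≤ q) (hh : 0 ≤ h) (g : S → S → ℝ)
    (hg : ∀ x y, 0 ≤ g x y) (x : S) : ∑ y, ker C q h g x y ≤ q := by
  calc ∑ y, ker C q h g x y ≤ ∑ y, q * C.P x y :=
        sum_le_sum (fun y _ => c14_ker_le C hq0 hh g hg x y)
    _ = q := by rw [← mul_sum, C.P_sum, mul_one]

theorem c14_ker_sym (C : Chain S) {q h : ℝ} (g : S → S → ℝ) (hgs : ∀ x y, g x y = g y x)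
    (x y : S) : C.w x * ker C q h g x y = C.w y * ker C q h g y x := by
  unfold ker
  rw [hgs x y]
  have := C.rev x y
  calc C.w x * (q * C.P x y * Real.exp (-(g y x) / h))
      = (C.w x * C.P x y) * (q * Real.exp (-(g y x) / h)) := by ring
    _ = (C.w y * C.P y x) * (q * Real.exp (-(g y x) / h)) := by rw [this]
    _ = C.w y * (q * C.P y x * Real.exp (-(g y x) / h)) := by ring

theorem c14_cubic {g z d : ℝ} (hg0 : 0 ≤ g) (hg1 : g ≤ 1) (hz : 0 ≤ z) (hd : 0 < d) :
    g * z ≤ d * g + z ^ 3 / d ^ 2 := by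
  by_cases h : z ≤ d
  · have h1 : 0 ≤ z ^ 3 / d ^ 2 := by positivity
    nlinarith
  · push Not at h
    have h1 : z ≤ z ^ 3 / d ^ 2 := by
      rw [le_div_iff₀ (by positivity)]
      have : d ^ 2 ≤ z ^ 2 := by nlinarith
      nlinarith
    nlinarith [mul_nonneg hd.le hg0]

theorem c14_quad {g t e : ℝ} (hg0 : 0 ≤ g) (hg1 : g ≤ 1) (he : 0 < e) :
    g * |t| ≤ e * g + t ^ 2 / e := by
  have ht := abs_nonneg t
  have hsq : t ^ 2 = |t| ^ 2 := (sq_abs t).symm
  rw [hsq]
  by_cases h : |t| ≤ e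
  · have h1 : 0 ≤ |t| ^ 2 / e := by positivity
    nlinarith
  · push Not at h
    have h1 : |t| ≤ |t| ^ 2 / e := by
      rw [le_div_iff₀ he]
      nlinarith
    nlinarith [mul_nonneg he.le hg0]

theorem c14_kap_sum (C : Chain S) (G : S → S → ℕ → ℝ) (n : ℕ) (x : S) :
    ∑ c ∈ range n, kap C G c x = ∑ y, C.P x y * tv n (G x y) := by
  unfold kap tv
  rw [sum_comm]
  apply sum_congr rfl
  intro y _
  rw [mul_sum]

theorem c14_rho (C : Chain S) (g : S → S → ℝ) :
    rho C g = ∑ x, C.w x * ∑ y, C.P x y * g x y := by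
  unfold rho
  apply sum_congr rfl
  intro x _
  rw [mul_sum]
  apply sum_congr rfl
  intro y _
  ring

/-- CORE: second moment against the traffic, `s = 0` or `s = 1` -/
theorem core (C : Chain S) (q : ℝ) (hq0 : 0 < q) (hq1 : q < 1) (l : ℕ)
    (n : ℕ) (G : S → S → ℕ → ℝ) (hG : ∀ x y c, G y x c = -G x y c)
    (hg1 : ∀ x y, tv n (G x y) ≤ 1)
    (u : S → ℝ) (a b : ℕ → S → ℝ)
    (hsys : Sys C q (8 ^ l) (fun x y => tv n (G x y)) G u a b) (s : ℕ) (hs : s ≤ 1) :
    ∑ c ∈ range n, ∑ x, C.w x * kap C G c x * b (c + s) x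
      ≤ 1000 * 32 ^ l * rho C (fun x y => tv n (G x y)) := by
  set g : S → S → ℝ := fun x y => tv n (G x y) with hgdef
  have hg0 : ∀ x y, 0 ≤ g x y := fun x y => c14_tv_nonneg n _
  have hgs : ∀ x y, g x y = g y x := by
    intro x y
    simp only [hgdef]
    unfold tv
    apply sum_congr rfl
    intro c _
    rw [hG x y c, abs_neg]
  -- the scale
  obtain ⟨t, ht⟩ : ∃ t : ℝ, t = 2 ^ l := ⟨_, rfl⟩
  have ht1 : 1 ≤ t := by rw [ht]; exact one_le_pow₀ (by norm_num)
  have h8 : (8 : ℝ) ^ l = t ^ 3 := by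
    rw [ht, ← pow_mul, mul_comm, pow_mul]; norm_num
  have h32 : (32 : ℝ) ^ l = t ^ 5 := by
    rw [ht, ← pow_mul, mul_comm, pow_mul]; norm_num
  rw [h8] at hsys
  rw [h32]
  have ht0 : 0 < t := by linarith
  have hh : (1 : ℝ) ≤ t ^ 3 := one_le_pow₀ ht1
  have hh0 : (0 : ℝ) ≤ t ^ 3 := by positivity
  obtain ⟨hu0, hu1, huE⟩ := u_bounds C q hq0 hq1 (t ^ 3) hh g hg0 hg1 hgs u hsys.hu
  obtain ⟨M, hMdef⟩ : ∃ M : S → S → ℝ, M = ker C q (t ^ 3) g := ⟨_, rfl⟩
  have hM0 : ∀ x y, 0 ≤ M x y := by rw [hMdef]; exact fun x y => c14_ker_nonneg C hq0.le g x y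
  have hMq : ∀ x y, M x y ≤ C.P x y := by
    intro x y
    rw [hMdef]
    refine (c14_ker_le C hq0.le hh0 g hg0 x y).trans ?_
    have := C.P_nonneg x y
    nlinarith
  have hrow : ∀ x, ∑ y, M x y ≤ q := by
    rw [hMdef]; exact fun x => c14_ker_row C hq0.le hh0 g hg0 x
  have hrow1 : ∀ x, ∑ y, M x y ≤ 1 := fun x => (hrow x).trans hq1.le
  have hsym : ∀ x y, C.w x * M x y = C.w y * M y x := by
    rw [hMdef]; exact fun x y => c14_ker_sym C g hgs x y
  -- resolvents
  choose r hr using (fun c : ℕ => res_exists M hM0 q hq1 hrow (kap C G c))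
  have hkap0 : ∀ c x, 0 ≤ kap C G c x := fun c x =>
    sum_nonneg (fun y _ => mul_nonneg (C.P_nonneg x y) (abs_nonneg _))
  have hr0 : ∀ c x, 0 ≤ r c x := fun c =>
    maxp M hM0 q hq1 hrow (r c) (fun x => by rw [hr c x]; linarith [hkap0 c x])
  obtain ⟨φ, hφ⟩ : ∃ φ : ℕ → S → ℝ, ∀ c x,
      φ c x = ∑ y, M x y * (-(cum (G x y) (c + s))) * r c y := ⟨_, fun _ _ => rfl⟩
  choose lp hlp using (fun c : ℕ => res_exists M hM0 q hq1 hrow (fun x => max (φ c x) 0))
  choose lm hlm using (fun c : ℕ => res_exists M hM0 q hq1 hrow (fun x => max (-φ c x) 0))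
  have hlp0 : ∀ c x, 0 ≤ lp c x := fun c =>
    maxp M hM0 q hq1 hrow (lp c) (fun x => by
      rw [hlp c x]; linarith [le_max_right (φ c x) 0])
  have hlm0 : ∀ c x, 0 ≤ lm c x := fun c =>
    maxp M hM0 q hq1 hrow (lm c) (fun x => by
      rw [hlm c x]; linarith [le_max_right (-φ c x) 0])
  -- total traffic
  obtain ⟨κ, hκ⟩ : ∃ κ : S → ℝ, ∀ x, κ x = ∑ y, C.P x y * g x y := ⟨_, fun _ => rfl⟩
  have hκρ : ∑ x, C.w x * κ x = rho C g := by
    rw [c14_rho]
    exact sum_congr rfl (fun x _ => by rw [hκ x])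
  have hrsum : ∀ x, ∑ c ∈ range n, r c x ≤ 2 * t ^ 3 * 1 := by
    refine r_bound C q hq0 hq1 (t ^ 3) hh g hg0 hg1 1 (by norm_num) (fun x => ∑ c ∈ range n, r c x)
      (fun x => ∑ c ∈ range n, kap C G c x) ?_ ?_
    · intro x
      show ∑ c ∈ range n, kap C G c x ≤ 1 * ∑ y, C.P x y * g x y
      rw [c14_kap_sum, one_mul]
    · intro x
      show ∑ c ∈ range n, r c x = ∑ y, ker C q (t ^ 3) g x y * ∑ c ∈ range n, r c y
        + ∑ c ∈ range n, kap C G c x
      rw [← hMdef]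
      simp_rw [mul_sum]
      rw [sum_comm, ← sum_add_distrib]
      exact sum_congr rfl (fun c _ => hr c x)
  have hcum : ∀ c ∈ range n, ∀ x y, |cum (G x y) (c + s)| ≤ g x y := by
    intro c hc x y
    exact c14_cum_le n _ _ (by have := mem_range.1 hc; omega)
  have hφsum : ∀ x, ∑ c ∈ range n, |φ c x| ≤ 2 * t ^ 3 * κ x := by
    intro x
    calc ∑ c ∈ range n, |φ c x| ≤ ∑ c ∈ range n, ∑ y, M x y * g x y * r c y := by
          apply sum_le_sum
          intro c hc
          rw [hφ c x]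
          refine (abs_sum_le_sum_abs _ _).trans (sum_le_sum ?_)
          intro y _
          rw [abs_mul, abs_mul, abs_neg, abs_of_nonneg (hM0 x y), abs_of_nonneg (hr0 c y)]
          exact mul_le_mul_of_nonneg_right
            (mul_le_mul_of_nonneg_left (hcum c hc x y) (hM0 x y)) (hr0 c y)
      _ = ∑ y, M x y * g x y * ∑ c ∈ range n, r c y := by
          rw [sum_comm]
          exact sum_congr rfl (fun y _ => (mul_sum _ _ _).symm)
      _ ≤ ∑ y, C.P x y * g x y * (2 * t ^ 3) := by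
          apply sum_le_sum
          intro y _
          have h1 := hrsum y
          rw [mul_one] at h1
          have h2 : M x y * g x y ≤ C.P x y * g x y :=
            mul_le_mul_of_nonneg_right (hMq x y) (hg0 x y)
          have h3 : 0 ≤ M x y * g x y := mul_nonneg (hM0 x y) (hg0 x y)
          calc M x y * g x y * ∑ c ∈ range n, r c y ≤ M x y * g x y * (2 * t ^ 3) :=
                mul_le_mul_of_nonneg_left h1 h3
            _ ≤ C.P x y * g x y * (2 * t ^ 3) :=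
                mul_le_mul_of_nonneg_right h2 (by positivity)
      _ = 2 * t ^ 3 * κ x := by
          rw [hκ x, mul_sum]
          exact sum_congr rfl (fun y _ => by ring)
  have hpsum : ∀ x, ∑ c ∈ range n, max (φ c x) 0 ≤ 2 * t ^ 3 * κ x := fun x =>
    (sum_le_sum (fun c _ => max_le (le_abs_self _) (abs_nonneg _))).trans (hφsum x)
  have hmsum : ∀ x, ∑ c ∈ range n, max (-φ c x) 0 ≤ 2 * t ^ 3 * κ x := fun x =>
    (sum_le_sum (fun c _ => max_le (neg_le_abs _) (abs_nonneg _))).trans (hφsum x)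
  have hgen : ∀ (lam ψ : ℕ → S → ℝ), (∀ c x, lam c x = ∑ y, M x y * lam c y + ψ c x) →
      (∀ x, ∑ c ∈ range n, ψ c x ≤ 2 * t ^ 3 * κ x) →
      ∀ x, ∑ c ∈ range n, lam c x ≤ 4 * t ^ 6 := by
    intro lam ψ h1 h2
    have h3 := r_bound C q hq0 hq1 (t ^ 3) hh g hg0 hg1 (2 * t ^ 3) (by positivity)
      (fun x => ∑ c ∈ range n, lam c x) (fun x => ∑ c ∈ range n, ψ c x)
      (fun x => by
        show ∑ c ∈ range n, ψ c x ≤ 2 * t ^ 3 * ∑ y, C.P x y * g x y
        rw [← hκ x]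
        exact h2 x)
      (fun x => by
        show ∑ c ∈ range n, lam c x = ∑ y, ker C q (t ^ 3) g x y * ∑ c ∈ range n, lam c y
          + ∑ c ∈ range n, ψ c x
        rw [← hMdef]
        simp_rw [mul_sum]
        rw [sum_comm, ← sum_add_distrib]
        exact sum_congr rfl (fun c _ => h1 c x))
    intro x
    refine (h3 x).trans (le_of_eq ?_)
    ring
  have hlpL := hgen lp _ hlp hpsum
  have hlmL := hgen lm _ hlm hmsum
  -- the cuts
  have hjp : ∀ x y, ∃ j : ℕ, |∑ c ∈ range n, cum (G x y) (c + s) * (lp c x - lp c y)|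
      ≤ tv n (G x y) * |∑ c ∈ Ico j n, (lp c x - lp c y)| := fun x y =>
    abel_bound n s hs (G x y) (fun c => lp c x - lp c y)
  have hjm : ∀ x y, ∃ j : ℕ, |∑ c ∈ range n, cum (G x y) (c + s) * (lm c x - lm c y)|
      ≤ tv n (G x y) * |∑ c ∈ Ico j n, (lm c x - lm c y)| := fun x y =>
    abel_bound n s hs (G x y) (fun c => lm c x - lm c y)
  choose jp hjp using hjp
  choose jm hjm using hjm
  have hEp := energy C.w M C.w_nonneg hM0 hsym hrow1 n lp (fun c x => max (φ c x) 0) hlp0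
    (fun c x => le_max_right _ _) hlp (2 * t ^ 3) (4 * t ^ 6) (by positivity) κ hpsum hlpL jp
  have hEm := energy C.w M C.w_nonneg hM0 hsym hrow1 n lm (fun c x => max (-φ c x) 0) hlm0
    (fun c x => le_max_right _ _) hlm (2 * t ^ 3) (4 * t ^ 6) (by positivity) κ hmsum hlmL jm
  rw [hκρ] at hEp hEm
  rw [← hMdef] at huE
  -- duality
  have hdual : ∀ c, ∑ x, C.w x * kap C G c x * b (c + s) x =
      ∑ x, ∑ y, C.w x * M x y * (cum (G x y) (c + s)) ^ 2 * r c x * u y
      + ∑ x, ∑ y, C.w x * M x y * cum (G x y) (c + s) *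
          ((((lp c x - lm c x) - (lp c y - lm c y)) * (u x + u y)
            - ((lp c x - lm c x) + (lp c y - lm c y)) * (u x - u y)) / 2) := by
    intro c
    have h1 := duality C q (t ^ 3) g hgs G hG u a b hsys (c + s) (kap C G c) (r c)
      (fun x => lp c x - lm c x)
      (by rw [← hMdef]; exact hr c)
      (by
        rw [← hMdef]
        intro x
        have e1 := hlp c x
        have e2 := hlm c x
        have e3 : max (φ c x) 0 - max (-φ c x) 0 = φ c x := by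
          rcases le_total 0 (φ c x) with h | h
          · rw [max_eq_left h, max_eq_right (by linarith)]; ring
          · rw [max_eq_right h, max_eq_left (by linarith)]; ring
        rw [← hφ c x]
        simp_rw [mul_sub]
        rw [sum_sub_distrib]
        linarith)
    rw [← hMdef] at h1
    exact h1
  -- pointwise bound
  have hpt : ∀ x y,
      ∑ c ∈ range n, (C.w x * M x y * (cum (G x y) (c + s)) ^ 2 * r c x * u y
        + C.w x * M x y * cum (G x y) (c + s) *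
          ((((lp c x - lm c x) - (lp c y - lm c y)) * (u x + u y)
            - ((lp c x - lm c x) + (lp c y - lm c y)) * (u x - u y)) / 2))
      ≤ (2 * t ^ 3 + 2 * t ^ 5 + 8 * t ^ 5) * (C.w x * C.P x y * g x y)
        + (C.w x * M x y * |∑ c ∈ Ico (jp x y) n, lp c x - ∑ c ∈ Ico (jp x y) n, lp c y| ^ 3)
            / (t ^ 5) ^ 2
        + (C.w x * M x y * |∑ c ∈ Ico (jm x y) n, lm c x - ∑ c ∈ Ico (jm x y) n, lm c y| ^ 3)
            / (t ^ 5) ^ 2
        + 8 * t ^ 7 * (C.w x * M x y * (u x - u y) ^ 2) := by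
    intro x y
    have hW : 0 ≤ C.w x * M x y := mul_nonneg (C.w_nonneg x) (hM0 x y)
    have hWP : C.w x * M x y * g x y ≤ C.w x * C.P x y * g x y :=
      mul_le_mul_of_nonneg_right (mul_le_mul_of_nonneg_left (hMq x y) (C.w_nonneg x)) (hg0 x y)
    have hg0' := hg0 x y
    have hg1' : g x y ≤ 1 := hg1 x y
    -- the four sums
    have s1 : ∑ c ∈ range n, (cum (G x y) (c + s)) ^ 2 * r c x ≤ 2 * t ^ 3 * g x y := by
      calc ∑ c ∈ range n, (cum (G x y) (c + s)) ^ 2 * r c x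
          ≤ ∑ c ∈ range n, g x y * r c x := by
            apply sum_le_sum
            intro c hc
            apply mul_le_mul_of_nonneg_right _ (hr0 c x)
            have h1 := hcum c hc x y
            have h2 := abs_nonneg (cum (G x y) (c + s))
            rw [← sq_abs]
            nlinarith
        _ = g x y * ∑ c ∈ range n, r c x := (mul_sum _ _ _).symm
        _ ≤ g x y * (2 * t ^ 3) := by
            have h1 := hrsum x
            rw [mul_one] at h1
            exact mul_le_mul_of_nonneg_left h1 hg0'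
        _ = 2 * t ^ 3 * g x y := by ring
    have s2p : |∑ c ∈ range n, cum (G x y) (c + s) * (lp c x - lp c y)|
        ≤ g x y * |∑ c ∈ Ico (jp x y) n, lp c x - ∑ c ∈ Ico (jp x y) n, lp c y| := by
      have := hjp x y
      rw [sum_sub_distrib] at this
      exact this
    have s2m : |∑ c ∈ range n, cum (G x y) (c + s) * (lm c x - lm c y)|
        ≤ g x y * |∑ c ∈ Ico (jm x y) n, lm c x - ∑ c ∈ Ico (jm x y) n, lm c y| := by
      have := hjm x y
      rw [sum_sub_distrib] at this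
      exact this
    have s3 : |∑ c ∈ range n, cum (G x y) (c + s) *
        ((lp c x - lm c x) + (lp c y - lm c y))| ≤ 16 * t ^ 6 * g x y := by
      calc |∑ c ∈ range n, cum (G x y) (c + s) * ((lp c x - lm c x) + (lp c y - lm c y))|
          ≤ ∑ c ∈ range n, g x y * (lp c x + lm c x + (lp c y + lm c y)) := by
            refine (abs_sum_le_sum_abs _ _).trans (sum_le_sum ?_)
            intro c hc
            rw [abs_mul]
            apply mul_le_mul (hcum c hc x y) _ (abs_nonneg _) hg0'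
            have h1 := hlp0 c x
            have h2 := hlm0 c x
            have h3 := hlp0 c y
            have h4 := hlm0 c y
            rw [abs_le]
            constructor <;> linarith
        _ = g x y * (∑ c ∈ range n, lp c x + ∑ c ∈ range n, lm c x
              + (∑ c ∈ range n, lp c y + ∑ c ∈ range n, lm c y)) := by
            rw [← mul_sum, sum_add_distrib, sum_add_distrib, sum_add_distrib]
        _ ≤ g x y * (16 * t ^ 6) := by
            apply mul_le_mul_of_nonneg_left _ hg0'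
            linarith [hlpL x, hlmL x, hlpL y, hlmL y]
        _ = 16 * t ^ 6 * g x y := by ring
    have hsplit : ∑ c ∈ range n, (C.w x * M x y * (cum (G x y) (c + s)) ^ 2 * r c x * u y
        + C.w x * M x y * cum (G x y) (c + s) *
          ((((lp c x - lm c x) - (lp c y - lm c y)) * (u x + u y)
            - ((lp c x - lm c x) + (lp c y - lm c y)) * (u x - u y)) / 2))
        = C.w x * M x y * ((∑ c ∈ range n, (cum (G x y) (c + s)) ^ 2 * r c x) * u y
          + (∑ c ∈ range n, cum (G x y) (c + s) * (lp c x - lp c y)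
            - ∑ c ∈ range n, cum (G x y) (c + s) * (lm c x - lm c y)) * (u x + u y) / 2
          - (∑ c ∈ range n, cum (G x y) (c + s) * ((lp c x - lm c x) + (lp c y - lm c y)))
            * (u x - u y) / 2) := by
      rw [← sum_sub_distrib, sum_mul, sum_mul, sum_mul, sum_div, sum_div, ← sum_add_distrib,
        ← sum_sub_distrib, mul_sum]
      apply sum_congr rfl
      intro c _
      ring
    rw [hsplit]
    obtain ⟨A1, hA1⟩ : ∃ A1, A1 = ∑ c ∈ range n, (cum (G x y) (c + s)) ^ 2 * r c x := ⟨_, rfl⟩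
    obtain ⟨A2, hA2⟩ : ∃ A2, A2 = ∑ c ∈ range n, cum (G x y) (c + s) * (lp c x - lp c y) :=
      ⟨_, rfl⟩
    obtain ⟨A3, hA3⟩ : ∃ A3, A3 = ∑ c ∈ range n, cum (G x y) (c + s) * (lm c x - lm c y) :=
      ⟨_, rfl⟩
    obtain ⟨A4, hA4⟩ : ∃ A4, A4 = ∑ c ∈ range n, cum (G x y) (c + s) *
        ((lp c x - lm c x) + (lp c y - lm c y)) := ⟨_, rfl⟩
    obtain ⟨zp, hzp⟩ : ∃ zp, zp = |∑ c ∈ Ico (jp x y) n, lp c x
      - ∑ c ∈ Ico (jp x y) n, lp c y| := ⟨_, rfl⟩
    obtain ⟨zm, hzm⟩ : ∃ zm, zm = |∑ c ∈ Ico (jm x y) n, lm c x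
      - ∑ c ∈ Ico (jm x y) n, lm c y| := ⟨_, rfl⟩
    rw [← hA1, ← hA2, ← hA3, ← hA4, ← hzp, ← hzm]
    rw [← hA1] at s1
    rw [← hA2, ← hzp] at s2p
    rw [← hA3, ← hzm] at s2m
    rw [← hA4] at s3
    have hzp0 : 0 ≤ zp := by rw [hzp]; exact abs_nonneg _
    have hzm0 : 0 ≤ zm := by rw [hzm]; exact abs_nonneg _
    have hA10 : 0 ≤ A1 := by
      rw [hA1]
      exact sum_nonneg (fun c _ => mul_nonneg (sq_nonneg _) (hr0 c x))
    have ux0 := hu0 x
    have ux1 := hu1 x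
    have uy0 := hu0 y
    have uy1 := hu1 y
    have b1 : A1 * u y ≤ 2 * t ^ 3 * g x y := by nlinarith
    have b2 : (A2 - A3) * (u x + u y) / 2 ≤ |A2| + |A3| := by
      have h1 : A2 - A3 ≤ |A2| + |A3| := by
        linarith [le_abs_self A2, neg_le_abs A3]
      have h2 : 0 ≤ |A2| + |A3| := by positivity
      have h3 : (A2 - A3) * (u x + u y) ≤ (|A2| + |A3|) * (u x + u y) :=
        mul_le_mul_of_nonneg_right h1 (by linarith)
      have h4 : (|A2| + |A3|) * (u x + u y) ≤ (|A2| + |A3|) * 2 :=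
        mul_le_mul_of_nonneg_left (by linarith) h2
      linarith
    have b3 : -(A4 * (u x - u y) / 2) ≤ 8 * t ^ 6 * (g x y * |u x - u y|) := by
      have h1 : -(A4 * (u x - u y)) ≤ |A4| * |u x - u y| := by
        rw [← abs_mul]
        exact neg_le_abs _
      have h2 : |A4| * |u x - u y| ≤ 16 * t ^ 6 * g x y * |u x - u y| :=
        mul_le_mul_of_nonneg_right s3 (abs_nonneg _)
      linarith
    have b4 := c14_cubic (g := g x y) (z := zp) (d := t ^ 5) hg0' hg1' hzp0 (by positivity)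
    have b5 := c14_cubic (g := g x y) (z := zm) (d := t ^ 5) hg0' hg1' hzm0 (by positivity)
    have b6 := c14_quad (g := g x y) (t := u x - u y) (e := 1 / t) hg0' hg1' (by positivity)
    have b7 : 8 * t ^ 6 * (g x y * |u x - u y|)
        ≤ 8 * t ^ 5 * g x y + 8 * t ^ 7 * (u x - u y) ^ 2 := by
      calc 8 * t ^ 6 * (g x y * |u x - u y|)
          ≤ 8 * t ^ 6 * (1 / t * g x y + (u x - u y) ^ 2 / (1 / t)) :=
            mul_le_mul_of_nonneg_left b6 (by positivity)
        _ = 8 * t ^ 5 * g x y + 8 * t ^ 7 * (u x - u y) ^ 2 := by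
            field_simp
    have b8 : A1 * u y + (A2 - A3) * (u x + u y) / 2 - A4 * (u x - u y) / 2
        ≤ (2 * t ^ 3 + 2 * t ^ 5 + 8 * t ^ 5) * g x y + zp ^ 3 / (t ^ 5) ^ 2
          + zm ^ 3 / (t ^ 5) ^ 2 + 8 * t ^ 7 * (u x - u y) ^ 2 := by
      linarith
    calc C.w x * M x y * (A1 * u y + (A2 - A3) * (u x + u y) / 2 - A4 * (u x - u y) / 2)
        ≤ C.w x * M x y * ((2 * t ^ 3 + 2 * t ^ 5 + 8 * t ^ 5) * g x y + zp ^ 3 / (t ^ 5) ^ 2
          + zm ^ 3 / (t ^ 5) ^ 2 + 8 * t ^ 7 * (u x - u y) ^ 2) :=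
          mul_le_mul_of_nonneg_left b8 hW
      _ = (2 * t ^ 3 + 2 * t ^ 5 + 8 * t ^ 5) * (C.w x * M x y * g x y)
          + C.w x * M x y * zp ^ 3 / (t ^ 5) ^ 2 + C.w x * M x y * zm ^ 3 / (t ^ 5) ^ 2
          + 8 * t ^ 7 * (C.w x * M x y * (u x - u y) ^ 2) := by ring
      _ ≤ (2 * t ^ 3 + 2 * t ^ 5 + 8 * t ^ 5) * (C.w x * C.P x y * g x y)
          + C.w x * M x y * zp ^ 3 / (t ^ 5) ^ 2 + C.w x * M x y * zm ^ 3 / (t ^ 5) ^ 2
          + 8 * t ^ 7 * (C.w x * M x y * (u x - u y) ^ 2) := by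
          have h1 : (2 * t ^ 3 + 2 * t ^ 5 + 8 * t ^ 5) * (C.w x * M x y * g x y)
              ≤ (2 * t ^ 3 + 2 * t ^ 5 + 8 * t ^ 5) * (C.w x * C.P x y * g x y) :=
            mul_le_mul_of_nonneg_left hWP (by positivity)
          linarith
  calc ∑ c ∈ range n, ∑ x, C.w x * kap C G c x * b (c + s) x
      = ∑ x, ∑ y, ∑ c ∈ range n, (C.w x * M x y * (cum (G x y) (c + s)) ^ 2 * r c x * u y
        + C.w x * M x y * cum (G x y) (c + s) *
          ((((lp c x - lm c x) - (lp c y - lm c y)) * (u x + u y)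
            - ((lp c x - lm c x) + (lp c y - lm c y)) * (u x - u y)) / 2)) := by
        rw [sum_congr rfl (fun c _ => hdual c)]
        simp_rw [← sum_add_distrib]
        rw [sum_comm]
        apply sum_congr rfl
        intro x _
        rw [sum_comm]
    _ ≤ ∑ x, ∑ y, ((2 * t ^ 3 + 2 * t ^ 5 + 8 * t ^ 5) * (C.w x * C.P x y * g x y)
        + (C.w x * M x y * |∑ c ∈ Ico (jp x y) n, lp c x - ∑ c ∈ Ico (jp x y) n, lp c y| ^ 3)
            / (t ^ 5) ^ 2
        + (C.w x * M x y * |∑ c ∈ Ico (jm x y) n, lm c x - ∑ c ∈ Ico (jm x y) n, lm c y| ^ 3)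
            / (t ^ 5) ^ 2
        + 8 * t ^ 7 * (C.w x * M x y * (u x - u y) ^ 2)) :=
        sum_le_sum (fun x _ => sum_le_sum (fun y _ => hpt x y))
    _ = (2 * t ^ 3 + 2 * t ^ 5 + 8 * t ^ 5) * rho C g
        + (∑ x, ∑ y, C.w x * M x y *
            |∑ c ∈ Ico (jp x y) n, lp c x - ∑ c ∈ Ico (jp x y) n, lp c y| ^ 3) / (t ^ 5) ^ 2
        + (∑ x, ∑ y, C.w x * M x y *
            |∑ c ∈ Ico (jm x y) n, lm c x - ∑ c ∈ Ico (jm x y) n, lm c y| ^ 3) / (t ^ 5) ^ 2
        + 8 * t ^ 7 * ∑ x, ∑ y, C.w x * M x y * (u x - u y) ^ 2 := by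
        unfold rho
        simp_rw [sum_add_distrib, mul_sum, sum_div]
    _ ≤ 1000 * t ^ 5 * rho C g := by
        have hρ : 0 ≤ rho C g := by
          unfold rho
          exact sum_nonneg (fun x _ => sum_nonneg (fun y _ =>
            mul_nonneg (mul_nonneg (C.w_nonneg x) (C.P_nonneg x y)) (hg0 x y)))
        have e1 : (∑ x, ∑ y, C.w x * M x y *
            |∑ c ∈ Ico (jp x y) n, lp c x - ∑ c ∈ Ico (jp x y) n, lp c y| ^ 3) / (t ^ 5) ^ 2
            ≤ 384 * t ^ 5 * rho C g := by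
          rw [div_le_iff₀ (by positivity)]
          refine hEp.trans (le_of_eq ?_)
          ring
        have e2 : (∑ x, ∑ y, C.w x * M x y *
            |∑ c ∈ Ico (jm x y) n, lm c x - ∑ c ∈ Ico (jm x y) n, lm c y| ^ 3) / (t ^ 5) ^ 2
            ≤ 384 * t ^ 5 * rho C g := by
          rw [div_le_iff₀ (by positivity)]
          refine hEm.trans (le_of_eq ?_)
          ring
        have e3 : 8 * t ^ 7 * ∑ x, ∑ y, C.w x * M x y * (u x - u y) ^ 2
            ≤ 16 * t ^ 5 * rho C g := by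
          have h1 : 8 * t ^ 7 * ∑ x, ∑ y, C.w x * M x y * (u x - u y) ^ 2
              ≤ 8 * t ^ 7 * (2 * rho C g / t ^ 3) :=
            mul_le_mul_of_nonneg_left huE (by positivity)
          have h2 : 8 * t ^ 7 * (2 * rho C g / t ^ 3) = 16 * t ^ 4 * rho C g := by
            field_simp
            ring
          have h3 : t ^ 4 ≤ t ^ 5 := pow_le_pow_right₀ ht1 (by norm_num)
          have h4 : 16 * t ^ 4 * rho C g ≤ 16 * t ^ 5 * rho C g := by
            apply mul_le_mul_of_nonneg_right _ hρ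
            linarith
          linarith
        have e4 : (2 * t ^ 3 + 2 * t ^ 5 + 8 * t ^ 5) * rho C g ≤ 12 * t ^ 5 * rho C g := by
          apply mul_le_mul_of_nonneg_right _ hρ
          have h3 : t ^ 3 ≤ t ^ 5 := pow_le_pow_right₀ ht1 (by norm_num)
          linarith
        have e5 : 0 ≤ t ^ 5 * rho C g := mul_nonneg (by positivity) hρ
        linarith


end P125S
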