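import Vale.Agent.P125S.Defs

/-! R4: the cubic inequality (deterministic), proof -/

namespace P125S
open Finset

theorem r4c_step (s t m : ℝ) (h : |t - s| ≤ m) :
    |t| ^ 3 ≤ |s| ^ 3 + 3 / 2 * (m * (s ^ 2 + t ^ 2)) := by
  have h1 : |t| - |s| ≤ m := le_trans (abs_sub_abs_le_abs_sub t s) h
  have h2 : |t| ^ 3 - |s| ^ 3 = (|t| - |s|) * (|t| ^ 2 + |t| * |s| + |s| ^ 2) := by ring
  have hs : |s| ^ 2 = s ^ 2 := sq_abs s
  have ht : |t| ^ 2 = t ^ 2 := sq_abs t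
  have hst : |t| * |s| ≤ (s ^ 2 + t ^ 2) / 2 := by
    nlinarith [sq_nonneg (|t| - |s|)]
  have hs0 : 0 ≤ |s| := abs_nonneg s
  have ht0 : 0 ≤ |t| := abs_nonneg t
  have hm : 0 ≤ m := le_trans (abs_nonneg _) h
  have h3 : (|t| - |s|) * (|t| ^ 2 + |t| * |s| + |s| ^ 2) ≤ m * (|t| ^ 2 + |t| * |s| + |s| ^ 2) :=
    mul_le_mul_of_nonneg_right h1 (by positivity)
  have h4 : m * (|t| ^ 2 + |t| * |s| + |s| ^ 2) ≤ m * (3 / 2 * (s ^ 2 + t ^ 2)) := by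
    apply mul_le_mul_of_nonneg_left _ hm
    rw [hs, ht]
    linarith
  linarith

theorem r4c_cum_succ (v : ℕ → ℝ) (k : ℕ) : cum v (k + 1) = cum v k + v k := by
  unfold cum
  rw [sum_range_succ]

theorem r4c_ind (v μ : ℕ → ℝ) (hμ : ∀ c, |v c| ≤ μ c) (k : ℕ) :
    |cum v k| ^ 3 ≤ (3 / 2) * ∑ c ∈ range k, μ c * ((cum v c) ^ 2 + (cum v (c + 1)) ^ 2) := by
  induction k with
  | zero => simp [cum]
  | succ k ih =>
    rw [sum_range_succ]
    have h := r4c_step (cum v k) (cum v (k + 1)) (μ k) (by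
      rw [r4c_cum_succ, add_sub_cancel_left]
      exact hμ k)
    linarith

theorem r4c_mono (v μ : ℕ → ℝ) (hμ : ∀ c, |v c| ≤ μ c) {k n : ℕ} (h : k ≤ n) :
    (3 / 2) * ∑ c ∈ range k, μ c * ((cum v c) ^ 2 + (cum v (c + 1)) ^ 2)
      ≤ (3 / 2) * ∑ c ∈ range n, μ c * ((cum v c) ^ 2 + (cum v (c + 1)) ^ 2) := by
  apply mul_le_mul_of_nonneg_left _ (by norm_num)
  apply sum_le_sum_of_subset_of_nonneg
  · exact range_subset_range.2 h
  · intro c _ _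
    exact mul_nonneg (le_trans (abs_nonneg _) (hμ c)) (by positivity)

theorem r4c_cubic (n : ℕ) (v μ : ℕ → ℝ) (hμ : ∀ c, |v c| ≤ μ c) :
    (nrm n v) ^ 3 ≤ (3 / 2) * ∑ c ∈ range n, μ c * ((cum v c) ^ 2 + (cum v (c + 1)) ^ 2) := by
  obtain ⟨k, hk, he⟩ := Finset.exists_mem_eq_sup' (s := range (n + 1)) ⟨0, by simp⟩
    (fun k => |cum v k|)
  have hn : nrm n v = |cum v k| := he
  rw [hn]
  have hk' : k ≤ n := by
    have := mem_range.1 hk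
    omega
  exact le_trans (r4c_ind v μ hμ k) (r4c_mono v μ hμ hk')

end P125S
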