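import Vale.Agent.P125S.Defs
import Vale.Agent.P125S.R4Cub20
import Vale.Agent.P125S.Nrm13

/-! R4: the cubic inequality (deterministic) -/

namespace P125S
open Finset

theorem cubic (n : ℕ) (v μ : ℕ → ℝ) (hμ : ∀ c, |v c| ≤ μ c) :
    (nrm n v) ^ 3 ≤ (3 / 2) * ∑ c ∈ range n, μ c * ((cum v c) ^ 2 + (cum v (c + 1)) ^ 2) :=
  r4c_cubic n v μ hμ

theorem nrm_nonneg (n : ℕ) (v : ℕ → ℝ) : 0 ≤ nrm n v :=
  nrm13_nonneg n v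

theorem nrm_le_tv (n : ℕ) (v : ℕ → ℝ) : nrm n v ≤ tv n v :=
  nrm13_le_tv n v

theorem nrm_add (n : ℕ) (v v' : ℕ → ℝ) : nrm n (fun c => v c + v' c) ≤ nrm n v + nrm n v' :=
  nrm13_add n v v'

theorem nrm_sum {ι : Type} (s : Finset ι) (n : ℕ) (v : ι → ℕ → ℝ) :
    nrm n (fun c => ∑ i ∈ s, v i c) ≤ ∑ i ∈ s, nrm n (v i) :=
  nrm13_sum s n v

theorem nrm_smul (n : ℕ) (a : ℝ) (v : ℕ → ℝ) : nrm n (fun c => a * v c) = |a| * nrm n v :=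
  nrm13_smul n a v

end P125S
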