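import Vale.Agent.P125S.R1
import Vale.Agent.P125S.R5

/-! R5b: the linear system dominates the path sums (no series: maximum principle for
`b + 2 s a + s² u`). -/

namespace P125S
open Finset
variable {S : Type} [Fintype S]

theorem b29_EX_congr (C : Chain S) (m : ℕ) (y : S) (F F' : (Fin (m + 1) → S) → ℝ)
    (h : ∀ ω, ω 0 = y → F ω = F' ω) : EX C m y F = EX C m y F' := by
  unfold EX
  refine Finset.sum_congr rfl fun ω _ => ?_
  rw [h _ (Fin.cons_zero _ _)]

theorem b29_EX_mul (C : Chain S) (m : ℕ) (y : S) (c : ℝ) (F : (Fin (m + 1) → S) → ℝ) :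
    EX C m y (fun ω => c * F ω) = c * EX C m y F := by
  unfold EX
  rw [Finset.mul_sum]
  exact Finset.sum_congr rfl fun ω _ => by ring

/-- second moment with shift `s` -/
noncomputable def b29Phi (C : Chain S) (h : ℝ) (g : S → S → ℝ) (G : S → S → ℕ → ℝ) (k m : ℕ)
    (x : S) (s : ℝ) : ℝ :=
  EX C m x (fun ω => (s + cum (psum m G ω) k) ^ 2 * Real.exp (-(asum m g ω) / h))

theorem b29_cum_psum_succ (G : S → S → ℕ → ℝ) (k m : ℕ) (x : S) (ω : Fin (m + 1) → S) :
    cum (psum (m + 1) G (Fin.cons x ω : Fin (m + 2) → S)) k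
      = cum (G x (ω 0)) k + cum (psum m G ω) k := by
  unfold cum psum
  rw [← Finset.sum_add_distrib]
  refine Finset.sum_congr rfl fun c _ => ?_
  rw [Fin.sum_univ_succ]
  congr 1

theorem b29_asum_succ (g : S → S → ℝ) (m : ℕ) (x : S) (ω : Fin (m + 1) → S) :
    asum (m + 1) g (Fin.cons x ω : Fin (m + 2) → S) = g x (ω 0) + asum m g ω := by
  unfold asum
  rw [Fin.sum_univ_succ]
  congr 1

theorem b29_Phi_zero (C : Chain S) (h : ℝ) (g : S → S → ℝ) (G : S → S → ℕ → ℝ) (k : ℕ)
    (x : S) (s : ℝ) : b29Phi C h g G k 0 x s = s ^ 2 := by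
  unfold b29Phi
  rw [EX_zero]
  simp [cum, psum, asum]

theorem b29_Phi_succ (C : Chain S) (h : ℝ) (g : S → S → ℝ) (G : S → S → ℕ → ℝ) (k m : ℕ)
    (x : S) (s : ℝ) : b29Phi C h g G k (m + 1) x s
      = ∑ y, C.P x y * Real.exp (-(g x y) / h) * b29Phi C h g G k m y (s + cum (G x y) k) := by
  unfold b29Phi
  rw [EX_succ]
  refine Finset.sum_congr rfl fun y _ => ?_
  rw [mul_assoc]
  congr 1
  rw [← b29_EX_mul]
  apply b29_EX_congr
  intro ω hω
  rw [b29_cum_psum_succ, b29_asum_succ, hω]
  have : -(g x y + asum m g ω) / h = -(g x y) / h + -(asum m g ω) / h := by ring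
  rw [this, Real.exp_add]
  ring

theorem b29_ker_nonneg (C : Chain S) {q h : ℝ} (hq0 : 0 < q) (g : S → S → ℝ) (x y : S) :
    0 ≤ ker C q h g x y :=
  mul_nonneg (mul_nonneg hq0.le (C.P_nonneg x y)) (Real.exp_pos _).le

theorem b29_row (C : Chain S) {q h : ℝ} (hq0 : 0 < q) (hh : 1 ≤ h) (g : S → S → ℝ)
    (hg : ∀ x y, 0 ≤ g x y) (x : S) : ∑ y, ker C q h g x y ≤ q := by
  calc ∑ y, ker C q h g x y ≤ ∑ y, q * C.P x y := by
        refine Finset.sum_le_sum fun y _ => ?_
        have h1 : Real.exp (-(g x y) / h) ≤ 1 := by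
          apply Real.exp_le_one_iff.2
          have := hg x y
          apply div_nonpos_of_nonpos_of_nonneg <;> linarith
        have h2 : 0 ≤ q * C.P x y := mul_nonneg hq0.le (C.P_nonneg x y)
        unfold ker
        nlinarith
    _ = q := by rw [← Finset.mul_sum, C.P_sum, mul_one]

/-- the quadratic form is nonnegative -/
theorem b29_quad (C : Chain S) (q : ℝ) (hq0 : 0 < q) (hq1 : q < 1) (h : ℝ) (hh : 1 ≤ h)
    (g : S → S → ℝ) (hg : ∀ x y, 0 ≤ g x y) (c : S → S → ℝ) (u a b : S → ℝ)
    (hu : ∀ x, u x = (1 - q) + ∑ y, ker C q h g x y * u y)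
    (ha : ∀ x, a x = ∑ y, ker C q h g x y * (a y + c x y * u y))
    (hb : ∀ x, b x = ∑ y, ker C q h g x y * (b y + 2 * c x y * a y + (c x y) ^ 2 * u y))
    (s : ℝ) (x : S) : 0 ≤ b x + 2 * s * a x + s ^ 2 * u x := by
  have hk := fun x y => b29_ker_nonneg C (h := h) hq0 g x y
  have hrow := fun x => b29_row C hq0 hh g hg x
  have hu0 : ∀ x, 0 ≤ u x := maxp (ker C q h g) hk q hq1 hrow u fun x => by
    rw [hu x]; linarith
  have hupos : ∀ x, 0 < u x := by
    intro x
    rw [hu x]
    have : 0 ≤ ∑ y, ker C q h g x y * u y :=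
      Finset.sum_nonneg fun y _ => mul_nonneg (hk x y) (hu0 y)
    linarith
  have hQ : ∀ x s, b x + 2 * s * a x + s ^ 2 * u x = s ^ 2 * (1 - q) +
      ∑ y, ker C q h g x y * (b y + 2 * (s + c x y) * a y + (s + c x y) ^ 2 * u y) := by
    intro x s
    have e1 : ∑ y, ker C q h g x y * (b y + 2 * (s + c x y) * a y + (s + c x y) ^ 2 * u y)
        = (∑ y, ker C q h g x y * (b y + 2 * c x y * a y + (c x y) ^ 2 * u y))
          + 2 * s * (∑ y, ker C q h g x y * (a y + c x y * u y))
          + s ^ 2 * ∑ y, ker C q h g x y * u y := by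
      rw [Finset.mul_sum, Finset.mul_sum, ← Finset.sum_add_distrib, ← Finset.sum_add_distrib]
      exact Finset.sum_congr rfl fun y _ => by ring
    rw [e1, ← hb x, ← ha x]
    have := hu x
    have e2 : ∑ y, ker C q h g x y * u y = u x - (1 - q) := by linarith
    rw [e2]
    ring
  -- minimal value
  have : Nonempty S := ⟨x⟩
  obtain ⟨x0, -, hx0⟩ := Finset.exists_min_image (Finset.univ : Finset S)
    (fun x => b x - a x ^ 2 / u x) Finset.univ_nonempty
  set μ := b x0 - a x0 ^ 2 / u x0 with hμ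
  have hlow : ∀ y s, μ ≤ b y + 2 * s * a y + s ^ 2 * u y := by
    intro y s
    have h1 := hx0 y (Finset.mem_univ y)
    have h2 : b y + 2 * s * a y + s ^ 2 * u y = (b y - a y ^ 2 / u y) + (s * u y + a y) ^ 2 / u y := by
      have := (hupos y).ne'
      field_simp
      ring
    have h3 : 0 ≤ (s * u y + a y) ^ 2 / u y := div_nonneg (sq_nonneg _) (hupos y).le
    linarith
  have hμ0 : 0 ≤ μ := by
    by_contra hneg
    push Not at hneg
    have h1 : b x0 + 2 * (-(a x0 / u x0)) * a x0 + (-(a x0 / u x0)) ^ 2 * u x0 = μ := by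
      have := (hupos x0).ne'
      rw [hμ]
      field_simp
      ring
    rw [hQ] at h1
    have h2 : ∑ y, ker C q h g x0 y * μ ≤ ∑ y, ker C q h g x0 y *
        (b y + 2 * (-(a x0 / u x0) + c x0 y) * a y + (-(a x0 / u x0) + c x0 y) ^ 2 * u y) :=
      Finset.sum_le_sum fun y _ => mul_le_mul_of_nonneg_left (hlow y _) (hk x0 y)
    rw [← Finset.sum_mul] at h2
    have h3 := hrow x0
    have h4 : q * μ ≤ (∑ y, ker C q h g x0 y) * μ := by nlinarith
    have h5 : 0 ≤ (-(a x0 / u x0)) ^ 2 * (1 - q) := mul_nonneg (sq_nonneg _) (by linarith)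
    nlinarith
  exact hμ0.trans (hlow x s)

theorem sys_exists29 (C : Chain S) (q : ℝ) (hq0 : 0 < q) (hq1 : q < 1) (h : ℝ) (hh : 1 ≤ h)
    (n : ℕ) (G : S → S → ℕ → ℝ) :
    ∃ (u : S → ℝ) (a b : ℕ → S → ℝ),
      Sys C q h (fun x y => tv n (G x y)) G u a b ∧
      ∀ (k Mx : ℕ) (x : S), ∑ m ∈ range Mx, (1 - q) * q ^ m *
        EX C m x (fun ω => (cum (psum m G ω) k) ^ 2 *
          Real.exp (-(asum m (fun x y => tv n (G x y)) ω) / h)) ≤ b k x := by
  set g : S → S → ℝ := fun x y => tv n (G x y) with hgdef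
  have hg : ∀ x y, 0 ≤ g x y := fun x y => Finset.sum_nonneg fun _ _ => abs_nonneg _
  have hk := fun x y => b29_ker_nonneg C (h := h) hq0 g x y
  have hrow := fun x => b29_row C hq0 hh g hg x
  obtain ⟨u, hu⟩ := res_exists (ker C q h g) hk q hq1 hrow (fun _ => 1 - q)
  have hA := fun k => res_exists (ker C q h g) hk q hq1 hrow
    (fun x => ∑ y, ker C q h g x y * (cum (G x y) k * u y))
  choose a ha using hA
  have hB := fun k => res_exists (ker C q h g) hk q hq1 hrow
    (fun x => ∑ y, ker C q h g x y * (2 * cum (G x y) k * a k y + (cum (G x y) k) ^ 2 * u y))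
  choose b hb using hB
  have hu' : ∀ x, u x = (1 - q) + ∑ y, ker C q h g x y * u y := fun x => by rw [hu x]; ring
  have ha' : ∀ k x, a k x = ∑ y, ker C q h g x y * (a k y + cum (G x y) k * u y) := by
    intro k x
    rw [ha k x, ← Finset.sum_add_distrib]
    exact Finset.sum_congr rfl fun y _ => by ring
  have hb' : ∀ k x, b k x = ∑ y, ker C q h g x y *
      (b k y + 2 * cum (G x y) k * a k y + (cum (G x y) k) ^ 2 * u y) := by
    intro k x
    rw [hb k x, ← Finset.sum_add_distrib]
    exact Finset.sum_congr rfl fun y _ => by ring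
  refine ⟨u, a, b, ⟨hu', ha', hb'⟩, ?_⟩
  -- the comparison
  have main : ∀ (k N : ℕ) (x : S) (s : ℝ), ∑ m ∈ range N, (1 - q) * q ^ m * b29Phi C h g G k m x s
      ≤ b k x + 2 * s * a k x + s ^ 2 * u x := by
    intro k N
    induction N with
    | zero =>
      intro x s
      rw [Finset.range_zero, Finset.sum_empty]
      exact b29_quad C q hq0 hq1 h hh g hg (fun x y => cum (G x y) k) u (a k) (b k) hu' (ha' k)
        (hb' k) s x
    | succ N ih =>
      intro x s
      rw [Finset.sum_range_succ']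
      rw [b29_Phi_zero]
      have e0 : b k x + 2 * s * a k x + s ^ 2 * u x = s ^ 2 * (1 - q) +
          ∑ y, ker C q h g x y * (b k y + 2 * (s + cum (G x y) k) * a k y
            + (s + cum (G x y) k) ^ 2 * u y) := by
        have e1 : ∑ y, ker C q h g x y * (b k y + 2 * (s + cum (G x y) k) * a k y
              + (s + cum (G x y) k) ^ 2 * u y)
            = (∑ y, ker C q h g x y * (b k y + 2 * cum (G x y) k * a k y
                + (cum (G x y) k) ^ 2 * u y))
              + 2 * s * (∑ y, ker C q h g x y * (a k y + cum (G x y) k * u y))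
              + s ^ 2 * ∑ y, ker C q h g x y * u y := by
          rw [Finset.mul_sum, Finset.mul_sum, ← Finset.sum_add_distrib, ← Finset.sum_add_distrib]
          exact Finset.sum_congr rfl fun y _ => by ring
        rw [e1, ← hb' k x, ← ha' k x]
        have := hu' x
        have e2 : ∑ y, ker C q h g x y * u y = u x - (1 - q) := by linarith
        rw [e2]
        ring
      have e3 : ∑ m ∈ range N, (1 - q) * q ^ (m + 1) * b29Phi C h g G k (m + 1) x s
          = ∑ y, ker C q h g x y * ∑ m ∈ range N, (1 - q) * q ^ m *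
            b29Phi C h g G k m y (s + cum (G x y) k) := by
        simp only [b29_Phi_succ, Finset.mul_sum]
        rw [Finset.sum_comm]
        refine Finset.sum_congr rfl fun y _ => Finset.sum_congr rfl fun m _ => ?_
        unfold ker
        ring
      rw [e0, e3]
      have e4 : ∑ y, ker C q h g x y * ∑ m ∈ range N, (1 - q) * q ^ m *
            b29Phi C h g G k m y (s + cum (G x y) k)
          ≤ ∑ y, ker C q h g x y * (b k y + 2 * (s + cum (G x y) k) * a k y
            + (s + cum (G x y) k) ^ 2 * u y) :=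
        Finset.sum_le_sum fun y _ => mul_le_mul_of_nonneg_left (ih y _) (hk x y)
      have e5 : (1 - q) * q ^ 0 * s ^ 2 = s ^ 2 * (1 - q) := by ring
      rw [e5]
      linarith
  intro k Mx x
  have h1 := main k Mx x 0
  have h2 : ∀ m, b29Phi C h g G k m x 0 = EX C m x (fun ω => (cum (psum m G ω) k) ^ 2 *
          Real.exp (-(asum m g ω) / h)) := by
    intro m
    unfold b29Phi
    simp only [zero_add]
  simp only [h2] at h1
  linarith

end P125S
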