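import Vale.Agent.P125S.R5
import Vale.Agent.P125S.R5b29

/-! R5b: the generating functions solve the linear system -/

namespace P125S
open Finset
variable {S : Type} [Fintype S]

theorem sys_exists (C : Chain S) (q : ℝ) (hq0 : 0 < q) (hq1 : q < 1) (h : ℝ) (hh : 1 ≤ h)
    (n : ℕ) (G : S → S → ℕ → ℝ) (hg1 : ∀ x y, tv n (G x y) ≤ 1) :
    ∃ (u : S → ℝ) (a b : ℕ → S → ℝ),
      Sys C q h (fun x y => tv n (G x y)) G u a b ∧
      ∀ (k Mx : ℕ) (x : S), ∑ m ∈ range Mx, (1 - q) * q ^ m *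
        EX C m x (fun ω => (cum (psum m G ω) k) ^ 2 *
          Real.exp (-(asum m (fun x y => tv n (G x y)) ω) / h)) ≤ b k x :=
  sys_exists29 C q hq0 hq1 h hh n G

end P125S
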