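import Vale.Agent.P125S.R5
import Vale.Agent.P125S.Js11
import Vale.Agent.P125S.Cube13

/-! R5c: sums over the position of the traffic edge -/

namespace P125S
open Finset
variable {S : Type} [Fintype S]

/-- sum of `G` over the steps after step `i` -/
def after (m : ℕ) (G : S → S → ℕ → ℝ) (ω : Fin (m + 1) → S) (i : Fin m) (c : ℕ) : ℝ :=
  ∑ j : Fin m, if i < j then G (ω j.castSucc) (ω j.succ) c else 0

/-- traffic times the squared later displacement, `s = 0` or `s = 1` -/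
def Jfun (m n s : ℕ) (G : S → S → ℕ → ℝ) (ω : Fin (m + 1) → S) : ℝ :=
  ∑ i : Fin m, ∑ c ∈ range n, |G (ω i.castSucc) (ω i.succ) c| *
    (cum (after m G ω i) (c + s)) ^ 2

theorem J_sum (C : Chain S) (q : ℝ) (hq0 : 0 < q) (hq1 : q < 1) (h : ℝ) (hh : 1 ≤ h)
    (n : ℕ) (G : S → S → ℕ → ℝ) (hG : ∀ x y c, G y x c = -G x y c)
    (b : ℕ → S → ℝ)
    (hb : ∀ (k Mx : ℕ) (x : S), ∑ m ∈ range Mx, (1 - q) * q ^ m *
        EX C m x (fun ω => (cum (psum m G ω) k) ^ 2 *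
          Real.exp (-(asum m (fun x y => tv n (G x y)) ω) / h)) ≤ b k x)
    (s Mx : ℕ) :
    ∑ m ∈ range Mx, (1 - q) * q ^ m * EE C m (fun ω => Jfun m n s G ω *
        Real.exp (-(asum m (fun x y => tv n (G x y)) ω) / h))
      ≤ (∑ c ∈ range n, ∑ x, C.w x * kap C G c x * b (c + s) x) / (1 - q) :=
  js11_J_sum C q hq0 hq1 h hh n G hG b hb s Mx

/-- pointwise: third power of the norm by the two one-sided functionals and the traffic -/
theorem nrm_cube_le (m n : ℕ) (G : S → S → ℕ → ℝ) (hG : ∀ x y c, G y x c = -G x y c)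
    (hg1 : ∀ x y, tv n (G x y) ≤ 1) (ω : Fin (m + 1) → S) :
    (nrm n (psum m G ω)) ^ 3 ≤ (9 / 2) * (Jfun m n 0 G ω + Jfun m n 1 G ω
      + Jfun m n 0 G (fun i => ω (Fin.rev i)) + Jfun m n 1 G (fun i => ω (Fin.rev i))
      + 2 * asum m (fun x y => tv n (G x y)) ω) :=
  nrm_cube13 m n G hG hg1 ω

end P125S
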