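import Vale.Agent.P125S.R3
import Vale.Agent.P125S.R4
import Vale.Agent.P125S.R5b
import Vale.Agent.P125S.R5c

/-! Assembly of the killed third moment -/

namespace P125S
open Finset
variable {S : Type} [Fintype S]

theorem tm8_EE_add (C : Chain S) (m : ℕ) (F F' : (Fin (m + 1) → S) → ℝ) :
    EE C m (fun ω => F ω + F' ω) = EE C m F + EE C m F' := by
  unfold EE
  rw [← sum_add_distrib]
  exact sum_congr rfl fun ω _ => by ring

theorem tm8_EE_mul (C : Chain S) (m : ℕ) (a : ℝ) (F : (Fin (m + 1) → S) → ℝ) :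
    EE C m (fun ω => a * F ω) = a * EE C m F := by
  unfold EE
  rw [mul_sum]
  exact sum_congr rfl fun ω _ => by ring

theorem tm8_rho_nonneg (C : Chain S) (g : S → S → ℝ) (hg : ∀ x y, 0 ≤ g x y) : 0 ≤ rho C g :=
  sum_nonneg fun x _ => sum_nonneg fun y _ =>
    mul_nonneg (mul_nonneg (C.w_nonneg x) (C.P_nonneg x y)) (hg x y)

theorem tm8_asum_rev (m : ℕ) (g : S → S → ℝ) (hg : ∀ x y, g x y = g y x)
    (ω : Fin (m + 1) → S) : asum m g (fun i => ω (Fin.rev i)) = asum m g ω := by
  unfold asum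
  rw [← Equiv.sum_comp Fin.revPerm (fun i : Fin m => g (ω i.castSucc) (ω i.succ))]
  refine sum_congr rfl fun i _ => ?_
  simp only [Fin.rev_castSucc, Fin.rev_succ, Fin.revPerm_apply]
  exact hg _ _

theorem tm8_geo (q : ℝ) (hq0 : 0 < q) (hq1 : q < 1) (Mx : ℕ) :
    ∑ m ∈ range Mx, (1 - q) * q ^ m * (m : ℝ) ≤ 1 / (1 - q) := by
  have h1 : ∀ M : ℕ, (1 - q) * ∑ m ∈ range M, (1 - q) * q ^ m * (m : ℝ)
      = q - q ^ M * (M * (1 - q) + q) := by
    intro M
    induction M with
    | zero => simp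
    | succ M ih =>
      rw [sum_range_succ, mul_add, ih, pow_succ]
      push_cast
      ring
  have h2 := h1 Mx
  have h3 : 0 ≤ q ^ Mx * (Mx * (1 - q) + q) := by
    have : 0 ≤ 1 - q := by linarith
    positivity
  rw [le_div_iff₀ (by linarith)]
  nlinarith

theorem tm8_step (C : Chain S) (m n : ℕ) (h : ℝ) (hh : 0 < h)
    (G : S → S → ℕ → ℝ) (hG : ∀ x y c, G y x c = -G x y c)
    (hg1 : ∀ x y, tv n (G x y) ≤ 1) :
    EE C m (fun ω => (nrm n (psum m G ω)) ^ 3 *
        Real.exp (-(asum m (fun x y => tv n (G x y)) ω) / h))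
      ≤ 9 * EE C m (fun ω => Jfun m n 0 G ω *
          Real.exp (-(asum m (fun x y => tv n (G x y)) ω) / h))
        + 9 * EE C m (fun ω => Jfun m n 1 G ω *
          Real.exp (-(asum m (fun x y => tv n (G x y)) ω) / h))
        + 9 * (m * rho C (fun x y => tv n (G x y))) := by
  have htv0 : ∀ x y, 0 ≤ tv n (G x y) := fun x y => sum_nonneg fun c _ => abs_nonneg _
  have htvs : ∀ x y, tv n (G x y) = tv n (G y x) := by
    intro x y
    unfold tv
    refine sum_congr rfl fun c _ => ?_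
    rw [hG x y c, abs_neg]
  have hrev : ∀ s, EE C m (fun ω => Jfun m n s G (fun i => ω (Fin.rev i)) *
        Real.exp (-(asum m (fun x y => tv n (G x y)) ω) / h))
      = EE C m (fun ω => Jfun m n s G ω *
        Real.exp (-(asum m (fun x y => tv n (G x y)) ω) / h)) := by
    intro s
    rw [EE_rev]
    congr 1
    funext ω
    have e1 : (fun i => (fun j => ω (Fin.rev j)) (Fin.rev i)) = ω := by
      funext i
      simp only [Fin.rev_rev]
    simp only [Fin.rev_rev]
    rw [tm8_asum_rev m (fun x y => tv n (G x y)) htvs ω]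
  have hA0 : ∀ ω : Fin (m + 1) → S, 0 ≤ asum m (fun x y => tv n (G x y)) ω :=
    fun ω => sum_nonneg fun i _ => htv0 _ _
  calc EE C m (fun ω => (nrm n (psum m G ω)) ^ 3 *
        Real.exp (-(asum m (fun x y => tv n (G x y)) ω) / h))
      ≤ EE C m (fun ω => (9 / 2) * (Jfun m n 0 G ω *
              Real.exp (-(asum m (fun x y => tv n (G x y)) ω) / h))
          + ((9 / 2) * (Jfun m n 1 G ω *
              Real.exp (-(asum m (fun x y => tv n (G x y)) ω) / h))
          + ((9 / 2) * (Jfun m n 0 G (fun i => ω (Fin.rev i)) *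
              Real.exp (-(asum m (fun x y => tv n (G x y)) ω) / h))
          + ((9 / 2) * (Jfun m n 1 G (fun i => ω (Fin.rev i)) *
              Real.exp (-(asum m (fun x y => tv n (G x y)) ω) / h))
          + 9 * asum m (fun x y => tv n (G x y)) ω)))) := by
        refine EE_mono C m _ _ fun ω => ?_
        have h1 := nrm_cube_le m n G hG hg1 ω
        have h2 : 0 < Real.exp (-(asum m (fun x y => tv n (G x y)) ω) / h) := Real.exp_pos _
        have h3 : Real.exp (-(asum m (fun x y => tv n (G x y)) ω) / h) ≤ 1 := by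
          rw [Real.exp_le_one_iff]
          exact div_nonpos_of_nonpos_of_nonneg (by linarith [hA0 ω]) hh.le
        have h4 := mul_le_mul_of_nonneg_right h1 h2.le
        have h5 : asum m (fun x y => tv n (G x y)) ω *
            Real.exp (-(asum m (fun x y => tv n (G x y)) ω) / h)
            ≤ asum m (fun x y => tv n (G x y)) ω := mul_le_of_le_one_right (hA0 ω) h3
        nlinarith
    _ = 9 * EE C m (fun ω => Jfun m n 0 G ω *
          Real.exp (-(asum m (fun x y => tv n (G x y)) ω) / h))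
        + 9 * EE C m (fun ω => Jfun m n 1 G ω *
          Real.exp (-(asum m (fun x y => tv n (G x y)) ω) / h))
        + 9 * (m * rho C (fun x y => tv n (G x y))) := by
        rw [tm8_EE_add, tm8_EE_add, tm8_EE_add, tm8_EE_add, tm8_EE_mul, tm8_EE_mul, tm8_EE_mul,
          tm8_EE_mul, tm8_EE_mul, hrev 0, hrev 1, EE_asum]
        ring

theorem tm8_third_moment (C : Chain S) (q : ℝ) (hq0 : 0 < q) (hq1 : q < 1) (l : ℕ)
    (n : ℕ) (G : S → S → ℕ → ℝ) (hG : ∀ x y c, G y x c = -G x y c)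
    (hg1 : ∀ x y, tv n (G x y) ≤ 1) (Mx : ℕ) :
    ∑ m ∈ range Mx, (1 - q) * q ^ m * EE C m (fun ω => (nrm n (psum m G ω)) ^ 3 *
        Real.exp (-(asum m (fun x y => tv n (G x y)) ω) / 8 ^ l))
      ≤ 20000 * 32 ^ l * rho C (fun x y => tv n (G x y)) / (1 - q) := by
  have hh : (1 : ℝ) ≤ 8 ^ l := one_le_pow₀ (by norm_num)
  have h32 : (1 : ℝ) ≤ 32 ^ l := one_le_pow₀ (by norm_num)
  obtain ⟨u, a, b, hsys, hb⟩ := sys_exists C q hq0 hq1 (8 ^ l) hh n G hg1
  have hρ : 0 ≤ rho C (fun x y => tv n (G x y)) :=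
    tm8_rho_nonneg C _ fun x y => sum_nonneg fun c _ => abs_nonneg _
  have h1q : 0 < 1 - q := by linarith
  have hJ : ∀ s, s ≤ 1 → ∑ m ∈ range Mx, (1 - q) * q ^ m * EE C m (fun ω => Jfun m n s G ω *
        Real.exp (-(asum m (fun x y => tv n (G x y)) ω) / 8 ^ l))
      ≤ 1000 * 32 ^ l * rho C (fun x y => tv n (G x y)) / (1 - q) := by
    intro s hs
    refine (J_sum C q hq0 hq1 (8 ^ l) hh n G hG b hb s Mx).trans ?_
    gcongr
    exact core C q hq0 hq1 l n G hG hg1 u a b hsys s hs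
  have hg := tm8_geo q hq0 hq1 Mx
  calc ∑ m ∈ range Mx, (1 - q) * q ^ m * EE C m (fun ω => (nrm n (psum m G ω)) ^ 3 *
        Real.exp (-(asum m (fun x y => tv n (G x y)) ω) / 8 ^ l))
      ≤ ∑ m ∈ range Mx, (1 - q) * q ^ m * (9 * EE C m (fun ω => Jfun m n 0 G ω *
          Real.exp (-(asum m (fun x y => tv n (G x y)) ω) / 8 ^ l))
        + 9 * EE C m (fun ω => Jfun m n 1 G ω *
          Real.exp (-(asum m (fun x y => tv n (G x y)) ω) / 8 ^ l))
        + 9 * (m * rho C (fun x y => tv n (G x y)))) := by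
        refine sum_le_sum fun m _ => mul_le_mul_of_nonneg_left
          (tm8_step C m n (8 ^ l) (by linarith) G hG hg1) ?_
        exact mul_nonneg h1q.le (pow_nonneg hq0.le m)
    _ = 9 * (∑ m ∈ range Mx, (1 - q) * q ^ m * EE C m (fun ω => Jfun m n 0 G ω *
          Real.exp (-(asum m (fun x y => tv n (G x y)) ω) / 8 ^ l)))
        + 9 * (∑ m ∈ range Mx, (1 - q) * q ^ m * EE C m (fun ω => Jfun m n 1 G ω *
          Real.exp (-(asum m (fun x y => tv n (G x y)) ω) / 8 ^ l)))
        + 9 * rho C (fun x y => tv n (G x y)) *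
          (∑ m ∈ range Mx, (1 - q) * q ^ m * (m : ℝ)) := by
        rw [mul_sum, mul_sum, mul_sum, ← sum_add_distrib, ← sum_add_distrib]
        exact sum_congr rfl fun m _ => by ring
    _ ≤ 9 * (1000 * 32 ^ l * rho C (fun x y => tv n (G x y)) / (1 - q))
        + 9 * (1000 * 32 ^ l * rho C (fun x y => tv n (G x y)) / (1 - q))
        + 9 * rho C (fun x y => tv n (G x y)) * (1 / (1 - q)) := by
        gcongr
        · exact hJ 0 (by norm_num)
        · exact hJ 1 le_rfl
    _ = (18000 * 32 ^ l + 9) * rho C (fun x y => tv n (G x y)) / (1 - q) := by ring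
    _ ≤ 20000 * 32 ^ l * rho C (fun x y => tv n (G x y)) / (1 - q) := by
        gcongr
        linarith

end P125S
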