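import Vale.Agent.P125S.R3
import Vale.Agent.P125S.R4
import Vale.Agent.P125S.R5b
import Vale.Agent.P125S.R5c
import Vale.Agent.P125S.TM8

/-! R5d: third moment with killing -/

namespace P125S
open Finset
variable {S : Type} [Fintype S]

theorem third_moment (C : Chain S) (q : ℝ) (hq0 : 0 < q) (hq1 : q < 1) (l : ℕ)
    (n : ℕ) (G : S → S → ℕ → ℝ) (hG : ∀ x y c, G y x c = -G x y c)
    (hg1 : ∀ x y, tv n (G x y) ≤ 1) (Mx : ℕ) :
    ∑ m ∈ range Mx, (1 - q) * q ^ m * EE C m (fun ω => (nrm n (psum m G ω)) ^ 3 *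
        Real.exp (-(asum m (fun x y => tv n (G x y)) ω) / 8 ^ l))
      ≤ 20000 * 32 ^ l * rho C (fun x y => tv n (G x y)) / (1 - q) := by
  exact tm8_third_moment C q hq0 hq1 l n G hG hg1 Mx

end P125S
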