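import Vale.Agent.P125S.R5d
import Vale.Agent.P125S.R6g20
import Vale.Agent.P125S.Mo16

/-! R6: from the killed third moment to the moment of order 18/17 -/

namespace P125S
open Finset
variable {S : Type} [Fintype S]

theorem pw (s A : ℝ) (hs : 0 ≤ s) (hsA : s ≤ A) (L : ℕ) (hL : A ≤ 8 ^ L) :
    s ^ (18 / 17 : ℝ) ≤ A + 130 * ∑ l ∈ range (L + 1),
      (2 : ℝ) ^ (-(11 / 2 : ℝ) * l) * (s ^ 3 * Real.exp (-A / 8 ^ l)) :=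
  r6g_pw s A hs hsA L hL

theorem geo_sum (L : ℕ) :
    ∑ l ∈ range (L + 1), (2 : ℝ) ^ (-(11 / 2 : ℝ) * l) * 32 ^ l ≤ 4 :=
  r6g_geo L

theorem moment (C : Chain S) (q : ℝ) (hq0 : 0 < q) (hq1 : q < 1)
    (n : ℕ) (G : S → S → ℕ → ℝ) (hG : ∀ x y c, G y x c = -G x y c)
    (hg1 : ∀ x y, tv n (G x y) ≤ 1) (Mx : ℕ) :
    ∑ m ∈ range Mx, (1 - q) * q ^ m * EE C m (fun ω => (nrm n (psum m G ω)) ^ (18 / 17 : ℝ))
      ≤ 10 ^ 8 * rho C (fun x y => tv n (G x y)) / (1 - q) :=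
  mo16_moment C q hq0 hq1 n G hG hg1 Mx

end P125S
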