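import Mathlib

namespace P125S
open Finset

theorem r7_geo (r : ℝ) (hr0 : 0 ≤ r) (hr1 : r < 1) (F : Finset ℕ) (f : ℕ → ℕ)
    (hf : Set.InjOn f F) : ∑ k ∈ F, r ^ f k ≤ 1 / (1 - r) := by
  rw [← Finset.sum_image (f := fun j => r ^ j) hf]
  have hs : Summable (fun j : ℕ => r ^ j) := summable_geometric_of_lt_one hr0 hr1
  have := hs.sum_le_tsum (F.image f) (fun j _ => pow_nonneg hr0 j)
  rw [tsum_geometric_of_lt_one hr0 hr1, inv_eq_one_div] at this
  exact this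

theorem r7_low (α θ : ℝ) (hα : 0 < α) (hθ : 0 < θ) (F : Finset ℕ)
    (hF : ∀ k ∈ F, (2 : ℝ) ^ k ≤ θ) :
    ∑ k ∈ F, ((2 : ℝ) ^ k) ^ α ≤ θ ^ α * (1 / (1 - (2 : ℝ) ^ (-α))) := by
  have hr1 : (2 : ℝ) ^ (-α) < 1 := Real.rpow_lt_one_of_one_lt_of_neg (by norm_num) (by linarith)
  have hr0 : 0 < (2 : ℝ) ^ (-α) := Real.rpow_pos_of_pos (by norm_num) _
  rcases F.eq_empty_or_nonempty with rfl | hne
  · rw [Finset.sum_empty]
    have : 0 < 1 - (2 : ℝ) ^ (-α) := by linarith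
    positivity
  obtain ⟨k0, hk0, hmax⟩ := F.exists_max_image id hne
  have h1 : ∀ k ∈ F, ((2 : ℝ) ^ k) ^ α ≤ θ ^ α * ((2 : ℝ) ^ (-α)) ^ (k0 - k) := by
    intro k hk
    have hkk : k ≤ k0 := hmax k hk
    have h2 : ((2 : ℝ) ^ k0) ^ α ≤ θ ^ α := Real.rpow_le_rpow (by positivity) (hF k0 hk0) hα.le
    have h3 : ((2 : ℝ) ^ k) ^ α = ((2 : ℝ) ^ k0) ^ α * ((2 : ℝ) ^ (-α)) ^ (k0 - k) := by
      rw [← Real.rpow_natCast, ← Real.rpow_natCast, ← Real.rpow_natCast, ← Real.rpow_mul (by norm_num),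
        ← Real.rpow_mul (by norm_num), ← Real.rpow_mul (by norm_num), ← Real.rpow_add (by norm_num)]
      congr 1
      rw [Nat.cast_sub hkk]
      ring
    rw [h3]
    exact mul_le_mul_of_nonneg_right h2 (by positivity)
  refine (Finset.sum_le_sum h1).trans ?_
  rw [← Finset.mul_sum]
  apply mul_le_mul_of_nonneg_left _ (by positivity)
  apply r7_geo _ hr0.le hr1
  intro a ha b hb hab
  have h1 : a ≤ k0 := hmax a ha
  have h2 : b ≤ k0 := hmax b hb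
  have h3 : k0 - a = k0 - b := hab
  omega

theorem r7_high (β θ : ℝ) (hβ : 0 < β) (hθ : 0 < θ) (F : Finset ℕ)
    (hF : ∀ k ∈ F, θ ≤ (2 : ℝ) ^ k) :
    ∑ k ∈ F, ((2 : ℝ) ^ k) ^ (-β) ≤ θ ^ (-β) * (1 / (1 - (2 : ℝ) ^ (-β))) := by
  have hr1 : (2 : ℝ) ^ (-β) < 1 := Real.rpow_lt_one_of_one_lt_of_neg (by norm_num) (by linarith)
  have hr0 : 0 < (2 : ℝ) ^ (-β) := Real.rpow_pos_of_pos (by norm_num) _
  rcases F.eq_empty_or_nonempty with rfl | hne
  · rw [Finset.sum_empty]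
    have : 0 < 1 - (2 : ℝ) ^ (-β) := by linarith
    positivity
  obtain ⟨k0, hk0, hmin⟩ := F.exists_min_image id hne
  have h1 : ∀ k ∈ F, ((2 : ℝ) ^ k) ^ (-β) ≤ θ ^ (-β) * ((2 : ℝ) ^ (-β)) ^ (k - k0) := by
    intro k hk
    have hkk : k0 ≤ k := hmin k hk
    have h2 : ((2 : ℝ) ^ k0) ^ (-β) ≤ θ ^ (-β) :=
      Real.rpow_le_rpow_of_nonpos hθ (hF k0 hk0) (by linarith)
    have h3 : ((2 : ℝ) ^ k) ^ (-β) = ((2 : ℝ) ^ k0) ^ (-β) * ((2 : ℝ) ^ (-β)) ^ (k - k0) := by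
      rw [← Real.rpow_natCast, ← Real.rpow_natCast, ← Real.rpow_natCast, ← Real.rpow_mul (by norm_num),
        ← Real.rpow_mul (by norm_num), ← Real.rpow_mul (by norm_num), ← Real.rpow_add (by norm_num)]
      congr 1
      rw [Nat.cast_sub hkk]
      ring
    rw [h3]
    exact mul_le_mul_of_nonneg_right h2 (by positivity)
  refine (Finset.sum_le_sum h1).trans ?_
  rw [← Finset.mul_sum]
  apply mul_le_mul_of_nonneg_left _ (by positivity)
  apply r7_geo _ hr0.le hr1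
  intro a ha b hb hab
  have h1 : k0 ≤ a := hmin a ha
  have h2 : k0 ≤ b := hmin b hb
  have h3 : a - k0 = b - k0 := hab
  omega

/-- deterministic level inequality -/
theorem r7_level (p p1 : ℝ) (hp : 1 < p) (hp1 : p < p1) :
    ∃ C : ℝ, 0 < C ∧ ∀ (F : Finset ℕ) (x : ℕ → ℝ), (∀ k, 0 ≤ x k) →
      (∑ k ∈ F, (2 : ℝ) ^ k * x k) ^ p ≤ C * ∑ k ∈ F, ((2 : ℝ) ^ k) ^ p * (x k + x k ^ p1) := by
  have hp0 : 0 < p := by linarith
  have hp10 : 0 < p1 := by linarith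
  set α := 1 - p / p1 with hα
  have hα0 : 0 < α := by
    rw [hα, sub_pos, div_lt_one hp10]; exact hp1
  set β := p - 1 with hβ
  have hβ0 : 0 < β := by rw [hβ]; linarith
  set c1 := 1 / (1 - (2 : ℝ) ^ (-α)) with hc1
  set c2 := 1 / (1 - (2 : ℝ) ^ (-β)) with hc2
  have hc10 : 0 < c1 := by
    have : (2 : ℝ) ^ (-α) < 1 := Real.rpow_lt_one_of_one_lt_of_neg (by norm_num) (by linarith)
    rw [hc1]; apply one_div_pos.2; linarith
  have hc20 : 0 < c2 := by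
    have : (2 : ℝ) ^ (-β) < 1 := Real.rpow_lt_one_of_one_lt_of_neg (by norm_num) (by linarith)
    rw [hc2]; apply one_div_pos.2; linarith
  refine ⟨(c1 + c2) ^ p, by positivity, fun F x hx => ?_⟩
  set R := ∑ k ∈ F, ((2 : ℝ) ^ k) ^ p * (x k + x k ^ p1) with hR
  have hterm : ∀ k, 0 ≤ ((2 : ℝ) ^ k) ^ p * (x k + x k ^ p1) := fun k => by
    have := hx k
    positivity
  have hR0 : 0 ≤ R := Finset.sum_nonneg fun k _ => hterm k
  have hle : ∀ k ∈ F, ((2 : ℝ) ^ k) ^ p * (x k + x k ^ p1) ≤ R := fun k hk =>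
    Finset.single_le_sum (f := fun k => ((2 : ℝ) ^ k) ^ p * (x k + x k ^ p1))
      (fun k _ => hterm k) hk
  rcases hR0.eq_or_lt with hz | hpos
  · have hx0 : ∀ k ∈ F, x k = 0 := by
      intro k hk
      have h1 := hle k hk
      rw [← hz] at h1
      have h2 : 0 < ((2 : ℝ) ^ k) ^ p := by positivity
      have h3 : 0 ≤ x k ^ p1 := Real.rpow_nonneg (hx k) _
      have h4 : x k + x k ^ p1 ≤ 0 := by
        by_contra h5
        push Not at h5
        have := mul_pos h2 h5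
        linarith
      have := hx k
      linarith
    have hS : ∑ k ∈ F, (2 : ℝ) ^ k * x k = 0 :=
      Finset.sum_eq_zero fun k hk => by rw [hx0 k hk, mul_zero]
    rw [hS, Real.zero_rpow hp0.ne', ← hz, mul_zero]
  set θ := R ^ (1 / p) with hθ
  have hθ0 : 0 < θ := Real.rpow_pos_of_pos hpos _
  have hRθ : R = θ ^ p := by
    rw [hθ, ← Real.rpow_mul hR0, one_div_mul_cancel hp0.ne', Real.rpow_one]
  -- low terms
  have hlow : ∑ k ∈ F.filter (fun k => (2 : ℝ) ^ k ≤ θ), (2 : ℝ) ^ k * x k ≤ θ * c1 := by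
    have h1 : ∀ k ∈ F.filter (fun k => (2 : ℝ) ^ k ≤ θ), (2 : ℝ) ^ k * x k
        ≤ θ ^ (p / p1) * ((2 : ℝ) ^ k) ^ α := by
      intro k hk
      have hkF := (Finset.mem_filter.1 hk).1
      have h2 := hle k hkF
      have hA : (0 : ℝ) < (2 : ℝ) ^ k := by positivity
      have h3 : ((2 : ℝ) ^ k) ^ p * x k ^ p1 ≤ R := by
        refine le_trans ?_ h2
        apply mul_le_mul_of_nonneg_left _ (by positivity)
        linarith [hx k]
      have h4 : (((2 : ℝ) ^ k) ^ p * x k ^ p1) ^ (1 / p1) ≤ R ^ (1 / p1) :=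
        Real.rpow_le_rpow (by have := hx k; positivity) h3 (by positivity)
      rw [Real.mul_rpow (by positivity) (Real.rpow_nonneg (hx k) _), ← Real.rpow_mul hA.le,
        ← Real.rpow_mul (hx k), mul_one_div_cancel hp10.ne', Real.rpow_one, hRθ,
        ← Real.rpow_mul hθ0.le, mul_one_div] at h4
      calc (2 : ℝ) ^ k * x k = ((2 : ℝ) ^ k) ^ α * (((2 : ℝ) ^ k) ^ (p / p1) * x k) := by
            rw [← mul_assoc, ← Real.rpow_add hA, hα, sub_add_cancel, Real.rpow_one]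
        _ ≤ ((2 : ℝ) ^ k) ^ α * θ ^ (p / p1) := mul_le_mul_of_nonneg_left h4 (by positivity)
        _ = _ := mul_comm _ _
    refine (Finset.sum_le_sum h1).trans ?_
    rw [← Finset.mul_sum]
    have h5 := r7_low α θ hα0 hθ0 (F.filter (fun k => (2 : ℝ) ^ k ≤ θ))
      (fun k hk => (Finset.mem_filter.1 hk).2)
    calc _ ≤ θ ^ (p / p1) * (θ ^ α * c1) := mul_le_mul_of_nonneg_left h5 (by positivity)
      _ = (θ ^ (p / p1) * θ ^ α) * c1 := by ring
      _ = θ * c1 := by rw [← Real.rpow_add hθ0, hα, add_sub_cancel, Real.rpow_one]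
  have hhigh : ∑ k ∈ F.filter (fun k => ¬ (2 : ℝ) ^ k ≤ θ), (2 : ℝ) ^ k * x k ≤ θ * c2 := by
    have h1 : ∀ k ∈ F.filter (fun k => ¬ (2 : ℝ) ^ k ≤ θ), (2 : ℝ) ^ k * x k
        ≤ θ ^ p * ((2 : ℝ) ^ k) ^ (-β) := by
      intro k hk
      have hkF := (Finset.mem_filter.1 hk).1
      have h2 := hle k hkF
      have hA : (0 : ℝ) < (2 : ℝ) ^ k := by positivity
      have h3 : ((2 : ℝ) ^ k) ^ p * x k ≤ θ ^ p := by
        rw [← hRθ]
        refine le_trans ?_ h2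
        apply mul_le_mul_of_nonneg_left _ (by positivity)
        linarith [Real.rpow_nonneg (hx k) p1]
      calc (2 : ℝ) ^ k * x k = (((2 : ℝ) ^ k) ^ p * x k) * ((2 : ℝ) ^ k) ^ (-β) := by
            rw [mul_right_comm, ← Real.rpow_add hA, hβ]
            congr 1
            rw [show p + -(p - 1) = 1 by ring, Real.rpow_one]
        _ ≤ θ ^ p * ((2 : ℝ) ^ k) ^ (-β) := mul_le_mul_of_nonneg_right h3 (by positivity)
    refine (Finset.sum_le_sum h1).trans ?_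
    rw [← Finset.mul_sum]
    have h5 := r7_high β θ hβ0 hθ0 (F.filter (fun k => ¬ (2 : ℝ) ^ k ≤ θ))
      (fun k hk => (not_le.1 (Finset.mem_filter.1 hk).2).le)
    calc _ ≤ θ ^ p * (θ ^ (-β) * c2) := mul_le_mul_of_nonneg_left h5 (by positivity)
      _ = (θ ^ p * θ ^ (-β)) * c2 := by ring
      _ = θ * c2 := by rw [← Real.rpow_add hθ0, hβ, show p + -(p - 1) = 1 by ring, Real.rpow_one]
  have hsum : ∑ k ∈ F, (2 : ℝ) ^ k * x k ≤ θ * (c1 + c2) := by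
    rw [← Finset.sum_filter_add_sum_filter_not F (fun k => (2 : ℝ) ^ k ≤ θ)]
    linarith
  have hS0 : 0 ≤ ∑ k ∈ F, (2 : ℝ) ^ k * x k :=
    Finset.sum_nonneg fun k _ => mul_nonneg (by positivity) (hx k)
  calc (∑ k ∈ F, (2 : ℝ) ^ k * x k) ^ p ≤ (θ * (c1 + c2)) ^ p :=
        Real.rpow_le_rpow hS0 hsum hp0.le
    _ = (c1 + c2) ^ p * R := by
        rw [Real.mul_rpow hθ0.le (by positivity), hRθ]; ring

end P125S
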