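import Vale.Agent.P125S.R7a15

/-! R7: the level inequality over integer levels -/

namespace P125S
open Finset

theorem levels15 (p p1 : ℝ) (hp : 1 < p) (hp1 : p < p1) :
    ∃ C : ℝ, 0 < C ∧ ∀ (K : Finset ℤ) (t : ℤ → ℝ), (∀ k, 0 ≤ t k) →
    (∑ k ∈ K, t k) ^ p ≤ C * ∑ k ∈ K,
      ((2 : ℝ) ^ ((k : ℝ) * (p - 1)) * t k
        + (2 : ℝ) ^ (-(k : ℝ) * (p1 - p)) * (t k) ^ p1) := by
  obtain ⟨C, hC, h⟩ := r7_level p p1 hp hp1
  refine ⟨C, hC, fun K t ht => ?_⟩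
  obtain ⟨K0, hK0⟩ : ∃ K0 : ℤ, ∀ k ∈ K, K0 ≤ k := by
    by_cases hK : K.Nonempty
    · exact ⟨K.min' hK, fun k hk => Finset.min'_le K k hk⟩
    · refine ⟨0, fun k hk => ?_⟩
      exact absurd ⟨k, hk⟩ hK
  have h2 : (0 : ℝ) < 2 := two_pos
  have hinj : Set.InjOn (fun k : ℤ => (k - K0).toNat) (K : Set ℤ) := by
    intro a ha b hb hab
    have h1 := hK0 a ha
    have h3 := hK0 b hb
    simp only at hab
    omega
  have hback : ∀ k ∈ K, K0 + (((k - K0).toNat : ℕ) : ℤ) = k := by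
    intro k hk
    have h1 := hK0 k hk
    omega
  have key := h (K.image (fun k : ℤ => (k - K0).toNat))
    (fun j => (2 : ℝ) ^ (-((K0 + (j : ℤ) : ℤ) : ℝ)) * t (K0 + (j : ℤ)))
    (fun j => mul_nonneg (Real.rpow_nonneg h2.le _) (ht _))
  rw [Finset.sum_image hinj, Finset.sum_image hinj] at key
  have e1 : ∀ k ∈ K, (2 : ℝ) ^ ((k - K0).toNat) *
      ((2 : ℝ) ^ (-((K0 + (((k - K0).toNat : ℕ) : ℤ) : ℤ) : ℝ)) *
        t (K0 + (((k - K0).toNat : ℕ) : ℤ))) = (2 : ℝ) ^ (-(K0 : ℝ)) * t k := by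
    intro k hk
    rw [hback k hk]
    have hn : (((k - K0).toNat : ℕ) : ℝ) = (k : ℝ) - (K0 : ℝ) := by
      have := hback k hk
      have h4 : ((K0 + (((k - K0).toNat : ℕ) : ℤ) : ℤ) : ℝ) = (k : ℝ) := by rw [this]
      push_cast at h4
      have h5 : ((((k - K0).toNat : ℕ) : ℤ) : ℝ) = (((k - K0).toNat : ℕ) : ℝ) := by
        exact_mod_cast rfl
      linarith
    rw [← Real.rpow_natCast, hn, ← mul_assoc, ← Real.rpow_add h2]
    congr 2
    ring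
  have e2 : ∀ k ∈ K, ((2 : ℝ) ^ ((k - K0).toNat)) ^ p *
      ((2 : ℝ) ^ (-((K0 + (((k - K0).toNat : ℕ) : ℤ) : ℤ) : ℝ)) *
        t (K0 + (((k - K0).toNat : ℕ) : ℤ)) +
       ((2 : ℝ) ^ (-((K0 + (((k - K0).toNat : ℕ) : ℤ) : ℤ) : ℝ)) *
        t (K0 + (((k - K0).toNat : ℕ) : ℤ))) ^ p1) =
      (2 : ℝ) ^ (-(K0 : ℝ) * p) * ((2 : ℝ) ^ ((k : ℝ) * (p - 1)) * t k
        + (2 : ℝ) ^ (-(k : ℝ) * (p1 - p)) * (t k) ^ p1) := by
    intro k hk
    rw [hback k hk]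
    have hn : (((k - K0).toNat : ℕ) : ℝ) = (k : ℝ) - (K0 : ℝ) := by
      have := hback k hk
      have h4 : ((K0 + (((k - K0).toNat : ℕ) : ℤ) : ℤ) : ℝ) = (k : ℝ) := by rw [this]
      push_cast at h4
      have h5 : ((((k - K0).toNat : ℕ) : ℤ) : ℝ) = (((k - K0).toNat : ℕ) : ℝ) := by
        exact_mod_cast rfl
      linarith
    rw [← Real.rpow_natCast, hn, ← Real.rpow_mul h2.le,
      Real.mul_rpow (Real.rpow_nonneg h2.le _) (ht k), ← Real.rpow_mul h2.le, mul_add, mul_add,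
      ← mul_assoc, ← mul_assoc, ← mul_assoc, ← mul_assoc, ← Real.rpow_add h2, ← Real.rpow_add h2,
      ← Real.rpow_add h2, ← Real.rpow_add h2]
    congr 2
    · congr 1
      ring
    · congr 1
      ring
  rw [Finset.sum_congr rfl e1, Finset.sum_congr rfl e2, ← Finset.mul_sum, ← Finset.mul_sum,
    Real.mul_rpow (Real.rpow_nonneg h2.le _) (Finset.sum_nonneg fun k _ => ht k),
    ← Real.rpow_mul h2.le, mul_left_comm] at key
  exact le_of_mul_le_mul_left key (Real.rpow_pos_of_pos h2 _)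

end P125S
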