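import Vale.Agent.P125S.R6
import Vale.Agent.P125S.R7
import Vale.Agent.P125S.GT22
import Vale.Agent.P125S.Mf23
import Vale.Agent.P125S.Dt23
import Vale.Agent.P125S.R8a24

/-! R8: general step functions, geometric time; then deterministic time -/

namespace P125S
open Finset
variable {S : Type} [Fintype S]

theorem geo_time : ∃ K : ℝ, 0 < K ∧ ∀ (S : Type) [Fintype S] (C : Chain S) (q : ℝ),
    0 < q → q < 1 → ∀ (n : ℕ) (f : S → ℕ → ℝ) (Mx : ℕ),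
    ∑ m ∈ range Mx, (1 - q) * q ^ m * EE C m (fun ω =>
        (nrm n (fun c => f (ω (Fin.last m)) c - f (ω 0) c)) ^ (35 / 34 : ℝ))
      ≤ K * rho C (fun x y => (tv n (fun c => f y c - f x c)) ^ (35 / 34 : ℝ)) / (1 - q) :=
  geo_time22

theorem path_pair [DecidableEq S] (C : Chain S) (m : ℕ) (Φ : S → S → ℝ) :
    EE C m (fun ω => Φ (ω 0) (ω (Fin.last m))) =
      ∑ x, ∑ y, C.w x * ((Matrix.of C.P) ^ m) x y * Φ x y := by
  exact r8_path_pair C m Φ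

/-- three point comparison -/
theorem three_point [DecidableEq S] (C : Chain S) (N m : ℕ) (D : S → S → ℝ) (p : ℝ)
    (hp : 1 ≤ p) (hD0 : ∀ x y, 0 ≤ D x y) (hDs : ∀ x y, D x y = D y x)
    (hDt : ∀ x y z, D x z ≤ D x y + D y z) :
    ∑ x, ∑ y, C.w x * ((Matrix.of C.P) ^ N) x y * (D x y) ^ p
      ≤ 2 ^ (p - 1) * (∑ x, ∑ y, C.w x * ((Matrix.of C.P) ^ (N + m)) x y * (D x y) ^ p
        + ∑ x, ∑ y, C.w x * ((Matrix.of C.P) ^ m) x y * (D x y) ^ p) := by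
  exact r8_three_point C N m D p hp hD0 hDs hDt

/-- abstract passage from geometric to deterministic time -/
theorem det_time (d : ℕ → ℝ) (hd : ∀ m, 0 ≤ d m) (B A : ℝ) (hA : 1 ≤ A)
    (h1 : ∀ N m, d N ≤ A * (d (N + m) + d m))
    (h2 : ∀ q : ℝ, 0 < q → q < 1 → ∀ Mx, ∑ m ∈ range Mx, (1 - q) * q ^ m * d m ≤ B / (1 - q))
    (N : ℕ) (hN : 1 ≤ N) : d N ≤ 16 * A * B * N :=
  det_time23 d hd B A hA h1 h2 N hN

theorem markov_finite : ∃ K : ℝ, 0 < K ∧ ∀ (S : Type) [Fintype S] [DecidableEq S]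
    (C : Chain S) (n : ℕ) (f : S → ℕ → ℝ) (t : ℕ), 1 ≤ t →
    ∑ x, ∑ y, C.w x * ((Matrix.of C.P) ^ t) x y *
        (nrm n (fun c => f y c - f x c)) ^ (35 / 34 : ℝ)
      ≤ K * t * ∑ x, ∑ y, C.w x * C.P x y *
        (tv n (fun c => f y c - f x c)) ^ (35 / 34 : ℝ) := by
  obtain ⟨K0, hK0, hg⟩ := geo_time
  refine ⟨16 * 2 ^ (35 / 34 - 1 : ℝ) * K0, by positivity, ?_⟩
  intro S _ _ C n f t ht
  exact mf23_core C n f K0 (fun q hq0 hq1 Mx => hg S C q hq0 hq1 n f Mx)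
    (fun m Φ => path_pair C m Φ) (fun N m D p => three_point C N m D p)
    (fun d hd B A hA h1 h2 N hN => det_time d hd B A hA h1 h2 N hN) t ht

end P125S
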